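import Vale.Agent.P083.Energy

/-!
The amplification map attached to isometries with orthogonal ranges.
-/

namespace Vale.Agent.P083

open scoped InnerProductSpace
open ContinuousLinearMap

section alg

variable {C : Type*} [CStarAlgebra C] {J : Type} [Fintype J] [DecidableEq J]

/-- isometries with orthogonal ranges -/
def Iso (r : J → C) : Prop := ∀ a c, star (r a) * r c = if a = c then 1 else 0

/-- amplification -/
noncomputable def bB (r : J → C) (y : C) : C := ∑ a, r a * y * star (r a)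

/-- normalised block trace -/
noncomputable def fB (r : J → C) (y : C) : C :=
  (Fintype.card J : ℂ)⁻¹ • ∑ a, star (r a) * y * r a

variable {r : J → C}

lemma Iso.star_mul_bB (h : Iso r) (a : J) (y : C) : star (r a) * bB r y = y * star (r a) := by
  simp only [bB, Finset.mul_sum, ← mul_assoc, h a]
  rw [Finset.sum_eq_single a] <;> simp +contextual [eq_comm]

lemma Iso.bB_mul_r (h : Iso r) (a : J) (y : C) : bB r y * r a = r a * y := by
  simp only [bB, Finset.sum_mul, mul_assoc, h _ a]
  rw [Finset.sum_eq_single a] <;> simp +contextual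

lemma Iso.bB_mul (h : Iso r) (y z : C) : bB r (y * z) = bB r y * bB r z := by
  conv_rhs => rw [bB.eq_def r y]
  simp only [Finset.sum_mul, mul_assoc, h.star_mul_bB]
  simp only [bB, mul_assoc]

omit [DecidableEq J] in
lemma star_bB (y : C) : star (bB r y) = bB r (star y) := by
  simp [bB, star_sum, mul_assoc]

omit [DecidableEq J] in
lemma star_fB (y : C) : star (fB r y) = fB r (star y) := by
  simp [fB, star_sum, mul_assoc]

omit [DecidableEq J] in
lemma bB_sub (y z : C) : bB r (y - z) = bB r y - bB r z := by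
  simp [bB, mul_sub, sub_mul]

/-- amplification as a homomorphism -/
noncomputable def Iso.hom (h : Iso r) : C →⋆ₙₐ[ℂ] C where
  toFun := bB r
  map_smul' c y := by simp [bB, Finset.smul_sum]
  map_zero' := by simp [bB]
  map_add' y z := by simp [bB, mul_add, add_mul, Finset.sum_add_distrib]
  map_mul' := h.bB_mul
  map_star' y := (star_bB y).symm

lemma Iso.norm_bB_le (h : Iso r) (y : C) : ‖bB r y‖ ≤ ‖y‖ :=
  NonUnitalStarAlgHom.norm_apply_le h.hom y

omit [Fintype J] in
lemma Iso.norm_le (h : Iso r) (a : J) : ‖r a‖ ≤ 1 := by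
  have h1 : ‖r a‖ * ‖r a‖ = ‖(1 : C)‖ := by
    rw [← CStarRing.norm_star_mul_self, h a a]; simp
  have h2 : ‖(1 : C)‖ ≤ 1 := (IsStarProjection.one C).norm_le
  nlinarith [norm_nonneg (r a)]

lemma Iso.norm_fB_le (h : Iso r) (y : C) : ‖fB r y‖ ≤ ‖y‖ := by
  rcases Nat.eq_zero_or_pos (Fintype.card J) with h0 | h0
  · simp [fB, h0]
  have h1 : ∀ a, ‖star (r a) * y * r a‖ ≤ ‖y‖ := fun a => by
    refine (norm_mul₃_le).trans ?_
    rw [norm_star]
    have := h.norm_le a
    have h2 : ‖r a‖ * ‖y‖ ≤ ‖y‖ := by nlinarith [norm_nonneg y]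
    nlinarith [norm_nonneg y, norm_nonneg (r a), mul_nonneg (norm_nonneg (r a)) (norm_nonneg y)]
  have h2 : ‖∑ a, star (r a) * y * r a‖ ≤ Fintype.card J * ‖y‖ :=
    (norm_sum_le _ _).trans ((Finset.sum_le_sum fun a _ => h1 a).trans (by simp))
  rw [fB, norm_smul, norm_inv, Complex.norm_natCast, inv_mul_le_iff₀ (by exact_mod_cast h0)]
  exact h2

lemma Iso.fB_conj (h : Iso r) (p y p' : C) : fB r (bB r p * y * bB r p') = p * fB r y * p' := by
  simp only [fB, mul_smul_comm, smul_mul_assoc, Finset.mul_sum, Finset.sum_mul]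
  congr 1
  refine Finset.sum_congr rfl fun a _ => ?_
  rw [← mul_assoc, ← mul_assoc, h.star_mul_bB, mul_assoc _ (bB r p'), h.bB_mul_r]
  simp only [mul_assoc]

end alg

variable {H : Type*} [NormedAddCommGroup H] [InnerProductSpace ℂ H] [CompleteSpace H]
  {ι : Type*} {b : HilbertBasis ι ℂ H} {J : Type} [Fintype J] [DecidableEq J]

namespace HS

/-- amplification on Hilbert-Schmidt elements -/
noncomputable def bK (r : J → H →L[ℂ] H) : HS b →L[ℂ] HS b :=
  ∑ a, (lm (r a)).comp (rm (star (r a)))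

/-- block trace on Hilbert-Schmidt elements -/
noncomputable def fK (r : J → H →L[ℂ] H) : HS b →L[ℂ] HS b :=
  (Fintype.card J : ℂ)⁻¹ • ∑ a, (lm (star (r a))).comp (rm (r a))

variable {r : J → H →L[ℂ] H}

omit [DecidableEq J] in
lemma bK_apply (x : HS b) : bK r x = ∑ a, lm (r a) (rm (star (r a)) x) := by simp [bK]

omit [DecidableEq J] in
lemma fK_apply (x : HS b) :
    fK r x = (Fintype.card J : ℂ)⁻¹ • ∑ a, lm (star (r a)) (rm (r a) x) := by simp [fK]

omit [DecidableEq J] in
@[simp] lemma op_bK (x : HS b) : op (bK r x) = bB r (op x) := by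
  simp [bK_apply, bB, mul_assoc]

omit [DecidableEq J] in
@[simp] lemma op_fK (x : HS b) : op (fK r x) = fB r (op x) := by
  simp [fK_apply, fB, mul_assoc]

omit [DecidableEq J] in
lemma FR.bK {x : HS b} (hx : FR x) : FR (bK r x) := by
  rw [bK_apply]; exact FR.sum _ fun a _ => (hx.rm _).lm _

omit [DecidableEq J] in
lemma FR.fK {x : HS b} (hx : FR x) : FR (fK r x) := by
  rw [fK_apply]; exact (FR.sum _ fun a _ => (hx.rm _).lm _).smul _

lemma norm_bK (h : Iso r) (x : HS b) : ‖bK r x‖ ^ 2 = Fintype.card J * ‖x‖ ^ 2 := by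
  rw [bK_apply, pyth_sum_left]
  · have : ∀ a, ‖lm (r a) (rm (star (r a)) x)‖ = ‖x‖ := fun a => by
      have n1 := h.norm_le a
      have n2 : ‖star (r a)‖ ≤ 1 := by rwa [norm_star]
      refine le_antisymm (norm_le_of_op_eq_mul₂ n1 n2 (by simp [mul_assoc]))
        (norm_le_of_op_eq_mul₂ n2 n1 ?_)
      simp only [op_lm, op_rm, mul_assoc, h a a, if_true, mul_one]
      rw [← mul_assoc, h a a]; simp
    simp [this]
  · intro a _ c _ hac
    simp only [op_lm, op_rm, star_mul, mul_assoc]
    rw [← mul_assoc (star (r a)), h a c]; simp [hac]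

lemma IsP.bK (h : Iso r) {x : HS b} (hx : IsP x) : IsP (bK r x) :=
  ⟨hx.fr.bK, ⟨by rw [IsIdempotentElem, op_bK, ← h.bB_mul, hx.mul_self],
    by rw [IsSelfAdjoint, op_bK, star_bB, hx.star_eq]⟩⟩

end HS

end Vale.Agent.P083
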