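import Vale.Agent.P083.Spec
import Vale.Agent.P083.Beta

/-!
The inductive construction of almost invariant expanding projections of unbounded rank.
-/

namespace Vale.Agent.P083

open scoped InnerProductSpace
open ContinuousLinearMap

variable {H : Type*} [NormedAddCommGroup H] [InnerProductSpace ℂ H] [CompleteSpace H]
  {ι : Type*} {b : HilbertBasis ι ℂ H} {I J : Type} [Fintype I] [Fintype J] [DecidableEq J]

namespace HS

/-- The approximate relations, at the level of Hilbert-Schmidt estimates. -/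
structure Hyp (b : HilbertBasis ι ℂ H) (U : I → H →L[ℂ] H) (r : J → H →L[ℂ] H) (L ε : ℝ) :
    Prop where
  normU : ∀ i, ‖U i‖ ≤ 1
  iso : Iso r
  gap : ∀ x : HS b, FR x → star (op x) = op x → ‖op x‖ ≤ 1 → ∃ x' : HS b, FR x' ∧
    star (op x') = op x' ∧ ‖op x'‖ ≤ 1 ∧ ‖x'‖ ≤ ‖x‖ ∧ En U x' ≤ ε * ‖x‖ ^ 2 ∧
      ‖x - x'‖ ^ 2 ≤ L * En U x + ε * ‖x‖ ^ 2
  up : ∀ x : HS b, En U (bK r x) ≤ L * En U x + ε * ‖x‖ ^ 2
  par : ∀ x : HS b, ‖lm (bB r 1) x - bK r (fK r x)‖ ^ 2 ≤ L * En U x + ε * ‖x‖ ^ 2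
  down : ∀ x : HS b, En U (fK r x) ≤ L * En U x + ε * ‖x‖ ^ 2
  base : ∃ P : HS b, IsP P ∧ ‖P‖ ^ 2 = 1 ∧ En U P ≤ ε

/-- almost invariant expanding projections -/
structure Good (U : I → H →L[ℂ] H) (δ lam : ℝ) (P : HS b) : Prop where
  isP : IsP P
  ne : P ≠ 0
  en : En U P ≤ δ * ‖P‖ ^ 2
  exp : ∀ Q : HS b, IsP Q → op P * op Q = op Q → ‖Q‖ ^ 2 ≤ ‖P‖ ^ 2 / 2 →
    lam * ‖Q‖ ^ 2 ≤ En U Q

variable {U : I → H →L[ℂ] H} {r : J → H →L[ℂ] H} {L ε : ℝ}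

lemma norm_add₃_sq_le {E : Type*} [SeminormedAddCommGroup E] (x y z : E) :
    ‖x + y + z‖ ^ 2 ≤ 3 * (‖x‖ ^ 2 + ‖y‖ ^ 2 + ‖z‖ ^ 2) := by
  have h : ‖x + y + z‖ ≤ ‖x‖ + ‖y‖ + ‖z‖ := norm_add₃_le
  have h2 : ‖x + y + z‖ ^ 2 ≤ (‖x‖ + ‖y‖ + ‖z‖) ^ 2 := by gcongr
  nlinarith [sq_nonneg (‖x‖ - ‖y‖), sq_nonneg (‖x‖ - ‖z‖), sq_nonneg (‖y‖ - ‖z‖)]

lemma norm_mul_le_one {C : Type*} [SeminormedRing C] {a c : C} (ha : ‖a‖ ≤ 1) (hc : ‖c‖ ≤ 1) :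
    ‖a * c‖ ≤ 1 := (norm_mul_le _ _).trans (mul_le_one₀ ha (norm_nonneg _) hc)

lemma sq_le_of_le {x y k : ℝ} (hx : 0 ≤ x) (h : x ≤ k * y) : x ^ 2 ≤ k ^ 2 * y ^ 2 := by
  rw [← mul_pow]; gcongr

lemma corr (h : Hyp b U r L ε) {E : H →L[ℂ] H} (hE : IsStarProjection E) (c : I → HS b)
    (hc : ∀ i, op (c i) = U i * E - E * U i) {Q : HS b} (hQ : IsP Q) (hEQ : E * op Q = op Q)
    {κ : ℝ} (hκ : 0 < κ) :
    ∃ Q' : HS b, IsP Q' ∧ E * op Q' = op Q' ∧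
      En U Q' ≤ 3 * ((6 * ∑ i, ‖c i‖ ^ 2 + 3 * (ε * ‖Q‖ ^ 2)) / (2 * κ) +
        9 * κ * Fintype.card I * ‖Q‖ ^ 2) ∧
      ‖Q - Q'‖ ^ 2 ≤ 100 * (L * En U Q + ε * ‖Q‖ ^ 2) := by
  obtain ⟨x, hx1, hx2, hx3, hx4, hx5, hx6⟩ := h.gap Q hQ.fr hQ.star_eq hQ.norm_le
  have hEs : star E = E := hE.isSelfAdjoint
  have hEE : E * E = E := hE.isIdempotentElem
  have hEn := hE.norm_le
  have hQE : op Q * E = op Q := mul_comm_of_le hEs hQ.star_eq hEQ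
  set y : HS b := lm E (rm E x) with hy
  have hoy : op y = E * op x * E := by simp [hy, mul_assoc]
  have hy1 : FR y := (hx1.rm _).lm _
  have hy2 : star (op y) = op y := by simp [hoy, hEs, hx2, mul_assoc]
  have n1 : ‖E * op x‖ ≤ 1 := norm_mul_le_one hEn hx3
  have n2 : ‖op x * E‖ ≤ 1 := norm_mul_le_one hx3 hEn
  have hy3 : ‖op y‖ ≤ 1 := by rw [hoy]; exact norm_mul_le_one n1 hEn
  have hy4 : ‖y‖ ≤ ‖Q‖ := (norm_le_of_op_eq_mul₂ hEn hEn hoy).trans hx4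
  have hy5 : En U y ≤ 6 * ∑ i, ‖c i‖ ^ 2 + 3 * (ε * ‖Q‖ ^ 2) := by
    have : ∀ i, ‖cm (U i) y‖ ^ 2 ≤ 6 * ‖c i‖ ^ 2 + 3 * ‖cm (U i) x‖ ^ 2 := fun i => by
      have e : cm (U i) y = rm (op x * E) (c i) + lm E (rm E (cm (U i) x)) +
          lm (E * op x) (c i) := ext' (by
        simp only [op_cm, map_add, op_lm, op_rm, hoy, hc]; noncomm_ring)
      rw [e]
      refine (norm_add₃_sq_le _ _ _).trans ?_
      have a1 := pow_le_pow_left₀ (norm_nonneg _) (norm_rm_le_of_le_one n2 (c i)) 2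
      have a2 := pow_le_pow_left₀ (norm_nonneg _) (norm_lm_le_of_le_one n1 (c i)) 2
      have a3 := pow_le_pow_left₀ (norm_nonneg _) ((norm_lm_le_of_le_one hEn
        (rm E (cm (U i) x))).trans (norm_rm_le_of_le_one hEn _)) 2
      linarith
    calc En U y ≤ ∑ i, (6 * ‖c i‖ ^ 2 + 3 * ‖cm (U i) x‖ ^ 2) := Finset.sum_le_sum fun i _ => this i
      _ = 6 * ∑ i, ‖c i‖ ^ 2 + 3 * En U x := by
          rw [Finset.sum_add_distrib, En, Finset.mul_sum, Finset.mul_sum]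
      _ ≤ _ := by linarith
  obtain ⟨Q', hQ1, hQ2, hQ3, hQ4⟩ := exists_threshold h.normU hy1 hy2 hκ
  refine ⟨Q', hQ1, hQ4 E (by rw [hoy, ← mul_assoc, ← mul_assoc, hEE]), hQ2.trans ?_, ?_⟩
  · gcongr
  · have a1 : ‖y - Q‖ ≤ ‖Q - x‖ := by
      rw [norm_sub_rev Q]
      refine norm_le_of_op_eq_mul₂ hEn hEn ?_
      rw [map_sub, map_sub, hoy, mul_sub, sub_mul, hEQ, hQE]
    have a2 := norm_sub_sq_le hQ hy3
    have a3 : ‖Q - Q'‖ ≤ 10 * ‖Q - x‖ := by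
      have := norm_sub_le_norm_sub_add_norm_sub Q y Q'
      rw [norm_sub_rev Q y, norm_sub_rev y Q'] at this
      linarith
    have a4 := sq_le_of_le (norm_nonneg _) a3
    linarith

lemma corr' (σ : ℝ) (hσ : 0 < σ) : ∃ ε₁ : ℝ, 0 < ε₁ ∧ ε₁ ≤ σ ∧
    ∀ (U : I → H →L[ℂ] H) (r : J → H →L[ℂ] H) (L ε : ℝ), Hyp b U r L ε → ε ≤ ε₁ →
    ∀ (d : ℝ) (E : H →L[ℂ] H) (c : I → HS b) (Q : HS b), IsStarProjection E →
      (∀ i, op (c i) = U i * E - E * U i) → ∑ i, ‖c i‖ ^ 2 ≤ ε₁ * d → IsP Q →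
      E * op Q = op Q → ‖Q‖ ^ 2 ≤ d →
      ∃ Q' : HS b, IsP Q' ∧ E * op Q' = op Q' ∧ En U Q' ≤ σ * d ∧
        ‖Q - Q'‖ ^ 2 ≤ 100 * (L * En U Q + ε * ‖Q‖ ^ 2) := by
  set m : ℝ := (Fintype.card I : ℝ) with hm
  have hm0 : 0 ≤ m := Nat.cast_nonneg _
  set κ : ℝ := σ / (54 * (m + 1)) with hκ
  have hκ0 : 0 < κ := by positivity
  refine ⟨min σ (κ * σ / 27), by positivity, min_le_left _ _, ?_⟩
  intro U r L ε h hε d E c Q hE hc hcs hQ hEQ hQd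
  obtain ⟨Q', h1, h2, h3, h4⟩ := corr h hE c hc hQ hEQ hκ0
  refine ⟨Q', h1, h2, h3.trans ?_, h4⟩
  have hd : 0 ≤ d := (sq_nonneg _).trans hQd
  have e1 : min σ (κ * σ / 27) ≤ κ * σ / 27 := min_le_right _ _
  have a1 : ∑ i, ‖c i‖ ^ 2 ≤ κ * σ / 27 * d := hcs.trans (by gcongr)
  have a2 : ε * ‖Q‖ ^ 2 ≤ κ * σ / 27 * d := by
    have : ε ≤ κ * σ / 27 := hε.trans e1
    gcongr
  have a3 : (6 * ∑ i, ‖c i‖ ^ 2 + 3 * (ε * ‖Q‖ ^ 2)) / (2 * κ) ≤ σ * d / 6 := by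
    rw [div_le_iff₀ (by positivity)]; nlinarith
  have a4 : 9 * κ * m * ‖Q‖ ^ 2 ≤ σ * d / 6 := by
    have b1 : κ * m ≤ σ / 54 := by
      rw [hκ, div_mul_eq_mul_div, div_le_div_iff₀ (by positivity) (by positivity)]
      nlinarith
    calc 9 * κ * m * ‖Q‖ ^ 2 = 9 * (κ * m) * ‖Q‖ ^ 2 := by ring
      _ ≤ 9 * (σ / 54) * d := by gcongr
      _ = _ := by ring
  linarith

lemma compress {P₁ P₂ Q : HS b} (hP₁ : IsP P₁) (hP₂ : IsP P₂) (hQ : IsP Q)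
    (hle : op P₂ * op Q = op Q) :
    ‖lm (op P₁) (rm (op P₁) Q) - Q‖ ^ 2 ≤ 4 * ‖P₁ - P₂‖ ^ 2 ∧
      ‖lm (op P₁) (rm (op P₁) Q)‖ ^ 2 ≤ ‖P₁‖ ^ 2 := by
  have hle' : op Q * op P₂ = op Q := mul_comm_of_le hP₂.star_eq hQ.star_eq hle
  set x : HS b := lm (op P₁) (rm (op P₁) Q) with hx
  have hox : op x = op P₁ * op Q * op P₁ := by simp only [hx, op_lm, op_rm, mul_assoc]
  have n1 : ‖op Q * op P₁‖ ≤ 1 := norm_mul_le_one hQ.norm_le hP₁.norm_le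
  constructor
  · have e : x - Q = rm (op Q * op P₁) (P₁ - P₂) + lm (op Q) (P₁ - P₂) := ext' (by
      simp only [map_sub, map_add, op_lm, op_rm, hox, hle', ← mul_assoc, hle]; abel)
    have a1 := norm_rm_le_of_le_one n1 (P₁ - P₂)
    have a2 := norm_lm_le_of_le_one hQ.norm_le (P₁ - P₂)
    have a3 : ‖x - Q‖ ≤ 2 * ‖P₁ - P₂‖ := by
      rw [e]; linarith [norm_add_le (rm (op Q * op P₁) (P₁ - P₂)) (lm (op Q) (P₁ - P₂))]
    have a4 := sq_le_of_le (norm_nonneg _) a3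
    linarith
  · have a1 : ‖x‖ ≤ ‖P₁‖ :=
      norm_le_of_op_eq_mul₂ (a := 1) norm_id_le n1 (by rw [hox, mul_assoc, one_mul])
    exact pow_le_pow_left₀ (norm_nonneg _) a1 2

/-- passing from a projection almost below the amplification to a projection below -/
lemma descend (h : Hyp b U r L ε) (hJ : 1 ≤ (Fintype.card J : ℝ)) {P Q x : HS b} (hP : IsP P)
    (hQ : IsP Q) (hx : x = lm (op (bK r P)) (rm (op (bK r P)) Q)) {t v : ℝ}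
    (x4 : L * En U x + ε * ‖x‖ ^ 2 ≤ t) (hv : 2 * t + 2 * ‖x - Q‖ ^ 2 ≤ Fintype.card J * v) :
    ∃ Q₀ : HS b, IsP Q₀ ∧ op P * op Q₀ = op Q₀ ∧ En U Q₀ ≤ 2 * t + 648 * Fintype.card I * v ∧
      ‖bK r Q₀ - Q‖ ^ 2 ≤ 164 * (Fintype.card J * v) := by
  set m : ℝ := (Fintype.card I : ℝ) with hm
  have hm0 : 0 ≤ m := Nat.cast_nonneg _
  set D : ℝ := (Fintype.card J : ℝ) with hD
  have hox : op x = bB r (op P) * op Q * bB r (op P) := by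
    simp only [hx, op_lm, op_rm, op_bK, mul_assoc]
  set y : HS b := fK r x with hy
  have hoy : op y = op P * fB r (op Q) * op P := by
    rw [hy, op_fK, hox, h.iso.fB_conj]
  have y1 : FR y := by rw [hy, hx]; exact ((hQ.fr.rm _).lm _).fK
  have y2 : star (op y) = op y := by
    simp [hoy, hP.star_eq, star_fB, hQ.star_eq, mul_assoc]
  have y3 : ‖op y‖ ≤ 1 := by
    rw [hoy]
    exact norm_mul_le_one (norm_mul_le_one hP.norm_le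
      ((h.iso.norm_fB_le (op Q)).trans hQ.norm_le)) hP.norm_le
  have y4 : ‖x - bK r y‖ ^ 2 ≤ t := by
    have e : lm (bB r 1) x = x := ext' (by
      rw [op_lm, hox, ← mul_assoc, ← mul_assoc, ← h.iso.bB_mul, one_mul])
    have := h.par x
    rw [e] at this
    exact this.trans x4
  have y5 : En U y ≤ t := (h.down x).trans x4
  have y6 : ‖bK r y - Q‖ ^ 2 ≤ D * v := by
    have e : bK r y - Q = (x - Q) - (x - bK r y) := by abel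
    have := norm_sub_sq_le_two (x - Q) (x - bK r y)
    rw [e]; linarith
  have y7 : ‖y - lm (op y) y‖ ^ 2 ≤ 9 * v := by
    have a1 := norm_sub_sq_le (y := bK r y) hQ (by
      rw [op_bK]; exact (h.iso.norm_bB_le _).trans y3)
    have e : bK r y - lm (op (bK r y)) (bK r y) = bK r (y - lm (op y) y) := ext' (by
      simp only [map_sub, op_lm, op_bK, h.iso.bB_mul])
    rw [e] at a1
    have a2 := sq_le_of_le (norm_nonneg _) a1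
    rw [norm_bK h.iso] at a2
    have a3 : D * ‖y - lm (op y) y‖ ^ 2 ≤ D * (9 * v) := by linarith
    exact le_of_mul_le_mul_left a3 (by linarith)
  obtain ⟨Q₀, q1, -, q3, q4⟩ := exists_threshold h.normU y1 y2 one_pos
  have q6 : ‖Q₀ - y‖ ^ 2 ≤ 81 * v := by
    have a2 := sq_le_of_le (norm_nonneg _) q3
    linarith
  refine ⟨Q₀, q1, q4 _ (by rw [hoy, ← mul_assoc, ← mul_assoc, hP.mul_self]), ?_, ?_⟩
  · have a1 := En_le_of_near h.normU Q₀ y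
    have a2 : 8 * m * ‖Q₀ - y‖ ^ 2 ≤ 8 * m * (81 * v) := by gcongr
    linarith
  · have e : bK r Q₀ - Q = bK r (Q₀ - y) + (bK r y - Q) := by rw [map_sub]; abel
    have a1 := norm_add_sq_le_two (bK r (Q₀ - y)) (bK r y - Q)
    rw [norm_bK h.iso] at a1
    have a2 : D * ‖Q₀ - y‖ ^ 2 ≤ D * (81 * v) := by gcongr
    rw [e]; linarith

lemma dichotomy (h : Hyp b U r L ε) (hL : 0 ≤ L) (hε : 0 ≤ ε) (hJ : 1 ≤ (Fintype.card J : ℝ))
    {δ lam ζ σ τ ν : ℝ} (hlam : 0 < lam) {P P₂ Q : HS b} (hP : Good U δ lam P) (hP₂ : IsP P₂)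
    (hnear : ‖bK r P - P₂‖ ^ 2 ≤ ζ * (Fintype.card J * ‖P‖ ^ 2)) (hQ : IsP Q)
    (hle : op P₂ * op Q = op Q) (hen : En U Q ≤ σ * (Fintype.card J * ‖P‖ ^ 2))
    (hδ : 0 ≤ δ) (hτ : L * (2 * σ + 32 * Fintype.card I * ζ) + ε ≤ τ) (hν : 2 * τ + 8 * ζ ≤ ν)
    (hν' : 164 * ν ≤ 1 / 100)
    (hs : 2 * δ + 2 * (2 * τ * Fintype.card J + 648 * Fintype.card I * ν) ≤ lam / 100) :
    ‖Q‖ ^ 2 ≤ (Fintype.card J * ‖P‖ ^ 2) / 50 ∨
      49 / 50 * (Fintype.card J * ‖P‖ ^ 2) ≤ ‖Q‖ ^ 2 := by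
  have hP₁ : IsP (bK r P) := hP.isP.bK h.iso
  obtain ⟨x1, x2⟩ := compress hP₁ hP₂ hQ hle
  rw [norm_bK h.iso] at x2
  obtain ⟨x, hx⟩ : ∃ x, x = lm (op (bK r P)) (rm (op (bK r P)) Q) := ⟨_, rfl⟩
  rw [← hx] at x1 x2
  have hdesc := fun t v => descend h hJ hP.isP hQ hx (t := t) (v := v)
  have x3' := En_le_of_near h.normU x Q
  have hd1 : 1 ≤ ‖P‖ ^ 2 := hP.isP.one_le hP.ne
  have hexp := hP.exp
  have hPen := hP.en
  have hm0 : (0 : ℝ) ≤ Fintype.card I := Nat.cast_nonneg _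
  have hsub := fun Q₀ (q1 : IsP Q₀) => hP.isP.norm_sub q1
  generalize (Fintype.card I : ℝ) = m at *
  generalize hd : ‖P‖ ^ 2 = d at *
  have hd₁ : 0 < (Fintype.card J : ℝ) * d := by positivity
  have x1' : ‖x - Q‖ ^ 2 ≤ 4 * (ζ * (Fintype.card J * d)) := by linarith
  have x3 : En U x ≤ (2 * σ + 32 * m * ζ) * (Fintype.card J * d) := by
    have : 8 * m * ‖x - Q‖ ^ 2 ≤ 8 * m * (4 * (ζ * (Fintype.card J * d))) := by gcongr
    linarith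
  have x4 : L * En U x + ε * ‖x‖ ^ 2 ≤ τ * (Fintype.card J * d) := by
    have a1 : L * En U x ≤ L * ((2 * σ + 32 * m * ζ) * (Fintype.card J * d)) := by gcongr
    have a2 : ε * ‖x‖ ^ 2 ≤ ε * (Fintype.card J * d) := by gcongr
    have a3 := mul_le_mul_of_nonneg_right hτ hd₁.le
    linarith
  obtain ⟨Q₀, q1, q5, q7, q8⟩ := hdesc _ (ν * d) x4 (by
    have a3 := mul_le_mul_of_nonneg_right hν hd₁.le
    linarith)
  have q9 := (q1.bK h.iso).rank_sub_le hQ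
  have q10 := (q1.bK h.iso).rank_sub_le' hQ
  rw [norm_bK h.iso] at q9 q10
  have hJ0 : (0 : ℝ) ≤ Fintype.card J := Nat.cast_nonneg _
  generalize (Fintype.card J : ℝ) = D at *
  have q11 : 164 * (D * (ν * d)) ≤ D * d / 100 := by
    have a3 := mul_le_mul_of_nonneg_right hν' hd₁.le
    linarith
  have q12 : 2 * (δ * d) + 2 * En U Q₀ ≤ lam * (d / 100) := by
    have a3 := mul_le_mul_of_nonneg_right hs (by linarith : 0 ≤ d)
    linarith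
  by_cases hc : ‖Q₀‖ ^ 2 ≤ d / 2
  · left
    have a1 := hexp Q₀ q1 q5 hc
    have a0 : 0 ≤ δ * d := by positivity
    have a2 : lam * ‖Q₀‖ ^ 2 ≤ lam * (d / 100) := by linarith [En_nonneg U Q₀]
    have a3 : ‖Q₀‖ ^ 2 ≤ d / 100 := le_of_mul_le_mul_left a2 hlam
    have a4 : D * ‖Q₀‖ ^ 2 ≤ D * (d / 100) := by gcongr
    linarith
  · right
    have b1 := hsub Q₀ q1 q5
    have a1 := hexp (P - Q₀) (hP.isP.sub q1 q5)
      (by rw [map_sub, mul_sub, hP.isP.mul_self, q5]) (by rw [b1]; linarith)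
    have b2 := En_sub_le (U := U) P Q₀
    have a2 : lam * (d - ‖Q₀‖ ^ 2) ≤ lam * (d / 100) := by
      rw [b1] at a1; linarith
    have a3 : d - ‖Q₀‖ ^ 2 ≤ d / 100 := le_of_mul_le_mul_left a2 hlam
    have a4 : D * (d - ‖Q₀‖ ^ 2) ≤ D * (d / 100) := by gcongr
    linarith

/-- The variational extraction of an expander. -/
lemma extract {P₂ : HS b} (hP₂ : IsP P₂) {d lam σ δ₁ η : ℝ} (hL : 1 ≤ L) (hd : 1 ≤ d)
    (hlam : lam = 1 / (10000 * L)) (hη : 0 < η) (hη' : η ≤ lam) (hε : 0 ≤ ε)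
    (hε' : ε ≤ 1 / 10000)
    (hlo : 99 / 100 * d ≤ ‖P₂‖ ^ 2) (hhi : ‖P₂‖ ^ 2 ≤ 101 / 100 * d) (hen : En U P₂ ≤ δ₁ * d)
    (hcorr : ∀ Q : HS b, IsP Q → op P₂ * op Q = op Q → ‖Q‖ ^ 2 ≤ d → ∃ Q' : HS b, IsP Q' ∧
      op P₂ * op Q' = op Q' ∧ En U Q' ≤ σ * d ∧
        ‖Q - Q'‖ ^ 2 ≤ 100 * (L * En U Q + ε * ‖Q‖ ^ 2))
    (hdich : ∀ Q : HS b, IsP Q → op P₂ * op Q = op Q → En U Q ≤ σ * d →
      ‖Q‖ ^ 2 ≤ d / 50 ∨ 49 / 50 * d ≤ ‖Q‖ ^ 2) :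
    ∃ P : HS b, IsP P ∧ 9 / 10 * d ≤ ‖P‖ ^ 2 ∧ En U P ≤ (2 * δ₁ + 4 * (σ + ε + η)) * d ∧
      ∀ Q : HS b, IsP Q → op P * op Q = op Q → ‖Q‖ ^ 2 ≤ ‖P‖ ^ 2 / 2 →
        lam * ‖Q‖ ^ 2 ≤ En U Q := by
  have hlam0 : 0 < lam := by rw [hlam]; positivity
  have hlamL : lam * L = 1 / 10000 := by rw [hlam]; field_simp
  have hlam1 : lam ≤ 1 / 10000 := by nlinarith
  set S : Set (HS b) := {Q | IsP Q ∧ op P₂ * op Q = op Q ∧ ‖Q‖ ^ 2 ≤ 3 / 4 * d} with hS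
  set Ψ : HS b → ℝ := fun Q => En U Q - 2 * lam * ‖Q‖ ^ 2 with hΨ
  have h0 : (0 : HS b) ∈ S := ⟨IsP.zero, by simp, by simp; linarith⟩
  have hbdd : BddBelow (Ψ '' S) := ⟨-(2 * lam * (3 / 4 * d)), by
    rintro _ ⟨Q, hQ, rfl⟩
    have a1 : 2 * lam * ‖Q‖ ^ 2 ≤ 2 * lam * (3 / 4 * d) := by gcongr; exact hQ.2.2
    have := En_nonneg U Q
    simp only [hΨ]; linarith⟩
  obtain ⟨_, ⟨Q, ⟨q1, q2, q3⟩, rfl⟩, hQ⟩ :=
    Real.lt_sInf_add_pos (s := Ψ '' S) ⟨_, ⟨0, h0, rfl⟩⟩ hη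
  have hmin : ∀ Q' ∈ S, En U Q - 2 * lam * ‖Q‖ ^ 2 ≤ En U Q' - 2 * lam * ‖Q'‖ ^ 2 + η :=
    fun Q' hQ' => by
      have := csInf_le hbdd ⟨Q', hQ', rfl⟩
      simp only [hΨ] at this hQ; linarith
  have e1 : En U Q ≤ 3 * lam * d := by
    have a0 := hmin 0 h0
    have a1 : 2 * lam * ‖Q‖ ^ 2 ≤ 2 * lam * (3 / 4 * d) := by gcongr
    have a2 : lam ≤ lam * d := by nlinarith
    simp only [En_zero, norm_zero] at a0
    nlinarith
  obtain ⟨Q', p1, p2, p3, p4⟩ := hcorr Q q1 q2 (by linarith)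
  have e2 : L * En U Q ≤ 3 / 10000 * d := by
    have : L * En U Q ≤ L * (3 * lam * d) := by gcongr
    calc _ ≤ L * (3 * lam * d) := this
      _ = 3 * (lam * L) * d := by ring
      _ = _ := by rw [hlamL]; ring
  have e3 : ε * ‖Q‖ ^ 2 ≤ ε * d := by gcongr; linarith
  have e4 : ε * d ≤ 1 / 10000 * d := by gcongr
  have r1 := q1.rank_sub_le p1
  have r2 := q1.rank_sub_le' p1
  have e5 : ‖Q'‖ ^ 2 ≤ d / 50 := by
    rcases hdich Q' p1 p2 p3 with h | h <;> linarith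
  have e6 : ‖Q‖ ^ 2 ≤ 6 / 100 * d := by linarith
  have e7 : En U Q ≤ 2 * ((σ + ε + η) * d) := by
    have a0 := hmin Q' ⟨p1, p2, by linarith⟩
    have a1 : 2 * lam * (‖Q‖ ^ 2 - ‖Q'‖ ^ 2) ≤ 2 * lam * (100 * (L * En U Q + ε * d)) := by
      gcongr; linarith
    have a2 : 2 * lam * (100 * (L * En U Q + ε * d)) =
        200 * (lam * L) * En U Q + 200 * lam * (ε * d) := by ring
    have a3 : 200 * lam * (ε * d) ≤ 1 * (ε * d) := by gcongr; linarith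
    have a4 : η ≤ η * d := by nlinarith
    rw [hlamL] at a2
    have a5 := En_nonneg U Q
    linarith
  have n1 := hP₂.norm_sub q1 q2
  refine ⟨P₂ - Q, hP₂.sub q1 q2, by linarith, ?_, fun R s1 s2 s3 => ?_⟩
  · have := En_sub_le (U := U) P₂ Q
    linarith
  · rcases eq_or_ne R 0 with rfl | hR
    · simp
    have q2' := mul_comm_of_le hP₂.star_eq q1.star_eq q2
    have t1 : op Q * op R = 0 := by
      rw [← s2, ← mul_assoc, map_sub, mul_sub, q2', q1.mul_self]; simp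
    have t2 : op P₂ * op R = op R := by
      rw [map_sub, sub_mul, t1, sub_zero] at s2; exact s2
    have t3 := q1.norm_add t1
    have a0 := hmin (Q + R) ⟨q1.add s1 t1, by rw [map_add, mul_add, q2, t2], by linarith⟩
    have a1 := q1.En_add_le (U := U) s1 t1
    have a2 := s1.one_le hR
    have a3 : lam ≤ lam * ‖R‖ ^ 2 := by nlinarith
    rw [t3] at a0
    linarith

end HS

end Vale.Agent.P083
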