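import Vale.Agent.P083.Rel

/-!
Explicit finite dimensional approximation for the algebra generated by two Cuntz isometries.
-/

namespace Vale.Agent.P083

open scoped InnerProductSpace Matrix
open ContinuousLinearMap

variable {H : Type*} [NormedAddCommGroup H] [InnerProductSpace ℂ H] [CompleteSpace H]

section amp

variable {T : Type} [Fintype T]

/-- scalar matrices acting on a finite multiple of the Hilbert space -/
noncomputable def amp (H : Type*) [NormedAddCommGroup H] [InnerProductSpace ℂ H]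
    (x : Matrix T T ℂ) : PiLp 2 (fun _ : T => H) →L[ℂ] PiLp 2 (fun _ : T => H) :=
  (PiLp.continuousLinearEquiv 2 ℂ (fun _ : T => H)).symm.toContinuousLinearMap ∘L
    ContinuousLinearMap.pi fun α => ∑ β, x α β • PiLp.proj 2 (fun _ : T => H) β

omit [CompleteSpace H] in
lemma amp_apply (x : Matrix T T ℂ) (v : PiLp 2 (fun _ : T => H)) (α : T) :
    amp H x v α = ∑ β, x α β • v β := by simp [amp]

omit [CompleteSpace H] in
lemma amp_mul (x y : Matrix T T ℂ) : amp H (x * y) = amp H x ∘L amp H y := by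
  ext v α
  simp only [amp_apply, comp_apply, Matrix.mul_apply, Finset.sum_smul, Finset.smul_sum, smul_smul]
  rw [Finset.sum_comm]

omit [CompleteSpace H] in
lemma amp_add (x y : Matrix T T ℂ) : amp H (x + y) = amp H x + amp H y := by
  ext v α
  simp [amp_apply, add_smul, Finset.sum_add_distrib]

omit [CompleteSpace H] in
lemma amp_scalar [DecidableEq T] (c : ℂ) :
    amp H (c • (1 : Matrix T T ℂ)) = c • ContinuousLinearMap.id ℂ _ := by
  ext v α
  simp [amp_apply, Matrix.one_apply]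

/-- a column of operators -/
noncomputable def colOp (K : T → H →L[ℂ] H) : H →L[ℂ] PiLp 2 (fun _ : T => H) :=
  (PiLp.continuousLinearEquiv 2 ℂ (fun _ : T => H)).symm.toContinuousLinearMap ∘L
    ContinuousLinearMap.pi K

omit [CompleteSpace H] [Fintype T] in
@[simp] lemma colOp_apply (K : T → H →L[ℂ] H) (ζ : H) (α : T) : colOp K ζ α = K α ζ := by
  simp [colOp]

omit [CompleteSpace H] in
lemma norm_le_of_sum {E : Type*} [NormedAddCommGroup E] [NormedSpace ℂ E]
    (F : E →L[ℂ] PiLp 2 (fun _ : T => H)) {C : ℝ} (hC : 0 ≤ C)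
    (h : ∀ v, ∑ α, ‖F v α‖ ^ 2 ≤ C ^ 2 * ‖v‖ ^ 2) : ‖F‖ ≤ C := by
  refine opNorm_le_bound _ hC fun v => ?_
  refine (pow_le_pow_iff_left₀ (by positivity) (by positivity) two_ne_zero).1 ?_
  rw [PiLp.norm_sq_eq_of_L2, mul_pow]; exact h v

omit [CompleteSpace H] in
lemma norm_amp_rel (ρ : T → T → Prop) [∀ α β, Decidable (ρ α β)]
    (h1 : ∀ α β β', ρ α β → ρ α β' → β = β') (h2 : ∀ α α' β, ρ α β → ρ α' β → α = α') :
    ‖amp H (Matrix.of fun α β => if ρ α β then (1 : ℂ) else 0)‖ ≤ 1 := by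
  refine norm_le_of_sum _ zero_le_one fun v => ?_
  have a1 : ∀ α, ‖amp H (Matrix.of fun α β => if ρ α β then (1 : ℂ) else 0) v α‖ ^ 2 =
      ∑ β, if ρ α β then ‖v β‖ ^ 2 else 0 := fun α => by
    rw [amp_apply]
    by_cases h : ∃ β, ρ α β
    · obtain ⟨β, hβ⟩ := h
      rw [Finset.sum_eq_single β, Finset.sum_eq_single β]
      · simp [hβ]
      · intro β' _ hb; rw [if_neg fun h => hb (h1 _ _ _ h hβ)]
      · simp
      · intro β' _ hb; simp [if_neg fun h => hb (h1 _ _ _ h hβ)]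
      · simp
    · push Not at h; simp [h]
  simp only [a1]
  rw [Finset.sum_comm, PiLp.norm_sq_eq_of_L2, one_pow, one_mul]
  refine Finset.sum_le_sum fun β _ => ?_
  by_cases h : ∃ α, ρ α β
  · obtain ⟨α, hα⟩ := h
    rw [Finset.sum_eq_single α]
    · simp [hα]
    · intro α' _ hb; rw [if_neg fun h => hb (h2 _ _ _ h hα)]
    · simp
  · push Not at h; simp [h]

end amp

/-- words of a given length -/
def words : ℕ → Finset (List Bool)
  | 0 => {[]}
  | m + 1 => (Finset.univ ×ˢ words m).image fun t : Bool × List Bool => t.1 :: t.2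

lemma mem_words {m : ℕ} {l : List Bool} : l ∈ words m ↔ l.length = m := by
  induction m generalizing l with
  | zero => simp [words]
  | succ m ih =>
    cases l with
    | nil => simp [words]
    | cons a l => simp [words, ih]

/-- words of bounded length -/
def allw (M : ℕ) : Finset (List Bool) := (Finset.range M).biUnion words

lemma mem_allw {M : ℕ} {l : List Bool} : l ∈ allw M ↔ l.length < M := by
  simp [allw, mem_words]

lemma sum_allw (M : ℕ) (f : List Bool → ℝ) :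
    ∑ α : allw M, f α = ∑ m ∈ Finset.range M, ∑ l ∈ words m, f l := by
  rw [Finset.sum_coe_sort (allw M) f, allw, Finset.sum_biUnion]
  intro m _ m' _ h
  rw [Function.onFun, Finset.disjoint_left]
  intro l h1 h2
  exact h ((mem_words.1 h1).symm.trans (mem_words.1 h2))

/-- products of generators -/
noncomputable def wd (S : Bool → H →L[ℂ] H) : List Bool → H →L[ℂ] H
  | [] => 1
  | i :: l => S i * wd S l

/-- the Cuntz relations -/
structure Cz (S : Bool → H →L[ℂ] H) : Prop where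
  iso : ∀ i, star (S i) * S i = 1
  sum : S false * star (S false) + S true * star (S true) = 1

variable {S : Bool → H →L[ℂ] H}

lemma Cz.norm_sum (h : Cz S) (ζ : H) : ∑ i, ‖star (S i) ζ‖ ^ 2 = ‖ζ‖ ^ 2 := by
  have h1 : ∀ i, ((‖star (S i) ζ‖ ^ 2 : ℝ) : ℂ) = ⟪ζ, (S i * star (S i)) ζ⟫_ℂ := fun i => by
    rw [mul_apply_eq_comp, ← adjoint_inner_left, ← star_eq_adjoint, inner_self_eq_norm_sq_to_K]
    simp
  have h2 : ((∑ i, ‖star (S i) ζ‖ ^ 2 : ℝ) : ℂ) = ((‖ζ‖ ^ 2 : ℝ) : ℂ) := by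
    rw [Fintype.sum_bool, Complex.ofReal_add, h1, h1, ← inner_add_right, ← add_apply, add_comm,
      h.sum, one_apply_eq_self, inner_self_eq_norm_sq_to_K]
    simp
  exact_mod_cast h2

lemma Cz.norm_S (h : Cz S) (i : Bool) (ζ : H) : ‖S i ζ‖ = ‖ζ‖ :=
  (norm_map_iff_adjoint_comp_self (S i)).2 (h.iso i) ζ

lemma Cz.orth (h : Cz S) (i j : Bool) : star (S j) * S i = if j = i then 1 else 0 := by
  split_ifs with hij
  · rw [hij, h.iso]
  · ext ζ
    have h1 := h.norm_sum (S i ζ)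
    have h2 : star (S i) (S i ζ) = ζ := by rw [← mul_apply_eq_comp, h.iso]; rfl
    rw [← Finset.add_sum_erase _ _ (Finset.mem_univ i), h2, h.norm_S, add_eq_left,
      Finset.sum_eq_zero_iff_of_nonneg fun _ _ => by positivity] at h1
    simpa using h1 j (by simp [hij])

lemma Cz.sum_words (h : Cz S) (m : ℕ) (ζ : H) :
    ∑ l ∈ words m, ‖star (wd S l) ζ‖ ^ 2 = ‖ζ‖ ^ 2 := by
  induction m generalizing ζ with
  | zero => simp [words, wd]
  | succ m ih =>
    rw [words, Finset.sum_image, Finset.sum_product]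
    · simp only [wd, star_mul, mul_apply_eq_comp, ih, h.norm_sum]
    · rintro ⟨a, l⟩ _ ⟨a', l'⟩ _ e
      simpa using e

/-- the isometry into a finite multiple -/
noncomputable def Kop (S : Bool → H →L[ℂ] H) (M : ℕ) (α : allw M) : H →L[ℂ] H :=
  (((√M)⁻¹ : ℝ) : ℂ) • star (wd S α)

lemma norm_Kop (M : ℕ) (α : allw M) (ζ : H) :
    ‖Kop S M α ζ‖ ^ 2 = (√M)⁻¹ ^ 2 * ‖star (wd S α) ζ‖ ^ 2 := by
  simp [Kop, norm_smul, mul_pow]

lemma Cz.sum_Kop (h : Cz S) {M : ℕ} (hM : 0 < M) (ζ : H) :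
    ∑ α, ‖Kop S M α ζ‖ ^ 2 = ‖ζ‖ ^ 2 := by
  simp only [norm_Kop]
  rw [← Finset.mul_sum, sum_allw M fun l => ‖star (wd S l) ζ‖ ^ 2]
  have : (M : ℝ) ≠ 0 := by positivity
  simp [h.sum_words, this]

lemma Cz.norm_col (h : Cz S) {M : ℕ} (hM : 0 < M) : ‖colOp (Kop S M)‖ ≤ 1 :=
  norm_le_of_sum _ zero_le_one fun v => by
    simp only [colOp_apply, h.sum_Kop hM, one_pow, one_mul, le_refl]

/-- the intertwining defect -/
noncomputable def dfc (S : Bool → H →L[ℂ] H) (M : ℕ) (y : H →L[ℂ] H)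
    (x : Matrix (allw M) (allw M) ℂ) : H →L[ℂ] PiLp 2 (fun _ : allw M => H) :=
  colOp (Kop S M) ∘L y - amp H x ∘L colOp (Kop S M)

/-- operators that are approximately intertwined with scalar matrices -/
def Nice (S : Bool → H →L[ℂ] H) (y : H →L[ℂ] H) : Prop :=
  ∃ C : ℝ, 0 ≤ C ∧ ∀ M : ℕ, 0 < M → ∃ x : Matrix (allw M) (allw M) ℂ, ‖amp H x‖ ≤ C ∧
    ‖amp H xᴴ‖ ≤ C ∧ ‖dfc S M y x‖ ≤ C * (√M)⁻¹ ∧ ‖dfc S M (star y) xᴴ‖ ≤ C * (√M)⁻¹

lemma Nice.star {y : H →L[ℂ] H} (h : Nice S y) : Nice S (star y) := by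
  obtain ⟨C, hC, h⟩ := h
  refine ⟨C, hC, fun M hM => ?_⟩
  obtain ⟨x, h1, h2, h3, h4⟩ := h M hM
  exact ⟨xᴴ, h2, by simpa using h1, h4, by simpa using h3⟩

lemma dfc_add (M : ℕ) (y y' : H →L[ℂ] H) (x x' : Matrix (allw M) (allw M) ℂ) :
    dfc S M (y + y') (x + x') = dfc S M y x + dfc S M y' x' := by
  simp only [dfc, amp_add, comp_add, add_comp]; abel

lemma dfc_mul (M : ℕ) (y y' : H →L[ℂ] H) (x x' : Matrix (allw M) (allw M) ℂ) :
    dfc S M (y * y') (x * x') = dfc S M y x ∘L y' + amp H x ∘L dfc S M y' x' := by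
  simp only [dfc, amp_mul, comp_sub, sub_comp, mul_def, comp_assoc]; abel

lemma Nice.add {y y' : H →L[ℂ] H} (h : Nice S y) (h' : Nice S y') : Nice S (y + y') := by
  obtain ⟨C, hC, h⟩ := h
  obtain ⟨C', hC', h'⟩ := h'
  refine ⟨C + C', by positivity, fun M hM => ?_⟩
  obtain ⟨x, h1, h2, h3, h4⟩ := h M hM
  obtain ⟨x', h1', h2', h3', h4'⟩ := h' M hM
  refine ⟨x + x', ?_, ?_, ?_, ?_⟩
  · rw [amp_add]; exact (opNorm_add_le _ _).trans (by linarith)
  · rw [Matrix.conjTranspose_add, amp_add]; exact (opNorm_add_le _ _).trans (by linarith)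
  · rw [dfc_add]; exact (opNorm_add_le _ _).trans (by linarith)
  · rw [Matrix.conjTranspose_add, star_add, dfc_add]
    exact (opNorm_add_le _ _).trans (by linarith)

lemma Nice.mul {y y' : H →L[ℂ] H} (h : Nice S y) (h' : Nice S y') : Nice S (y * y') := by
  obtain ⟨C, hC, h⟩ := h
  obtain ⟨C', hC', h'⟩ := h'
  refine ⟨C * C' + C * ‖y'‖ + C' * ‖y‖, by positivity, fun M hM => ?_⟩
  obtain ⟨x, h1, h2, h3, h4⟩ := h M hM
  obtain ⟨x', h1', h2', h3', h4'⟩ := h' M hM
  have p1 : 0 ≤ C * ‖y'‖ := by positivity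
  have p2 : 0 ≤ C' * ‖y‖ := by positivity
  have p3 : 0 ≤ C * ‖y'‖ * (√M)⁻¹ := by positivity
  have p4 : 0 ≤ C' * ‖y‖ * (√M)⁻¹ := by positivity
  refine ⟨x * x', ?_, ?_, ?_, ?_⟩
  · rw [amp_mul]
    have : ‖amp H x‖ * ‖amp H x'‖ ≤ C * C' := by gcongr
    exact (opNorm_comp_le _ _).trans (by linarith)
  · rw [Matrix.conjTranspose_mul, amp_mul]
    have : ‖amp H x'ᴴ‖ * ‖amp H xᴴ‖ ≤ C' * C := by gcongr
    exact (opNorm_comp_le _ _).trans (by linarith)
  · rw [dfc_mul]
    have a1 : ‖dfc S M y x‖ * ‖y'‖ ≤ C * (√M)⁻¹ * ‖y'‖ := by gcongr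
    have a2 : ‖amp H x‖ * ‖dfc S M y' x'‖ ≤ C * (C' * (√M)⁻¹) := by gcongr
    refine (opNorm_add_le _ _).trans ((add_le_add (opNorm_comp_le _ _) (opNorm_comp_le _ _)).trans ?_)
    linarith
  · rw [Matrix.conjTranspose_mul, star_mul, dfc_mul]
    have a1 : ‖dfc S M (Star.star y') x'ᴴ‖ * ‖Star.star y‖ ≤ C' * (√M)⁻¹ * ‖y‖ := by
      rw [norm_star]; gcongr
    have a2 : ‖amp H x'ᴴ‖ * ‖dfc S M (Star.star y) xᴴ‖ ≤ C' * (C * (√M)⁻¹) := by gcongr
    refine (opNorm_add_le _ _).trans ((add_le_add (opNorm_comp_le _ _) (opNorm_comp_le _ _)).trans ?_)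
    linarith

lemma Nice.algebraMap (c : ℂ) : Nice S (algebraMap ℂ (H →L[ℂ] H) c) := by
  have h1 : ∀ (M : ℕ) (c : ℂ), ‖amp H (c • (1 : Matrix (allw M) (allw M) ℂ))‖ ≤ ‖c‖ :=
    fun M c => by
      rw [amp_scalar, norm_smul]
      exact mul_le_of_le_one_right (norm_nonneg _) norm_id_le
  have h2 : ∀ (M : ℕ) (c : ℂ), dfc S M (c • 1) (c • 1) = 0 := fun M c => by
    rw [dfc, amp_scalar]; ext; simp
  refine ⟨‖c‖, norm_nonneg _, fun M hM => ⟨c • 1, h1 M c, ?_, ?_, ?_⟩⟩
  · simpa using h1 M (Star.star c)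
  · rw [Algebra.algebraMap_eq_smul_one, h2, opNorm_zero]; positivity
  · rw [Algebra.algebraMap_eq_smul_one, star_smul, star_one, Matrix.conjTranspose_smul,
      Matrix.conjTranspose_one, h2, opNorm_zero]; positivity

lemma Cz.nice (h : Cz S) (i : Bool) : Nice S (S i) := by
  refine ⟨1, zero_le_one, fun M hM =>
    ⟨Matrix.of fun α β => if α.1 = i :: β.1 then (1 : ℂ) else 0, ?_, ?_, ?_, ?_⟩⟩
  · refine norm_amp_rel _ (fun α β β' h1 h2 => ?_) (fun α α' β h1 h2 => ?_)
    · exact Subtype.ext (List.cons_injective (h1.symm.trans h2))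
    · exact Subtype.ext (h1.trans h2.symm)
  · have : (Matrix.of fun α β : allw M => if α.1 = i :: β.1 then (1 : ℂ) else 0)ᴴ =
        Matrix.of fun α β : allw M => if β.1 = i :: α.1 then (1 : ℂ) else 0 := by
      ext α β; simp
    rw [this]
    refine norm_amp_rel _ (fun α β β' h1 h2 => ?_) (fun α α' β h1 h2 => ?_)
    · exact Subtype.ext (h1.trans h2.symm)
    · exact Subtype.ext (List.cons_injective (h1.symm.trans h2))
  · refine norm_le_of_sum _ (by positivity) fun ζ => ?_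
    rw [Finset.sum_eq_single ⟨[], mem_allw.2 hM⟩]
    · simp [dfc, amp_apply, norm_Kop, wd, h.norm_S]
    · rintro ⟨α, hα⟩ _ hne
      cases α with
      | nil => exact absurd rfl hne
      | cons j l =>
        have hl : l ∈ allw M := mem_allw.2 (by have := mem_allw.1 hα; simp at this; omega)
        simp only [dfc, sub_apply, comp_apply, PiLp.sub_apply, colOp_apply, amp_apply,
          Matrix.of_apply, List.cons.injEq]
        rw [Finset.sum_eq_single ⟨l, hl⟩]
        · simp only [Kop, wd, star_mul, smul_apply, mul_apply_eq_comp]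
          rw [← mul_apply_eq_comp (star (S j)), h.orth]
          split_ifs <;> simp_all
        · rintro ⟨β, hβ⟩ _ hb
          rw [if_neg, zero_smul]
          rintro ⟨-, rfl⟩
          exact hb rfl
        · simp
    · simp
  · refine norm_le_of_sum _ (by positivity) fun ζ => ?_
    have a1 : ∀ α : allw M, ‖dfc S M (star (S i)) (Matrix.of fun α β : allw M =>
        if α.1 = i :: β.1 then (1 : ℂ) else 0)ᴴ ζ α‖ ^ 2 =
        if α.1.length + 1 = M then (√M)⁻¹ ^ 2 * ‖star (wd S α) (star (S i) ζ)‖ ^ 2 else 0 := by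
      rintro ⟨α, hα⟩
      have hα' := mem_allw.1 hα
      simp only [dfc, sub_apply, comp_apply, PiLp.sub_apply, colOp_apply, amp_apply,
        Matrix.of_apply, Matrix.conjTranspose_apply]
      split_ifs with hl
      · rw [Finset.sum_eq_zero, sub_zero, norm_Kop]
        rintro ⟨β, hβ⟩ _
        rw [if_neg, star_zero, zero_smul]
        rintro rfl
        have := mem_allw.1 hβ
        simp at this; omega
      · rw [Finset.sum_eq_single ⟨i :: α, mem_allw.2 (by simp; omega)⟩]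
        · simp [Kop, wd]
        · rintro ⟨β, hβ⟩ _ hb
          rw [if_neg, star_zero, zero_smul]
          rintro rfl
          exact hb rfl
        · simp
    simp only [a1]
    rw [sum_allw M fun l => if l.length + 1 = M then
      (√M)⁻¹ ^ 2 * ‖star (wd S l) (star (S i) ζ)‖ ^ 2 else 0, Finset.sum_eq_single (M - 1)]
    · rw [Finset.sum_congr rfl fun l hl => if_pos (by rw [mem_words.1 hl]; omega),
        ← Finset.mul_sum, h.sum_words, one_mul]
      gcongr ?_ * ?_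
      rw [← h.norm_sum ζ]
      exact Finset.single_le_sum (f := fun i => ‖star (S i) ζ‖ ^ 2) (fun _ _ => by positivity)
        (Finset.mem_univ i)
    · intro m _ hm
      exact Finset.sum_eq_zero fun l hl => if_neg (by rw [mem_words.1 hl]; omega)
    · intro hm; exact absurd (Finset.mem_range.2 (by omega)) hm

lemma Cz.nice_of_mem (h : Cz S) {y : H →L[ℂ] H}
    (hy : y ∈ StarAlgebra.adjoin ℂ ({S false, S true} : Set (H →L[ℂ] H))) : Nice S y := by
  induction hy using StarAlgebra.adjoin_induction with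
  | mem x hx => rcases hx with rfl | rfl <;> exact h.nice _
  | algebraMap c => exact Nice.algebraMap c
  | add x y _ _ hx hy => exact hx.add hy
  | mul x y _ _ hx hy => exact hx.mul hy
  | star x _ hx => exact hx.star

theorem ap_of_cuntz (S₁ S₂ : H →L[ℂ] H) (h₁ : star S₁ * S₁ = 1) (h₂ : star S₂ * S₂ = 1)
    (hs : S₁ * star S₁ + S₂ * star S₂ = 1) {I : Type} [Fintype I] (U : I → H →L[ℂ] H)
    (δ η : ℝ) (hη : δ ^ 2 < η)
    (hU : ∀ i, ∃ y ∈ StarAlgebra.adjoin ℂ ({S₁, S₂} : Set (H →L[ℂ] H)), ‖U i - y‖ ≤ δ) :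
    AP U η := by
  set S : Bool → H →L[ℂ] H := fun i => cond i S₂ S₁ with hS
  have h : Cz S := ⟨fun i => by cases i <;> assumption, hs⟩
  choose y hy hy' using hU
  choose C hC hC' using fun i => h.nice_of_mem (hy i)
  have hlim : Filter.Tendsto (fun M : ℕ => (√(M : ℝ))⁻¹) Filter.atTop (nhds 0) :=
    tendsto_inv_atTop_zero.comp (Real.tendsto_sqrt_atTop.comp tendsto_natCast_atTop_atTop)
  have hev : ∀ᶠ M : ℕ in Filter.atTop, ∀ i, (δ + C i * (√(M : ℝ))⁻¹) ^ 2 < η := by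
    refine Filter.eventually_all.2 fun i => ?_
    have : Filter.Tendsto (fun M : ℕ => (δ + C i * (√(M : ℝ))⁻¹) ^ 2) Filter.atTop
        (nhds ((δ + C i * 0) ^ 2)) := ((hlim.const_mul _).const_add _).pow 2
    exact this.eventually_lt_const (by simpa using hη)
  obtain ⟨M, hM1, hM⟩ := (hev.and (Filter.eventually_gt_atTop 0)).exists
  choose x hx1 hx2 hx3 hx4 using fun i => hC' i M hM
  have key : ∀ (u y : H →L[ℂ] H) (x : Matrix (allw M) (allw M) ℂ) (c : ℝ), ‖u - y‖ ≤ δ →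
      ‖dfc S M y x‖ ≤ c → (δ + c) ^ 2 < η → ∀ ζ, ∑ α, ‖Kop S M α (u ζ) -
        ∑ β, x α β • Kop S M β ζ‖ ^ 2 ≤ η * ‖ζ‖ ^ 2 := by
    intro u y x c h1 h2 h3 ζ
    have e : dfc S M u x = colOp (Kop S M) ∘L (u - y) + dfc S M y x := by
      simp only [dfc, comp_sub]; abel
    have a1 : ‖dfc S M u x‖ ≤ δ + c := by
      rw [e]
      refine (opNorm_add_le _ _).trans (add_le_add ((opNorm_comp_le _ _).trans ?_) h2)
      calc _ ≤ 1 * δ := by gcongr; exact h.norm_col hM
        _ = _ := one_mul _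
    have a2 : ‖dfc S M u x ζ‖ ≤ (δ + c) * ‖ζ‖ := (le_opNorm _ _).trans (by gcongr)
    have a3 := pow_le_pow_left₀ (norm_nonneg _) a2 2
    rw [PiLp.norm_sq_eq_of_L2, mul_pow] at a3
    simp only [dfc, sub_apply, comp_apply, PiLp.sub_apply, colOp_apply, amp_apply] at a3
    exact a3.trans (by gcongr)
  refine ⟨allw M, inferInstance, Kop S M, fun i => x i, h.sum_Kop hM,
    fun i => key _ _ _ _ (hy' i) (hx3 i) (hM1 i), fun i => ?_⟩
  exact key _ _ (x i)ᴴ _ (by rw [← star_sub, norm_star]; exact hy' i) (hx4 i) (hM1 i)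

end Vale.Agent.P083
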