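import Mathlib

/-!
Definitions used in the statement for P083: the norm ultrapower of a unital C*-algebra, and
Cuntz generators.
-/

namespace Vale.Agent.P083

open Filter Topology
open scoped ENNReal

/-- The unital complex star algebra `Q` is the quotient of `L` by the elements satisfying `I`: it is
the image of `L` under a unital star homomorphism whose kernel is given by `I`. -/
def IsStarQuotient (L : Type*) [Ring L] [StarRing L] [Algebra ℂ L] (I : L → Prop)
    (Q : Type*) [Ring Q] [StarRing Q] [Algebra ℂ Q] : Prop :=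
  ∃ π : L →⋆ₐ[ℂ] Q, Function.Surjective π ∧ ∀ x, π x = 0 ↔ I x

/-- `Q` is the norm ultrapower of `B` along `ω`: the quotient of the algebra of norm-bounded
sequences in `B` by the ideal of sequences whose norm tends to zero along `ω`. -/
def IsUltrapower (B : Type*) [CStarAlgebra B] [Nontrivial B] (ω : Ultrafilter ℕ)
    (Q : Type*) [Ring Q] [StarRing Q] [Algebra ℂ Q] : Prop :=
  IsStarQuotient (lp (fun _ : ℕ => B) ∞)
    (fun x => Tendsto (fun n => ‖x n‖) (ω : Filter ℕ) (𝓝 0)) Q

/-- A C*-algebra is generated by two isometries satisfying the Cuntz relation. -/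
def IsCuntzTwo (B : Type*) [CStarAlgebra B] (s₁ s₂ : B) : Prop :=
  star s₁ * s₁ = 1 ∧ star s₂ * s₂ = 1 ∧ s₁ * star s₁ + s₂ * star s₂ = 1 ∧
    (StarAlgebra.adjoin ℂ ({s₁, s₂} : Set B)).topologicalClosure = ⊤

end Vale.Agent.P083
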