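import Vale.Agent.P083.Rel

/-!
A sum of squares certificate for the spectral gap of families of unitaries of prime order
with pairwise Heisenberg relations.
-/

namespace Vale.Agent.P083

variable {R : Type*} [Ring R] [Algebra ℂ R] [StarRing R] [StarModule ℂ R]

omit [Algebra ℂ R] [StarModule ℂ R] in
lemma sos_sq (y : R) : star y * y ∈ SOS R := AddSubmonoid.subset_closure ⟨y, rfl⟩

omit [Algebra ℂ R] [StarModule ℂ R] in
lemma sos_proj {e : R} (h1 : star e = e) (h2 : e * e = e) : e ∈ SOS R := by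
  have := sos_sq e
  rwa [h1, h2] at this

lemma sos_smul {t : ℝ} (ht : 0 ≤ t) {x : R} (hx : x ∈ SOS R) : (t : ℂ) • x ∈ SOS R := by
  induction hx using AddSubmonoid.closure_induction with
  | mem x hx =>
    obtain ⟨y, rfl⟩ := hx
    have : (t : ℂ) • (star y * y) = star ((√t : ℂ) • y) * ((√t : ℂ) • y) := by
      rw [star_smul, smul_mul_smul_comm]
      congr 1
      simp only [Complex.star_def, Complex.conj_ofReal]
      rw [← Complex.ofReal_mul, Real.mul_self_sqrt ht]
    simp only [this]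
    exact sos_sq _
  | zero => simp
  | add x y _ _ hx hy => rw [smul_add]; exact add_mem hx hy

lemma sos_angle {x y f : R} {θ : ℝ} (h0 : 0 < θ) (h1 : θ < 1) (sx : star x = x) (sy : star y = y)
    (sf : star f = f) (xx : x * x = x) (yy : y * y = y) (ff : f * f = f) (fx : f * x = x)
    (fy : f * y = y) (xyx : x * (y * x) = ((θ : ℂ) ^ 2) • x)
    (yxy : y * (x * y) = ((θ : ℂ) ^ 2) • y) :
    (f - x) * (f - y) + (f - y) * (f - x) + (θ : ℂ) • ((f - x) + (f - y)) ∈ SOS R := by
  have xf : x * f = x := by have := congrArg star fx; rwa [star_mul, sx, sf] at this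
  have yf : y * f = y := by have := congrArg star fy; rwa [star_mul, sy, sf] at this
  have xx' : ∀ w, x * (x * w) = x * w := fun w => by rw [← mul_assoc, xx]
  have yy' : ∀ w, y * (y * w) = y * w := fun w => by rw [← mul_assoc, yy]
  have fx' : ∀ w, f * (x * w) = x * w := fun w => by rw [← mul_assoc, fx]
  have fy' : ∀ w, f * (y * w) = y * w := fun w => by rw [← mul_assoc, fy]
  have c0 : (θ : ℂ) ≠ 0 := by exact_mod_cast h0.ne'
  have c1 : (1 - θ : ℂ) ≠ 0 := by
    have : (1 - θ : ℝ) ≠ 0 := by linarith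
    exact_mod_cast this
  have c2 : (1 + θ : ℂ) ≠ 0 := by
    have : (1 + θ : ℝ) ≠ 0 := by linarith
    exact_mod_cast this
  set E : R := f - (((1 - θ) * (1 + θ) : ℂ)⁻¹) • (x + y - x * y - y * x) with hE
  have sE : star E = E := by
    simp only [hE, star_sub, star_add, star_smul, star_mul, sx, sy, sf]
    congr 2
    · simp [mul_comm]
    · abel
  have EE : E * E = E := by
    simp only [hE, mul_add, add_mul, mul_sub, sub_mul, smul_mul_assoc, mul_smul_comm, mul_assoc,
      xx, yy, ff, fx, fy, xf, yf, xx', yy', fx', fy', xyx, yxy, smul_add, smul_sub]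
    match_scalars <;> field_simp <;> ring
  set Y : R := (θ : ℂ) • x - x * y with hY
  have key : (f - x) * (f - y) + (f - y) * (f - x) + (θ : ℂ) • ((f - x) + (f - y)) =
      ((2 + 2 * θ : ℝ) : ℂ) • E + (((1 + θ) / (θ * (1 - θ)) : ℝ) : ℂ) • (star Y * Y) := by
    simp only [hE, hY, star_sub, star_smul, star_mul, sx, sy, Complex.star_def,
      Complex.conj_ofReal, mul_sub, sub_mul, smul_mul_assoc, mul_smul_comm,
      mul_assoc, xx, ff, fx, fy, xf, yf, xx', yxy, smul_add, smul_sub]
    push_cast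
    match_scalars <;> field_simp <;> ring
  rw [key]
  refine add_mem (sos_smul (by positivity) (sos_proj sE EE)) (sos_smul ?_ (sos_sq _))
  have : 0 < 1 - θ := by linarith
  positivity

lemma sos_comm {x y g : R} {θ : ℝ} (h0 : 0 ≤ θ) (px : IsStarProjection x)
    (py : IsStarProjection y) (pg : IsStarProjection g) (gx : x * g = x) (gy : y * g = y)
    (hc : x * y = y * x) :
    (g - x) * (g - y) + (g - y) * (g - x) + (θ : ℂ) • ((g - x) + (g - y)) ∈ SOS R := by
  have p1 := px.sub_of_mul_eq_left pg gx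
  have p2 := py.sub_of_mul_eq_left pg gy
  have gx' : g * x = x := by
    have := congrArg star gx; rwa [star_mul, px.isSelfAdjoint, pg.isSelfAdjoint] at this
  have gy' : g * y = y := by
    have := congrArg star gy; rwa [star_mul, py.isSelfAdjoint, pg.isSelfAdjoint] at this
  have hc' : Commute (g - x) (g - y) := by
    simp only [Commute, SemiconjBy, mul_sub, sub_mul, gx, gy, gx', gy', hc]; abel
  have p3 := p1.mul p2 hc'
  have p4 := p2.mul p1 hc'.symm
  exact add_mem (add_mem (sos_proj p3.2 p3.1) (sos_proj p4.2 p4.1))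
    (sos_smul h0 (add_mem (sos_proj p1.2 p1.1) (sos_proj p2.2 p2.1)))

lemma sos_pair {P Q G : R} {θ : ℝ} (h0 : 0 < θ) (h1 : θ < 1) (pP : IsStarProjection P)
    (pQ : IsStarProjection Q) (pG : IsStarProjection G) (cP : Commute P G)
    (cQ : Commute Q G) (hc : P * Q * G = Q * P * G)
    (hP : P * Q * P * (1 - G) = ((θ : ℂ) ^ 2) • (P * (1 - G)))
    (hQ : Q * P * Q * (1 - G) = ((θ : ℂ) ^ 2) • (Q * (1 - G))) :
    (1 - P) * (1 - Q) + (1 - Q) * (1 - P) + (θ : ℂ) • ((1 - P) + (1 - Q)) ∈ SOS R := by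
  have pF := pG.one_sub
  have cP' : Commute P (1 - G) := (Commute.one_right P).sub_right cP
  have cQ' : Commute Q (1 - G) := (Commute.one_right Q).sub_right cQ
  have key : ∀ f : R, f * f = f → Commute P f → Commute Q f →
      (f - P * f) * (f - Q * f) + (f - Q * f) * (f - P * f) +
        (θ : ℂ) • ((f - P * f) + (f - Q * f)) =
      ((1 - P) * (1 - Q) + (1 - Q) * (1 - P) + (θ : ℂ) • ((1 - P) + (1 - Q))) * f := by
    intro f ff c1 c2
    have c1' : ∀ w, f * (P * w) = P * (f * w) := fun w => by rw [← mul_assoc, ← c1.eq, mul_assoc]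
    have c2' : ∀ w, f * (Q * w) = Q * (f * w) := fun w => by rw [← mul_assoc, ← c2.eq, mul_assoc]
    simp only [mul_sub, sub_mul, add_mul, smul_mul_assoc, mul_assoc, c1', c2', ff, one_mul,
      mul_one]
  generalize hF : 1 - G = F at pF cP' cQ' hP hQ
  have FF : F * F = F := pF.1
  have GG : G * G = G := pG.1
  have c1 : ∀ w, F * (P * w) = P * (F * w) := fun w => by rw [← mul_assoc, ← cP'.eq, mul_assoc]
  have c2 : ∀ w, F * (Q * w) = Q * (F * w) := fun w => by rw [← mul_assoc, ← cQ'.eq, mul_assoc]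
  have c3 : ∀ w, G * (P * w) = P * (G * w) := fun w => by rw [← mul_assoc, ← cP.eq, mul_assoc]
  have c4 : ∀ w, G * (Q * w) = Q * (G * w) := fun w => by rw [← mul_assoc, ← cQ.eq, mul_assoc]
  have a1 := sos_angle (x := P * F) (y := Q * F) (f := F) h0 h1
    (pP.mul pF cP').2 (pQ.mul pF cQ').2 pF.2 (pP.mul pF cP').1 (pQ.mul pF cQ').1 FF
    (by simp only [c1, FF]) (by simp only [c2, FF])
    (by rw [← hP]; simp only [mul_assoc, c1, c2, FF])
    (by rw [← hQ]; simp only [mul_assoc, c1, c2, FF])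
  have a2 := sos_comm (x := P * G) (y := Q * G) h0.le (pP.mul pG cP) (pQ.mul pG cQ) pG
    (by rw [mul_assoc, GG]) (by rw [mul_assoc, GG])
    (by simp only [mul_assoc, c3, c4, GG] at hc ⊢; exact hc)
  rw [key F FF cP' cQ'] at a1
  rw [key G GG cP cQ] at a2
  have := add_mem a1 a2
  rwa [← mul_add, ← hF, sub_add_cancel, mul_one] at this

/-- average of the powers -/
noncomputable def avg (p : ℕ) (a : R) : R := (p : ℂ)⁻¹ • ∑ k ∈ Finset.range p, a ^ k

section avg

omit [StarRing R] [StarModule ℂ R]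

variable {p : ℕ}

lemma avg_mul_of {a y : R} (hp : p ≠ 0) (h : a * y = y) : avg p a * y = y := by
  have h1 : ∀ k : ℕ, a ^ k * y = y := fun k => by
    induction k with
    | zero => simp
    | succ k ih => rw [pow_succ, mul_assoc, h, ih]
  have : (p : ℂ) ≠ 0 := by exact_mod_cast hp
  simp only [avg, smul_mul_assoc, Finset.sum_mul, h1, Finset.sum_const, Finset.card_range]
  rw [← Nat.cast_smul_eq_nsmul ℂ, smul_smul, inv_mul_cancel₀ this, one_smul]

lemma commute_avg {a y : R} (h : Commute y a) : Commute y (avg p a) :=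
  (Commute.sum_right _ _ _ fun k _ => h.pow_right k).smul_right _

lemma mul_avg {a : R} (h : a ^ p = 1) : a * avg p a = avg p a := by
  rw [avg, mul_smul_comm, Finset.mul_sum]
  congr 1
  have h1 := Finset.sum_range_succ (fun k => a ^ k) p
  have h2 := Finset.sum_range_succ' (fun k => a ^ k) p
  rw [h1, h, pow_zero] at h2
  simp only [← pow_succ']
  exact (add_right_cancel h2).symm

lemma pow_mul_avg {a : R} (h : a ^ p = 1) (k : ℕ) : a ^ k * avg p a = avg p a := by
  induction k with
  | zero => simp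
  | succ k ih => rw [pow_succ, mul_assoc, mul_avg h, ih]

omit [Algebra ℂ R] in
lemma heis_pow {a c z : R} (h : a * c = z * (c * a)) (ha : z * a = a * z) (hc : z * c = c * z)
    (k j : ℕ) : a ^ k * c ^ j = (z ^ j) ^ k * (c ^ j * a ^ k) := by
  have ha' : Commute z a := ha
  have hc' : Commute z c := hc
  have h1 : a * c ^ j = z ^ j * (c ^ j * a) := by
    induction j with
    | zero => simp
    | succ j ih =>
      rw [pow_succ, ← mul_assoc, ih, mul_assoc, mul_assoc, h, ← mul_assoc (c ^ j),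
        ← (hc'.pow_right j).eq, pow_succ]
      simp only [mul_assoc]
  induction k with
  | zero => simp
  | succ k ih =>
    rw [pow_succ', mul_assoc, ih, ← mul_assoc, ← ((ha'.pow_left j).pow_left k).eq, mul_assoc,
      ← mul_assoc a, h1, pow_succ]
    simp only [mul_assoc]

lemma avg_pow_mul (hp : p.Prime) {z : R} (hz : z ^ p = 1) {j : ℕ} (h0 : 0 < j) (hj : j < p) :
    avg p (z ^ j) * (1 - avg p z) = 0 := by
  have h1 : (z ^ j) ^ p = 1 := by rw [← pow_mul, mul_comm, pow_mul, hz, one_pow]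
  obtain ⟨t, -, ht⟩ := Nat.exists_mul_mod_eq_one_of_coprime
    (Nat.coprime_of_lt_prime h0.ne' hj hp).symm hp.one_lt
  have h2 : z * avg p (z ^ j) = avg p (z ^ j) := by
    have := pow_mul_avg h1 t
    rwa [← pow_mul, ← Nat.div_add_mod (j * t) p, ht, pow_add, pow_mul, hz, one_pow, one_mul,
      pow_one] at this
  have h3 := avg_mul_of hp.ne_zero h2
  have h4 : Commute (avg p (z ^ j)) (avg p z) :=
    commute_avg (commute_avg ((Commute.refl z).pow_right j)).symm
  rw [mul_sub, mul_one, h4.eq, h3, sub_self]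

lemma heis_half (hp : p.Prime) {a c z : R} (h : a * c = z * (c * a)) (ha : z * a = a * z)
    (hc : z * c = c * z) (ap : a ^ p = 1) (zp : z ^ p = 1) :
    avg p a * avg p c * avg p a * (1 - avg p z) = (p : ℂ)⁻¹ • (avg p a * (1 - avg p z)) := by
  have ha' : Commute z a := ha
  have hc' : Commute z c := hc
  have h1 : ∀ j, avg p a * c ^ j * avg p a = avg p (z ^ j) * (c ^ j * avg p a) := fun j => by
    rw [avg.eq_def p a, avg.eq_def p (z ^ j)]
    simp only [smul_mul_assoc, Finset.sum_mul]
    congr 1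
    refine Finset.sum_congr rfl fun k _ => ?_
    rw [← avg.eq_def, heis_pow h ha hc, mul_assoc, mul_assoc, pow_mul_avg ap]
  have h2 : ∀ j ∈ Finset.range p, j ≠ 0 → avg p a * c ^ j * avg p a * (1 - avg p z) = 0 := by
    intro j hj h0
    have c1 : Commute (avg p (z ^ j)) (c ^ j * avg p a) :=
      (commute_avg (((hc'.pow_right j).mul_right (commute_avg ha')).pow_left j).symm).symm
    rw [h1, c1.eq, mul_assoc, avg_pow_mul hp zp (Nat.pos_of_ne_zero h0) (Finset.mem_range.1 hj),
      mul_zero]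
  rw [avg.eq_def p c]
  simp only [mul_smul_comm, smul_mul_assoc, Finset.mul_sum, Finset.sum_mul]
  congr 1
  rw [Finset.sum_eq_single 0 h2 (by simp [hp.pos]), pow_zero, mul_one,
    avg_mul_of hp.ne_zero (mul_avg ap)]

lemma heis_comm {a c z : R} (h : a * c = z * (c * a)) (ha : z * a = a * z)
    (hc : z * c = c * z) (zp : z ^ p = 1) :
    avg p a * avg p c * avg p z = avg p c * avg p a * avg p z := by
  have ha' : Commute z a := ha
  have hc' : Commute z c := hc
  have h1 : ∀ k j, a ^ k * c ^ j * avg p z = c ^ j * a ^ k * avg p z := fun k j => by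
    have c1 : Commute ((z ^ j) ^ k) (c ^ j * a ^ k) :=
      (((hc'.pow_right j).mul_right (ha'.pow_right k)).pow_left j).pow_left k
    rw [heis_pow h ha hc, c1.eq, mul_assoc, ← pow_mul, pow_mul_avg zp]
  rw [avg.eq_def p a, avg.eq_def p c]
  simp only [mul_smul_comm, smul_mul_assoc, Finset.mul_sum, Finset.sum_mul, h1, ← Finset.smul_sum]
  rw [Finset.sum_comm]

end avg

variable {p : ℕ}

omit [Algebra ℂ R] [StarModule ℂ R] in
lemma star_eq_pow (hp : p ≠ 0) {a : R} (hu : a ∈ unitary R) (ap : a ^ p = 1) :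
    star a = a ^ (p - 1) := by
  have h1 : a * a ^ (p - 1) = 1 := by rw [← pow_succ', Nat.sub_add_cancel (by omega), ap]
  calc star a = star a * (a * a ^ (p - 1)) := by rw [h1, mul_one]
    _ = _ := by rw [← mul_assoc, Unitary.star_mul_self_of_mem hu, one_mul]

lemma star_avg_eq (a : R) : star (avg p a) = avg p (star a) := by
  simp [avg, star_sum]

omit [StarModule ℂ R] in
lemma isStarProjection_avg (hp : p ≠ 0) {a : R} (hu : a ∈ unitary R) (ap : a ^ p = 1) :
    IsStarProjection (avg p a) := by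
  refine ⟨avg_mul_of hp (mul_avg ap), ?_⟩
  have h1 : a * star (avg p a) = star (avg p a) := by
    refine star_injective ?_
    rw [star_mul, star_star, star_eq_pow hp hu ap,
      ← ((commute_avg (Commute.refl a)).pow_left _).eq, pow_mul_avg ap]
  have h2 := avg_mul_of hp h1
  have h3 := congrArg star h2
  rw [star_mul, star_star, h2] at h3
  exact h3

lemma heis_pair (hp : p.Prime) {a c z : R} (ua : a ∈ unitary R) (uc : c ∈ unitary R)
    (ap : a ^ p = 1) (cp : c ^ p = 1) (h : a * c = z * (c * a)) (ha : z * a = a * z)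
    (hc : z * c = c * z) :
    (1 - avg p a) * (1 - avg p c) + (1 - avg p c) * (1 - avg p a) +
      (((√p)⁻¹ : ℝ) : ℂ) • ((1 - avg p a) + (1 - avg p c)) ∈ SOS R := by
  have uz : z ∈ unitary R := by
    have : z = a * c * star (c * a) := by
      rw [h, mul_assoc, Unitary.mul_star_self_of_mem (mul_mem uc ua), mul_one]
    rw [this]
    exact mul_mem (mul_mem ua uc) (Unitary.star_mem (mul_mem uc ua))
  have zp : z ^ p = 1 := by
    have h1 := heis_pow h ha hc p 1
    rw [ap, pow_one, pow_one, one_mul, mul_one] at h1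
    have h2 := congrArg (· * star c) h1
    simp only [mul_assoc, Unitary.mul_star_self_of_mem uc, mul_one] at h2
    exact h2.symm
  have pz := isStarProjection_avg hp.ne_zero uz zp
  have hz' : avg p (star z) = avg p z := by rw [← star_avg_eq, pz.isSelfAdjoint]
  have ha' : Commute z a := ha
  have hc' : Commute z c := hc
  have sz := star_eq_pow hp.ne_zero uz zp
  have h' : c * a = star z * (a * c) := by
    rw [h, ← mul_assoc, Unitary.star_mul_self_of_mem uz, one_mul]
  have hθ : ((((√p)⁻¹ : ℝ) : ℂ)) ^ 2 = (p : ℂ)⁻¹ := by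
    rw [← Complex.ofReal_pow, inv_pow, Real.sq_sqrt (Nat.cast_nonneg _)]; simp
  have hp1 : (1 : ℝ) < √p := by
    rw [Real.lt_sqrt zero_le_one]; exact_mod_cast hp.one_lt
  refine sos_pair (G := avg p z) (by positivity) (inv_lt_one_of_one_lt₀ hp1)
    (isStarProjection_avg hp.ne_zero ua ap) (isStarProjection_avg hp.ne_zero uc cp) pz
    (commute_avg (commute_avg ha').symm) (commute_avg (commute_avg hc').symm)
    (heis_comm h ha hc zp) (by rw [hθ]; exact heis_half hp h ha hc ap zp) ?_
  rw [hθ, ← hz']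
  exact heis_half hp h' (by rw [sz]; exact (hc'.pow_left _).eq)
    (by rw [sz]; exact (ha'.pow_left _).eq) cp (by rw [← star_pow, zp, star_one])

theorem heis_sos {I : Type} [Fintype I] [Nonempty I] (hp : p.Prime)
    (hI : Fintype.card I ^ 2 < p) :
    ∃ c : ℝ, 0 < c ∧ ∀ a : I → R, (∀ i, a i ∈ unitary R) → (∀ i, a i ^ p = 1) →
      (∀ i j, ∃ z : R, a i * a j = z * (a j * a i) ∧ z * a i = a i * z ∧ z * a j = a j * z) →
      Lap (fun γ : I × Fin p => a γ.1 ^ γ.2.val) * Lap (fun γ : I × Fin p => a γ.1 ^ γ.2.val)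
        - (c : ℂ) • Lap (fun γ : I × Fin p => a γ.1 ^ γ.2.val) ∈ SOS R := by
  classical
  set m : ℝ := (Fintype.card I : ℝ) with hm
  have hm0 : 0 < m := by rw [hm]; exact_mod_cast Fintype.card_pos
  have hmp : m < √p := by
    rw [Real.lt_sqrt hm0.le, hm]; exact_mod_cast hI
  have hsp : 0 < √(p : ℝ) := hm0.trans hmp
  set θ : ℝ := (√p)⁻¹ with hθ
  have hθ0 : 0 < θ := by positivity
  have hθm : m * θ < 1 := by rw [hθ, ← div_eq_mul_inv, div_lt_one hsp]; exact hmp
  refine ⟨(1 - m * θ) / m, div_pos (by linarith) hm0, fun a ua ap hh => ?_⟩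
  have pa := fun i => isStarProjection_avg hp.ne_zero (ua i) (ap i)
  have hp0 : (p : ℂ) ≠ 0 := by exact_mod_cast hp.ne_zero
  have hm' : (m : ℂ) ≠ 0 := by exact_mod_cast hm0.ne'
  have hmc : (Fintype.card I : ℂ) = m := by rw [hm]; simp
  set q : I → R := fun i => 1 - avg p (a i) with hq
  have hL : Lap (fun γ : I × Fin p => a γ.1 ^ γ.2.val) = ((m : ℂ)⁻¹) • ∑ i, q i := by
    have h1 : ∀ i, ∑ k : Fin p, a i ^ k.val = (p : ℂ) • avg p (a i) := fun i => by
      rw [avg, smul_smul, mul_inv_cancel₀ hp0, one_smul, Finset.sum_range]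
    have h2 : ∀ i, ∑ k : Fin p, star (a i ^ k.val) = (p : ℂ) • avg p (a i) := fun i => by
      rw [← star_sum, h1, star_smul, (pa i).isSelfAdjoint]; simp
    simp only [Lap, Fintype.sum_prod_type, Finset.sum_add_distrib, h1, h2, hq,
      Finset.sum_sub_distrib, Finset.sum_const, Finset.card_univ, Fintype.card_prod,
      Fintype.card_fin, ← Finset.smul_sum, ← Nat.cast_smul_eq_nsmul ℂ, Nat.cast_mul, hmc]
    match_scalars <;> field_simp <;> ring
  have hqq : ∀ i, q i * q i = q i := fun i => (pa i).one_sub.1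
  have hqs : ∀ i, q i ∈ SOS R := fun i => sos_proj (pa i).one_sub.2 (hqq i)
  have h3 : ∀ i j, q i * q j + q j * q i + (θ : ℂ) • (q i + q j) -
      (if i = j then (2 : ℂ) • q i else 0) ∈ SOS R := fun i j => by
    split_ifs with hij
    · subst hij
      rw [hqq, two_smul, add_sub_cancel_left]
      exact sos_smul hθ0.le (add_mem (hqs i) (hqs i))
    · obtain ⟨z, z1, z2, z3⟩ := hh i j
      rw [sub_zero]
      exact heis_pair hp (ua i) (ua j) (ap i) (ap j) z1 z2 z3
  have h4 := sos_smul (t := (2 * m ^ 2)⁻¹) (by positivity)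
    (sum_mem (t := Finset.univ) fun i _ => sum_mem (t := Finset.univ) fun j _ => h3 i j)
  convert h4 using 1
  have h5 : ∑ i, ∑ j, q j * q i = ∑ i, ∑ j, q i * q j := Finset.sum_comm
  simp only [hL, Finset.sum_sub_distrib, Finset.sum_add_distrib, Finset.sum_ite_eq,
    Finset.mem_univ, if_true, h5, smul_add, ← Finset.smul_sum, Finset.sum_const, Finset.card_univ,
    ← Finset.sum_mul_sum, ← Nat.cast_smul_eq_nsmul ℂ, hmc, smul_mul_smul_comm]
  push_cast
  match_scalars <;> field_simp <;> ring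

end Vale.Agent.P083
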