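import Mathlib

/-!
The group of permutations with phases, and Heisenberg type relations between affine elements.
-/

namespace Vale.Agent.P083

/-- permutations with phases -/
@[ext] structure Mono (W F : Type) where
  /-- the permutation -/
  f : Equiv.Perm W
  /-- the phase -/
  c : W → F

/-- Heisenberg type relation -/
def HeisP {G : Type*} [Mul G] (a b : G) : Prop :=
  ∃ z : G, a * b = z * (b * a) ∧ z * a = a * z ∧ z * b = b * z

lemma HeisP.symm {G : Type*} [Group G] {a b : G} (h : HeisP a b) : HeisP b a := by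
  obtain ⟨z, h1, h2, h3⟩ := h
  refine ⟨z⁻¹, by rw [h1, inv_mul_cancel_left], ?_, ?_⟩
  · exact (Commute.inv_left h3).eq
  · exact (Commute.inv_left h2).eq

lemma HeisP.of_comm {G : Type*} [Monoid G] {a b : G} (h : a * b = b * a) : HeisP a b :=
  ⟨1, by simpa using h, by simp, by simp⟩

lemma HeisP.pi {G : Type*} [Monoid G] {a b : ℕ → G} (h : ∀ n, HeisP (a n) (b n)) : HeisP a b := by
  choose z h1 h2 h3 using h
  exact ⟨z, funext h1, funext h2, funext h3⟩

lemma HeisP.map {G G' : Type*} [Monoid G] [Monoid G'] (φ : G →* G') {a b : G} (h : HeisP a b) :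
    HeisP (φ a) (φ b) := by
  obtain ⟨z, h1, h2, h3⟩ := h
  exact ⟨φ z, by simpa using congrArg φ h1, by simpa using congrArg φ h2,
    by simpa using congrArg φ h3⟩

namespace Mono

variable {W F : Type}

instance [AddCommGroup F] : Mul (Mono W F) := ⟨fun a b => ⟨a.f * b.f, fun v => a.c (b.f v) + b.c v⟩⟩
instance [AddCommGroup F] : One (Mono W F) := ⟨⟨1, 0⟩⟩
instance [AddCommGroup F] : Inv (Mono W F) := ⟨fun a => ⟨a.f⁻¹, fun v => -a.c (a.f⁻¹ v)⟩⟩

section grp

variable [AddCommGroup F]

@[simp] lemma mul_f (a b : Mono W F) (v : W) : (a * b).f v = a.f (b.f v) := rfl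
@[simp] lemma mul_c (a b : Mono W F) (v : W) : (a * b).c v = a.c (b.f v) + b.c v := rfl
@[simp] lemma one_f (v : W) : (1 : Mono W F).f v = v := rfl
@[simp] lemma one_c (v : W) : (1 : Mono W F).c v = 0 := rfl
@[simp] lemma inv_f (a : Mono W F) : (a⁻¹).f = a.f⁻¹ := rfl
@[simp] lemma inv_c (a : Mono W F) (v : W) : (a⁻¹).c v = -a.c (a.f⁻¹ v) := rfl

omit [AddCommGroup F] in
lemma ext' {a b : Mono W F} (h1 : ∀ v, a.f v = b.f v) (h2 : ∀ v, a.c v = b.c v) : a = b :=
  Mono.ext (Equiv.ext h1) (funext h2)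

instance : Group (Mono W F) :=
  Group.ofLeftAxioms (fun a b c => ext' (fun v => rfl) fun v => by simp [add_assoc])
    (fun a => ext' (fun v => rfl) fun v => by simp)
    (fun a => ext' (fun v => by simp) fun v => by simp)

end grp

variable [AddCommGroup W] [AddCommGroup F]

/-- unipotent linear elements -/
def lin (N : W →+ W) (hN : ∀ v, N (N v) = 0) : Mono W F :=
  ⟨⟨fun v => v + N v, fun v => v - N v, fun v => by simp [hN], fun v => by simp [hN]⟩, 0⟩

/-- translations -/
def tr (t : W) : Mono W F := ⟨Equiv.addRight t, 0⟩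

/-- phases -/
def ph (φ : W →+ F) (s : F) : Mono W F := ⟨1, fun v => φ v + s⟩

@[simp] lemma lin_f (N : W →+ W) (hN) (v : W) : (lin N hN : Mono W F).f v = v + N v := rfl
@[simp] lemma lin_c (N : W →+ W) (hN) (v : W) : (lin N hN : Mono W F).c v = 0 := rfl
@[simp] lemma tr_f (t v : W) : (tr t : Mono W F).f v = v + t := rfl
@[simp] lemma tr_c (t v : W) : (tr t : Mono W F).c v = 0 := rfl
@[simp] lemma ph_f (φ : W →+ F) (s : F) (v : W) : (ph φ s).f v = v := rfl
@[simp] lemma ph_c (φ : W →+ F) (s : F) (v : W) : (ph φ s).c v = φ v + s := rfl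

lemma heis_lin_lin {N M : W →+ W} (hN hM) (h : ∀ v, M (N v) = 0) :
    HeisP (lin N hN : Mono W F) (lin M hM) := by
  refine ⟨lin (N.comp M) (fun v => by simp [h]), ext' (fun v => ?_) (fun v => by simp),
    ext' (fun v => ?_) (fun v => by simp), ext' (fun v => ?_) (fun v => by simp)⟩
  · simp [h, hM]; abel
  · simp [h, hN]; abel
  · simp [h, hM]; abel

lemma heis_lin_tr {N : W →+ W} (hN) (t : W) : HeisP (lin N hN : Mono W F) (tr t) := by
  refine ⟨tr (N t), ext' (fun v => ?_) (fun v => by simp),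
    ext' (fun v => ?_) (fun v => by simp), ext' (fun v => ?_) (fun v => by simp)⟩
  · simp; abel
  · simp [hN]; abel
  · simp; abel

lemma heis_lin_ph {N : W →+ W} (hN) (φ : W →+ F) : HeisP (lin N hN : Mono W F) (ph φ 0) := by
  refine ⟨ph (-φ.comp N) 0, ext' (fun v => by simp) (fun v => ?_),
    ext' (fun v => by simp) (fun v => ?_), ext' (fun v => by simp) (fun v => ?_)⟩
  · simp [hN]
  · simp [hN]
  · simp; abel

lemma heis_tr_ph (t : W) (φ : W →+ F) : HeisP (tr t : Mono W F) (ph φ 0) := by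
  refine ⟨ph 0 (-φ t), ext' (fun v => by simp) (fun v => ?_),
    ext' (fun v => by simp) (fun v => ?_), ext' (fun v => by simp) (fun v => ?_)⟩
  · simp
  · simp
  · simp; abel

lemma heis_tr_tr (t s : W) : HeisP (tr t : Mono W F) (tr s) :=
  HeisP.of_comm (ext' (fun v => by simp; abel) (fun v => by simp))

lemma heis_ph_ph (φ χ : W →+ F) : HeisP (ph φ 0 : Mono W F) (ph χ 0) :=
  HeisP.of_comm (ext' (fun v => by simp) (fun v => by simp; abel))

lemma lin_pow {N : W →+ W} (hN) (k : ℕ) :
    (lin N hN : Mono W F) ^ k = lin (k • N) (fun v => by simp [hN]) := by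
  induction k with
  | zero => exact ext' (fun v => by simp) (fun v => by simp)
  | succ k ih =>
    rw [pow_succ, ih]
    exact ext' (fun v => by simp [hN, add_smul]; abel) (fun v => by simp)

lemma tr_add (t s : W) : (tr (t + s) : Mono W F) = tr t * tr s :=
  ext' (fun v => by simp; abel) (fun v => by simp)

lemma tr_zero : (tr 0 : Mono W F) = 1 := ext' (fun v => by simp) (fun v => by simp)

lemma tr_pow (t : W) (k : ℕ) : (tr t : Mono W F) ^ k = tr (k • t) := by
  induction k with
  | zero => simp [tr_zero]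
  | succ k ih => rw [pow_succ, ih, ← tr_add, succ_nsmul]

lemma ph_pow (φ : W →+ F) (k : ℕ) : (ph φ 0 : Mono W F) ^ k = ph (k • φ) 0 := by
  induction k with
  | zero => exact ext' (fun v => by simp) (fun v => by simp)
  | succ k ih =>
    rw [pow_succ, ih]
    exact ext' (fun v => by simp) (fun v => by simp [add_smul])

end Mono

end Vale.Agent.P083
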