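import Vale.Agent.P083.Ultra
import Vale.Agent.P083.Core
import Vale.Agent.P083.Heis
import Vale.Agent.P083.Mono

/-!
Asymptotic domination by the energy.
-/

namespace Vale.Agent.P083

open Filter Topology
open scoped ENNReal InnerProductSpace

variable {H : Type*} [NormedAddCommGroup H] [InnerProductSpace ℂ H] [CompleteSpace H]
  {ι : Type*} {b : HilbertBasis ι ℂ H} {I J : Type} [Fintype I] [Fintype J] [DecidableEq J]

namespace HS

section dom

variable {l : Filter ℕ} {U : ℕ → I → H →L[ℂ] H}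

/-- asymptotic domination of a real quantity by the energy -/
def Dom (l : Filter ℕ) (U : ℕ → I → H →L[ℂ] H) (g : ℕ → HS b → ℝ) : Prop :=
  ∃ C : ℝ, 0 ≤ C ∧ ∀ η : ℝ, 0 < η → ∀ᶠ n in l, ∀ x, g n x ≤ C * En (U n) x + η * ‖x‖ ^ 2

lemma Dom.add {g g' : ℕ → HS b → ℝ} (h : Dom l U g) (h' : Dom l U g') :
    Dom l U fun n x => g n x + g' n x := by
  obtain ⟨C, hC, h⟩ := h
  obtain ⟨C', hC', h'⟩ := h'
  refine ⟨C + C', by positivity, fun η hη => ?_⟩
  filter_upwards [h (η / 2) (by positivity), h' (η / 2) (by positivity)] with n h1 h2 x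
  linarith [h1 x, h2 x]

lemma Dom.zero : Dom (b := b) l U fun _ _ => 0 :=
  ⟨0, le_rfl, fun η hη => Eventually.of_forall fun n x => by
    rw [zero_mul, zero_add]; positivity⟩

lemma Dom.sum {κ : Type*} (s : Finset κ) {g : κ → ℕ → HS b → ℝ} (h : ∀ k ∈ s, Dom l U (g k)) :
    Dom l U fun n x => ∑ k ∈ s, g k n x := by
  classical
  induction s using Finset.induction_on with
  | empty => simpa using Dom.zero
  | insert k s hk ih =>
    simp only [Finset.sum_insert hk]
    exact (h k (Finset.mem_insert_self _ _)).add (ih fun j hj => h j (Finset.mem_insert_of_mem hj))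

lemma Dom.mono {g g' : ℕ → HS b → ℝ} (h : Dom l U g) {M : ℝ} (hM : 0 ≤ M)
    (hle : ∀ᶠ n in l, ∀ x, g' n x ≤ M * g n x) : Dom l U g' := by
  obtain ⟨C, hC, h⟩ := h
  refine ⟨M * C, by positivity, fun η hη => ?_⟩
  filter_upwards [h (η / (M + 1)) (by positivity), hle] with n h1 h2 x
  have a1 : M * (η / (M + 1)) ≤ η := by
    rw [mul_div_assoc', div_le_iff₀ (by positivity)]; nlinarith
  have a2 : M * (η / (M + 1)) * ‖x‖ ^ 2 ≤ η * ‖x‖ ^ 2 := by gcongr
  have a3 := mul_le_mul_of_nonneg_left (h1 x) hM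
  nlinarith [h2 x]

/-- asymptotic domination of a vector quantity by the energy -/
def DomV (l : Filter ℕ) (U : ℕ → I → H →L[ℂ] H) (T : ℕ → HS b → HS b) : Prop :=
  Dom l U fun n x => ‖T n x‖ ^ 2

variable {T S : ℕ → HS b → HS b}

lemma DomV.add (h : DomV l U T) (h' : DomV l U S) : DomV l U fun n x => T n x + S n x :=
  (Dom.add h h').mono (M := 2) zero_le_two (Eventually.of_forall fun n x => by
    linarith [norm_add_sq_le_two (T n x) (S n x)])

lemma DomV.sum {κ : Type*} (s : Finset κ) {T : κ → ℕ → HS b → HS b}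
    (h : ∀ k ∈ s, DomV l U (T k)) : DomV l U fun n x => ∑ k ∈ s, T k n x := by
  classical
  induction s using Finset.induction_on with
  | empty => simpa [DomV] using Dom.zero
  | insert k s hk ih =>
    simp only [Finset.sum_insert hk]
    exact (h k (Finset.mem_insert_self _ _)).add (ih fun j hj => h j (Finset.mem_insert_of_mem hj))

lemma DomV.bound (h : DomV l U T) {M : ℝ} (hle : ∀ᶠ n in l, ∀ x, ‖S n x‖ ≤ M * ‖T n x‖) :
    DomV l U S :=
  Dom.mono h (sq_nonneg M) (hle.mono fun _ hn x => sq_le_of_le (norm_nonneg _) (hn x))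

lemma DomV.congr (h : DomV l U T) (he : ∀ᶠ n in l, ∀ x, S n x = T n x) : DomV l U S :=
  h.bound (M := 1) (he.mono fun n hn x => by rw [hn, one_mul])

lemma DomV.small {e : ℕ → ℝ} (he : Tendsto e l (𝓝 0))
    (hle : ∀ᶠ n in l, ∀ x, ‖S n x‖ ≤ e n * ‖x‖) : DomV l U S := by
  refine ⟨0, le_rfl, fun η hη => ?_⟩
  have h2 : Tendsto (fun n => e n ^ 2) l (𝓝 0) := by simpa using he.pow 2
  filter_upwards [hle, h2.eventually_lt_const hη] with n h1 h3 x
  have := sq_le_of_le (norm_nonneg _) (h1 x)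
  have h4 : e n ^ 2 * ‖x‖ ^ 2 ≤ η * ‖x‖ ^ 2 := by gcongr
  linarith

lemma DomV.gen (i : I) : DomV (b := b) l U fun n x => cm (U n i) x :=
  ⟨1, zero_le_one, fun η hη => Eventually.of_forall fun n x => by
    have : ‖cm (U n i) x‖ ^ 2 ≤ En (U n) x :=
      Finset.single_le_sum (f := fun i => ‖cm (U n i) x‖ ^ 2) (fun _ _ => by positivity)
        (Finset.mem_univ i)
    have h2 : 0 ≤ η * ‖x‖ ^ 2 := by positivity
    linarith⟩

lemma DomV.lm (h : DomV l U T) {y : ℕ → H →L[ℂ] H} {M : ℝ} (hy : ∀ n, ‖y n‖ ≤ M) :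
    DomV l U fun n x => lm (y n) (T n x) :=
  h.bound (M := M) (Eventually.of_forall fun n x => (norm_lm_le _ _).trans (by gcongr; exact hy n))

lemma DomV.rm (h : DomV l U T) {y : ℕ → H →L[ℂ] H} {M : ℝ} (hy : ∀ n, ‖y n‖ ≤ M) :
    DomV l U fun n x => rm (y n) (T n x) :=
  h.bound (M := M) (Eventually.of_forall fun n x => (norm_rm_le _ _).trans (by gcongr; exact hy n))

lemma DomV.smul (h : DomV l U T) (c : ℂ) : DomV l U fun n x => c • T n x :=
  h.bound (M := ‖c‖) (Eventually.of_forall fun n x => by rw [norm_smul])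

end dom

variable [Nontrivial (H →L[ℂ] H)] {ω : Ultrafilter ℕ} {U : I → LL (H →L[ℂ] H)}

lemma DomV.of_mk_eq {V : ℕ → I → H →L[ℂ] H} {Y Y' : LL (H →L[ℂ] H)} (he : mk ω Y = mk ω Y')
    (h : DomV (b := b) ω V fun n x => cm (ev n Y') x) :
    DomV (b := b) ω V fun n x => cm (ev n Y) x := by
  have h1 : DomV (b := b) ω V fun n x => cm (ev n Y - ev n Y') x :=
    DomV.small (e := fun n => 2 * ‖ev n Y - ev n Y'‖)
      (by simpa using (mk_eq_iff'.1 he).const_mul 2) (Eventually.of_forall fun n x => norm_cm_le _ _)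
  refine (h.add h1).congr (Eventually.of_forall fun n x => ext' ?_)
  simp only [op_cm, map_add]; noncomm_ring

lemma actrl (hU : ∀ i n, ev n (U i) ∈ unitary (H →L[ℂ] H)) {Y : LL (H →L[ℂ] H)}
    (hY : mk ω Y ∈ StarAlgebra.adjoin ℂ (Set.range fun i => mk ω (U i))) :
    DomV (b := b) ω (fun n i => ev n (U i)) fun n x => cm (ev n Y) x := by
  let P : Ultrapower (H →L[ℂ] H) ω → Prop := fun y => ∃ Y, mk ω Y = y ∧
    DomV (b := b) ω (fun n i => ev n (U i)) fun n x => cm (ev n Y) x
  have Padd : ∀ y z, P y → P z → P (y + z) := by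
    rintro _ _ ⟨Y, rfl, hY⟩ ⟨Z, rfl, hZ⟩
    refine ⟨Y + Z, map_add _ _ _, (hY.add hZ).congr (Eventually.of_forall fun n x => ext' ?_)⟩
    simp only [op_cm, map_add]; noncomm_ring
  have Pmul : ∀ y z, P y → P z → P (y * z) := by
    rintro _ _ ⟨Y, rfl, hY⟩ ⟨Z, rfl, hZ⟩
    refine ⟨Y * Z, map_mul _ _ _, ((hZ.lm (norm_ev Y)).add (hY.rm (norm_ev Z))).congr
      (Eventually.of_forall fun n x => ext' ?_)⟩
    simp only [op_cm, map_add, map_mul, op_lm, op_rm]; noncomm_ring
  have Palg : ∀ c : ℂ, P (algebraMap ℂ _ c) := fun c =>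
    ⟨algebraMap ℂ _ c, AlgHomClass.commutes _ _, (DomV.sum (∅ : Finset Unit)
      (T := fun _ _ x => x) (by simp)).congr (Eventually.of_forall fun n x => ext' (by
        simp only [op_cm, AlgHomClass.commutes, Algebra.commutes]; simp))⟩
  have key : ∀ y ∈ StarAlgebra.adjoin ℂ (Set.range fun i => mk ω (U i)), P y ∧ P (star y) := by
    intro y hy
    induction hy using StarAlgebra.adjoin_induction with
    | mem y hy =>
      obtain ⟨i, rfl⟩ := hy
      have hn : ∀ n, ‖star (ev n (U i))‖ ≤ 1 := fun n => by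
        rw [norm_star]; exact norm_le_of_unitary (hU i n)
      refine ⟨⟨U i, rfl, DomV.gen i⟩, star (U i), map_star _ _,
        ((((DomV.gen i).lm hn).rm hn).smul (-1)).congr (Eventually.of_forall fun n x => ext' ?_)⟩
      simp only [op_cm, map_smul, op_lm, op_rm, map_star, mul_sub, sub_mul, ← mul_assoc,
        (hU i n).1, one_mul]
      rw [mul_assoc _ (ev n (U i)), (hU i n).2]
      simp
    | algebraMap c => exact ⟨Palg c, by rw [← algebraMap_star_comm]; exact Palg _⟩
    | add y z _ _ hy hz => exact ⟨Padd _ _ hy.1 hz.1, by rw [star_add]; exact Padd _ _ hy.2 hz.2⟩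
    | mul y z _ _ hy hz => exact ⟨Pmul _ _ hy.1 hz.1, by rw [star_mul]; exact Pmul _ _ hz.2 hy.2⟩
    | star y _ hy => exact ⟨hy.2, by rw [star_star]; exact hy.1⟩
  obtain ⟨Y', h1, h2⟩ := (key _ hY).1
  exact h2.of_mk_eq h1.symm

omit [Nontrivial (H →L[ℂ] H)] in
lemma norm_fK_le {r : J → H →L[ℂ] H} (h : Iso r) (x : HS b) : ‖fK r x‖ ≤ ‖x‖ := by
  rcases Nat.eq_zero_or_pos (Fintype.card J) with h0 | h0
  · simp [fK_apply, h0]
  have h1 : ∀ a, ‖lm (star (r a)) (rm (r a) x)‖ ≤ ‖x‖ := fun a =>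
    norm_le_of_op_eq_mul₂ (a := star (r a)) (c := r a) (by rw [norm_star]; exact h.norm_le a)
      (h.norm_le a) (by simp [mul_assoc])
  have h2 : ‖∑ a, lm (star (r a)) (rm (r a) x)‖ ≤ Fintype.card J * ‖x‖ :=
    (norm_sum_le _ _).trans ((Finset.sum_le_sum fun a _ => h1 a).trans (by simp))
  rw [fK_apply, norm_smul, norm_inv, Complex.norm_natCast, inv_mul_le_iff₀ (by exact_mod_cast h0)]
  exact h2

variable {p : ℕ} {R : J → LL (H →L[ℂ] H)} {w : Ultrapower (H →L[ℂ] H) ω}

lemma dom_down (hU : ∀ i n, ev n (U i) ∈ unitary (H →L[ℂ] H))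
    (hR : ∀ᶠ n in (ω : Filter ℕ), Iso fun a => ev n (R a))
    (h : Rel p (fun i => mk ω (U i)) (fun a => mk ω (R a)) w) :
    Dom (b := b) ω (fun n i => ev n (U i))
      fun n x => En (fun i => ev n (U i)) (fK (fun a => ev n (R a)) x) := by
  refine Dom.sum _ fun i _ => ?_
  have h1 := actrl (b := b) hU (Y := ∑ a, R a * U i * star (R a))
    (by simpa [map_star] using h.b_mem i)
  refine h1.bound (M := 1) (hR.mono fun n hn x => ?_)
  have e : cm (ev n (U i)) (fK (fun a => ev n (R a)) x) =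
      fK (fun a => ev n (R a)) (cm (ev n (∑ a, R a * U i * star (R a))) x) := ext' (by
    have e1 : ev n (∑ a, R a * U i * star (R a)) = bB (fun a => ev n (R a)) (ev n (U i)) := by
      simp [bB, map_star]
    simp only [op_cm, op_fK, e1, fB, mul_smul_comm, smul_mul_assoc, ← smul_sub, Finset.mul_sum,
      Finset.sum_mul, ← Finset.sum_sub_distrib, mul_sub, sub_mul]
    congr 1
    refine Finset.sum_congr rfl fun a _ => ?_
    rw [← mul_assoc (star _) (bB _ _), hn.star_mul_bB, mul_assoc _ (_ * bB _ _),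
      mul_assoc _ (bB _ _), hn.bB_mul_r]
    simp only [mul_assoc])
  rw [e, one_mul]
  exact norm_fK_le hn _

lemma dom_par [Nonempty J] (hU : ∀ i n, ev n (U i) ∈ unitary (H →L[ℂ] H))
    (hR : ∀ᶠ n in (ω : Filter ℕ), Iso fun a => ev n (R a))
    (h : Rel p (fun i => mk ω (U i)) (fun a => mk ω (R a)) w) :
    DomV (b := b) ω (fun n i => ev n (U i)) fun n x => lm (bB (fun a => ev n (R a)) 1) x -
      bK (fun a => ev n (R a)) (fK (fun a => ev n (R a)) x) := by
  have h1 : ∀ a c, DomV (b := b) ω (fun n i => ev n (U i))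
      fun n x => lm (ev n (R a * star (R c))) (cm (ev n (R c * star (R a))) x) := fun a c =>
    (actrl (b := b) hU (Y := R c * star (R a)) (by simpa [map_star] using h.e_mem c a)).lm
      (norm_ev _)
  refine ((DomV.sum Finset.univ fun a _ => DomV.sum Finset.univ fun c _ => h1 a c).smul
    (Fintype.card J : ℂ)⁻¹).congr (hR.mono fun n hn x => ext' ?_)
  have hJ : (Fintype.card J : ℂ) ≠ 0 := by exact_mod_cast Fintype.card_ne_zero
  have e : ∀ c y, star (ev n (R c)) * (ev n (R c) * y) = y := fun c y => by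
    rw [← mul_assoc, hn c c]; simp
  simp only [map_sub, op_lm, op_bK, op_fK, map_smul, map_sum, op_cm, map_mul, map_star, mul_sub, e,
    Finset.sum_sub_distrib, Finset.sum_const, Finset.card_univ, smul_sub, bB, fB, mul_one,
    Finset.sum_mul, mul_smul_comm, smul_mul_assoc, Finset.mul_sum, ← Finset.smul_sum,
    ← Nat.cast_smul_eq_nsmul ℂ, smul_smul, inv_mul_cancel₀ hJ, one_smul, mul_assoc]

lemma dom_up (hU : ∀ i n, ev n (U i) ∈ unitary (H →L[ℂ] H))
    (hR : ∀ᶠ n in (ω : Filter ℕ), Iso fun a => ev n (R a))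
    (h : Rel p (fun i => mk ω (U i)) (fun a => mk ω (R a)) w) :
    Dom (b := b) ω (fun n i => ev n (U i))
      fun n x => En (fun i => ev n (U i)) (bK (fun a => ev n (R a)) x) := by
  refine Dom.sum _ fun i _ => ?_
  have h1 : ∀ a c, DomV (b := b) ω (fun n i => ev n (U i))
      fun n x => lm (ev n (R a)) (rm (ev n (star (R c)))
        (cm (ev n (star (R a) * U i * R c)) x)) := fun a c =>
    ((actrl (b := b) hU (Y := star (R a) * U i * R c)
      (by simpa [map_star] using h.f_mem i a c)).rm (norm_ev _)).lm (norm_ev _)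
  set q : LL (H →L[ℂ] H) := ∑ a, R a * star (R a) with hq
  have ht : Tendsto (fun n => ‖ev n (U i * q) - ev n (q * U i)‖ * √(Fintype.card J))
      (ω : Filter ℕ) (𝓝 0) := by
    have := (mk_eq_iff' (ω := ω) (x := U i * q) (y := q * U i)).1
      (by simpa [hq, map_star] using h.comm i)
    simpa using this.mul_const (√(Fintype.card J))
  have hb : ∀ᶠ n in (ω : Filter ℕ), ∀ x : HS b,
      ‖bK (fun a => ev n (R a)) x‖ = √(Fintype.card J) * ‖x‖ := hR.mono fun n hn x => by
    rw [← sq_eq_sq₀ (norm_nonneg _) (by positivity), norm_bK hn, mul_pow,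
      Real.sq_sqrt (by positivity)]
  have h2 : DomV (b := b) ω (fun n i => ev n (U i))
      fun n x => lm (ev n (U i * q) - ev n (q * U i)) (bK (fun a => ev n (R a)) x) :=
    DomV.small ht (hb.mono fun n hn x => (norm_lm_le _ _).trans (by rw [hn, mul_assoc]))
  have h3 : DomV (b := b) ω (fun n i => ev n (U i))
      fun n x => rm (ev n (U i * q) - ev n (q * U i)) (bK (fun a => ev n (R a)) x) :=
    DomV.small ht (hb.mono fun n hn x => (norm_rm_le _ _).trans (by rw [hn, mul_assoc]))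
  refine (((DomV.sum Finset.univ fun a _ => DomV.sum Finset.univ fun c _ => h1 a c).add h2).add
    h3).congr (hR.mono fun n hn x => ext' ?_)
  have e0 : ev n q = bB (fun a => ev n (R a)) 1 := by simp [hq, bB, map_star]
  have e1 : ev n q * bB (fun a => ev n (R a)) (op x) = bB (fun a => ev n (R a)) (op x) := by
    rw [e0, ← hn.bB_mul, one_mul]
  have e2 : bB (fun a => ev n (R a)) (op x) * ev n q = bB (fun a => ev n (R a)) (op x) := by
    rw [e0, ← hn.bB_mul, mul_one]
  have e3 : ∑ a, ∑ c, ev n (R a) * ((star (ev n (R a)) * ev n (U i) * ev n (R c) * op x -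
      op x * (star (ev n (R a)) * ev n (U i) * ev n (R c))) * star (ev n (R c))) =
      ev n q * ev n (U i) * bB (fun a => ev n (R a)) (op x) -
        bB (fun a => ev n (R a)) (op x) * ev n (U i) * ev n q := by
    simp only [hq, map_sum, map_mul, map_star, bB, Finset.sum_mul, Finset.mul_sum, mul_sub, sub_mul,
      Finset.sum_sub_distrib, mul_assoc]
    congr 1 <;> exact Finset.sum_comm
  simp only [map_add, map_sum, op_lm, op_rm, op_cm, op_bK, map_mul, map_star]
  rw [e3, sub_mul, mul_sub, mul_assoc (ev n (U i)), e1, ← mul_assoc _ (ev n q), e2]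
  noncomm_ring

end HS

end Vale.Agent.P083
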