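import Vale.Agent.P083.HS

/-!
Commutators, energy and finite rank projections.
-/

namespace Vale.Agent.P083

open scoped InnerProductSpace
open ContinuousLinearMap

variable {H : Type*} [NormedAddCommGroup H] [InnerProductSpace ℂ H] [CompleteSpace H]
  {ι : Type*} {b : HilbertBasis ι ℂ H}

namespace HS

/-- commutator with a bounded operator -/
noncomputable def cm (y : H →L[ℂ] H) : HS b →L[ℂ] HS b := lm y - rm y

@[simp] lemma op_cm (y : H →L[ℂ] H) (x : HS b) : op (cm y x) = y * op x - op x * y := by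
  simp [cm]

lemma norm_cm_le (y : H →L[ℂ] H) (x : HS b) : ‖cm y x‖ ≤ 2 * ‖y‖ * ‖x‖ := by
  have : cm y x = lm y x - rm y x := rfl
  rw [this]
  refine (norm_sub_le _ _).trans ?_
  linarith [norm_lm_le y x, norm_rm_le y x]

/-- energy with respect to a finite family -/
noncomputable def En {I : Type} [Fintype I] (U : I → H →L[ℂ] H) (x : HS b) : ℝ :=
  ∑ i, ‖cm (U i) x‖ ^ 2

variable {I : Type} [Fintype I] {U : I → H →L[ℂ] H}

lemma En_nonneg (U : I → H →L[ℂ] H) (x : HS b) : 0 ≤ En U x :=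
  Finset.sum_nonneg fun _ _ => by positivity

@[simp] lemma En_zero : En U (0 : HS b) = 0 := by simp [En]

lemma norm_add_sq_le_two {E : Type*} [SeminormedAddCommGroup E] (x y : E) :
    ‖x + y‖ ^ 2 ≤ 2 * ‖x‖ ^ 2 + 2 * ‖y‖ ^ 2 := by
  have h := norm_add_le x y
  have h2 : ‖x + y‖ ^ 2 ≤ (‖x‖ + ‖y‖) ^ 2 := by gcongr
  nlinarith [sq_nonneg (‖x‖ - ‖y‖)]

lemma norm_sub_sq_le_two {E : Type*} [SeminormedAddCommGroup E] (x y : E) :
    ‖x - y‖ ^ 2 ≤ 2 * ‖x‖ ^ 2 + 2 * ‖y‖ ^ 2 := by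
  simpa [sub_eq_add_neg] using norm_add_sq_le_two x (-y)

lemma En_add_le (x y : HS b) : En U (x + y) ≤ 2 * En U x + 2 * En U y := by
  simp only [En, Finset.mul_sum, ← Finset.sum_add_distrib, map_add]
  exact Finset.sum_le_sum fun i _ => norm_add_sq_le_two _ _

lemma En_sub_le (x y : HS b) : En U (x - y) ≤ 2 * En U x + 2 * En U y := by
  simp only [En, Finset.mul_sum, ← Finset.sum_add_distrib, map_sub]
  exact Finset.sum_le_sum fun i _ => norm_sub_sq_le_two _ _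

lemma En_le (hU : ∀ i, ‖U i‖ ≤ 1) (x : HS b) : En U x ≤ 4 * Fintype.card I * ‖x‖ ^ 2 := by
  have : ∀ i, ‖cm (U i) x‖ ^ 2 ≤ 4 * ‖x‖ ^ 2 := fun i => by
    have h1 := norm_cm_le (U i) x
    have h2 : ‖cm (U i) x‖ ≤ 2 * ‖x‖ := by nlinarith [hU i, norm_nonneg x]
    nlinarith [norm_nonneg (cm (U i) x)]
  calc En U x ≤ ∑ _i : I, 4 * ‖x‖ ^ 2 := Finset.sum_le_sum fun i _ => this i
    _ = _ := by simp; ring

lemma En_le_of_near (hU : ∀ i, ‖U i‖ ≤ 1) (x y : HS b) :
    En U x ≤ 2 * En U y + 8 * Fintype.card I * ‖x - y‖ ^ 2 := by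
  have h : x = y + (x - y) := by abel
  have := En_add_le (U := U) y (x - y)
  rw [← h] at this
  linarith [En_le hU (x - y)]

/-- finite rank -/
def FR (x : HS b) : Prop := ∃ W : Submodule ℂ H, FiniteDimensional ℂ W ∧ ∀ ζ, op x ζ ∈ W

lemma FR.zero : FR (0 : HS b) := ⟨⊥, inferInstance, by simp⟩

lemma FR.add {x y : HS b} (hx : FR x) (hy : FR y) : FR (x + y) := by
  obtain ⟨W, _, hW⟩ := hx
  obtain ⟨W', _, hW'⟩ := hy
  exact ⟨W ⊔ W', inferInstance, fun ζ => by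
    rw [map_add, add_apply]; exact Submodule.add_mem_sup (hW ζ) (hW' ζ)⟩

lemma FR.smul {x : HS b} (hx : FR x) (c : ℂ) : FR (c • x) := by
  obtain ⟨W, _, hW⟩ := hx
  exact ⟨W, inferInstance, fun ζ => by
    rw [map_smul, smul_apply]; exact W.smul_mem c (hW ζ)⟩

lemma FR.sub {x y : HS b} (hx : FR x) (hy : FR y) : FR (x - y) := by
  have := hx.add (hy.smul (-1))
  simpa [sub_eq_add_neg] using this

lemma FR.sum {κ : Type*} (s : Finset κ) {x : κ → HS b} (h : ∀ i ∈ s, FR (x i)) :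
    FR (∑ i ∈ s, x i) :=
  Finset.sum_induction _ _ (fun _ _ => FR.add) FR.zero h

lemma FR.lm {x : HS b} (hx : FR x) (a : H →L[ℂ] H) : FR (lm a x) := by
  obtain ⟨W, _, hW⟩ := hx
  exact ⟨W.map (a : H →ₗ[ℂ] H), inferInstance, fun ζ => by
    rw [op_lm]; exact Submodule.mem_map_of_mem (hW ζ)⟩

lemma FR.rm {x : HS b} (hx : FR x) (a : H →L[ℂ] H) : FR (rm a x) := by
  obtain ⟨W, _, hW⟩ := hx
  exact ⟨W, inferInstance, fun ζ => by rw [op_rm]; exact hW _⟩

lemma FR.ro (η ζ : H) : FR (ro (b := b) η ζ) :=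
  ⟨Submodule.span ℂ {η}, inferInstance, fun ξ => by
    simpa using Submodule.smul_mem _ _ (Submodule.mem_span_singleton_self η)⟩

/-- finite rank projections -/
structure IsP (x : HS b) : Prop where
  fr : FR x
  proj : IsStarProjection (op x)

lemma IsP.zero : IsP (0 : HS b) := ⟨FR.zero, by simp⟩

lemma IsP.mul_self {x : HS b} (hx : IsP x) : op x * op x = op x := hx.proj.isIdempotentElem

lemma IsP.star_eq {x : HS b} (hx : IsP x) : star (op x) = op x := hx.proj.isSelfAdjoint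

lemma IsP.norm_le {x : HS b} (hx : IsP x) : ‖op x‖ ≤ 1 := hx.proj.norm_le

lemma IsP.one_le {x : HS b} (hx : IsP x) (h0 : x ≠ 0) : 1 ≤ ‖x‖ ^ 2 := by
  have h1 : op x ≠ 0 := fun h => h0 (ext' (by simpa using h))
  have h2 : 1 ≤ ‖op x‖ := by
    have h3 : ‖op x‖ ≤ ‖op x‖ * ‖op x‖ := by
      conv_lhs => rw [← hx.mul_self]
      exact norm_mul_le _ _
    have h4 : 0 < ‖op x‖ := norm_pos_iff.2 h1
    nlinarith
  have := norm_op_le x
  nlinarith

lemma mul_comm_of_le {E q : H →L[ℂ] H} (hE : star E = E) (hq : star q = q) (h : E * q = q) :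
    q * E = q := by
  have := congrArg star h
  rwa [star_mul, hE, hq] at this

lemma IsP.add {x y : HS b} (hx : IsP x) (hy : IsP y) (h : op x * op y = 0) : IsP (x + y) :=
  ⟨hx.fr.add hy.fr, by rw [map_add]; exact hx.proj.add hy.proj h⟩

lemma IsP.sub {x y : HS b} (hx : IsP x) (hy : IsP y) (h : op x * op y = op y) : IsP (x - y) := by
  refine ⟨hx.fr.sub hy.fr, ?_⟩
  have h' := mul_comm_of_le hx.star_eq hy.star_eq h
  rw [map_sub]
  exact hy.proj.sub_of_mul_eq_left hx.proj h'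

lemma IsP.norm_add {x y : HS b} (hx : IsP x) (h : op x * op y = 0) :
    ‖x + y‖ ^ 2 = ‖x‖ ^ 2 + ‖y‖ ^ 2 := pyth_left (by rw [hx.star_eq, h])

lemma IsP.norm_sub {x y : HS b} (hx : IsP x) (hy : IsP y) (h : op x * op y = op y) :
    ‖x - y‖ ^ 2 = ‖x‖ ^ 2 - ‖y‖ ^ 2 := by
  have h' := mul_comm_of_le hx.star_eq hy.star_eq h
  have := hy.norm_add (y := x - y) (by rw [map_sub, mul_sub, h', hy.mul_self, sub_self])
  rw [add_sub_cancel] at this
  linarith

lemma IsP.rank_sub_le {x y : HS b} (hx : IsP x) (hy : IsP y) :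
    ‖x‖ ^ 2 - ‖y‖ ^ 2 ≤ ‖x - y‖ ^ 2 := by
  have e1 : x = rm (op y) x + rm (1 - op y) x := ext' (by simp [mul_sub])
  have h1 : ‖x‖ ^ 2 = ‖rm (op y) x‖ ^ 2 + ‖rm (1 - op y) x‖ ^ 2 := by
    conv_lhs => rw [e1]
    refine pyth_right ?_
    simp only [op_rm, star_mul, star_sub, star_one, hx.star_eq, hy.star_eq]
    rw [mul_assoc, ← mul_assoc (op y), mul_sub, mul_one, hy.mul_self]; simp
  have h2 : ‖rm (op y) x‖ ≤ ‖y‖ := by
    have := norm_le_of_op_eq_mul (x := y) (y := rm (op y) x) (a := op x) (by simp)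
    nlinarith [hx.norm_le, norm_nonneg y]
  have h3 : ‖rm (1 - op y) x‖ ≤ ‖x - y‖ := by
    have := norm_le_of_op_eq_mul' (x := x - y) (y := rm (1 - op y) x) (a := 1 - op y)
      (by simp [sub_mul, mul_sub, hy.mul_self])
    nlinarith [hy.proj.one_sub.norm_le, norm_nonneg (x - y)]
  have h4 : ‖rm (op y) x‖ ^ 2 ≤ ‖y‖ ^ 2 := by gcongr
  have h5 : ‖rm (1 - op y) x‖ ^ 2 ≤ ‖x - y‖ ^ 2 := by gcongr
  linarith

lemma IsP.rank_sub_le' {x y : HS b} (hx : IsP x) (hy : IsP y) :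
    ‖y‖ ^ 2 - ‖x‖ ^ 2 ≤ ‖x - y‖ ^ 2 := by
  rw [norm_sub_rev]; exact hy.rank_sub_le hx

lemma IsP.rank_le {x y : HS b} (hx : IsP x) (hy : IsP y) (h : op x * op y = op y) :
    ‖y‖ ^ 2 ≤ ‖x‖ ^ 2 := by
  have := hx.norm_sub hy h
  nlinarith [sq_nonneg ‖x - y‖]

lemma IsP.norm_cm {x : HS b} (hx : IsP x) (u : H →L[ℂ] H) :
    ‖cm u x‖ ^ 2 = ‖lm ((1 - op x) * u) x‖ ^ 2 + ‖rm (u * (1 - op x)) x‖ ^ 2 := by
  have e : cm u x = lm ((1 - op x) * u) x + -rm (u * (1 - op x)) x :=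
    ext' (by simp only [op_cm, map_add, map_neg, op_lm, op_rm]; noncomm_ring)
  rw [e, pyth_left, norm_neg]
  simp only [map_neg, op_lm, op_rm, star_mul, star_sub, star_one, hx.star_eq, mul_neg, neg_eq_zero]
  have : (1 - op x) * op x = 0 := by rw [sub_mul, hx.mul_self]; simp
  calc _ = op x * star u * ((1 - op x) * op x) * (u * (1 - op x)) := by noncomm_ring
    _ = 0 := by rw [this]; simp

lemma IsP.cm_add_le {x y : HS b} (hx : IsP x) (hy : IsP y) (h : op x * op y = 0)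
    (u : H →L[ℂ] H) : ‖cm u (x + y)‖ ^ 2 ≤ ‖cm u x‖ ^ 2 + ‖cm u y‖ ^ 2 := by
  have h' : op y * op x = 0 := by
    have := congrArg star h
    rwa [star_mul, hx.star_eq, hy.star_eq, star_zero] at this
  rw [(hx.add hy h).norm_cm, hx.norm_cm, hy.norm_cm, map_add (lm _), map_add (rm _),
    pyth_right, pyth_left]
  · have n1 := hx.proj.one_sub.norm_le
    have n2 := hy.proj.one_sub.norm_le
    have a1 : ‖lm ((1 - op (x + y)) * u) x‖ ≤ ‖lm ((1 - op x) * u) x‖ := by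
      refine norm_le_of_op_eq_mul₂ n2 (c := 1) norm_id_le ?_
      simp only [op_lm, map_add, mul_one, ← mul_assoc]
      congr 2
      simp only [mul_sub, sub_mul, h', mul_one, one_mul]; abel
    have a2 : ‖lm ((1 - op (x + y)) * u) y‖ ≤ ‖lm ((1 - op y) * u) y‖ := by
      refine norm_le_of_op_eq_mul₂ n1 (c := 1) norm_id_le ?_
      simp only [op_lm, map_add, mul_one, ← mul_assoc]
      congr 2
      simp only [mul_sub, sub_mul, h, mul_one, one_mul]; abel
    have a3 : ‖rm (u * (1 - op (x + y))) x‖ ≤ ‖rm (u * (1 - op x)) x‖ := by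
      refine norm_le_of_op_eq_mul₂ (a := 1) norm_id_le n2 ?_
      simp only [op_rm, map_add, one_mul, mul_assoc]
      congr 2
      simp only [mul_sub, sub_mul, h, mul_one, one_mul]; abel
    have a4 : ‖rm (u * (1 - op (x + y))) y‖ ≤ ‖rm (u * (1 - op y)) y‖ := by
      refine norm_le_of_op_eq_mul₂ (a := 1) norm_id_le n1 ?_
      simp only [op_rm, map_add, one_mul, mul_assoc]
      congr 2
      simp only [mul_sub, sub_mul, h', mul_one, one_mul]; abel
    have b1 := pow_le_pow_left₀ (norm_nonneg _) a1 2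
    have b2 := pow_le_pow_left₀ (norm_nonneg _) a2 2
    have b3 := pow_le_pow_left₀ (norm_nonneg _) a3 2
    have b4 := pow_le_pow_left₀ (norm_nonneg _) a4 2
    linarith
  · simp only [op_rm, star_mul, hx.star_eq]
    rw [mul_assoc, ← mul_assoc (op x), h]; simp
  · simp only [op_lm, star_mul, hy.star_eq]
    rw [mul_assoc, ← mul_assoc (op x), h]; simp

lemma IsP.En_add_le {x y : HS b} (hx : IsP x) (hy : IsP y) (h : op x * op y = 0) :
    En U (x + y) ≤ En U x + En U y := by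
  simp only [En, ← Finset.sum_add_distrib]
  exact Finset.sum_le_sum fun i _ => hx.cm_add_le hy h _

/-- distance from idempotence is controlled by the distance to a projection -/
lemma norm_sub_sq_le {y Q : HS b} (hQ : IsP Q) (hy : ‖op y‖ ≤ 1) :
    ‖y - lm (op y) y‖ ≤ 3 * ‖y - Q‖ := by
  have e : y - lm (op y) y = (y - Q) - lm (op Q) (y - Q) - rm (op y) (y - Q) :=
    ext' (by simp only [map_sub, op_lm, op_rm, hQ.mul_self]; abel)
  rw [e]
  have h1 := norm_lm_le_of_le_one hQ.norm_le (y - Q)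
  have h2 := norm_rm_le_of_le_one hy (y - Q)
  have h3 := norm_sub_le (y - Q - lm (op Q) (y - Q)) (rm (op y) (y - Q))
  have h4 := norm_sub_le (y - Q) (lm (op Q) (y - Q))
  linarith

end HS

end Vale.Agent.P083
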