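import Mathlib

/-!
Interfaces shared by the files of the P083 development.
-/

namespace Vale.Agent.P083

/-- The relations of the counterexample. -/
structure Rel {A : Type*} [Ring A] [Algebra ℂ A] [StarRing A] [StarModule ℂ A]
    {I J : Type} [Fintype J] [DecidableEq J] (p : ℕ) (u : I → A) (r : J → A) (w : A) : Prop where
  unit : ∀ i, u i ∈ unitary A
  pow : ∀ i, u i ^ p = 1
  heis : ∀ i j, ∃ z : A, u i * u j = z * (u j * u i) ∧ z * u i = u i * z ∧ z * u j = u j * z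
  iso : ∀ a b, star (r a) * r b = if a = b then 1 else 0
  comm : ∀ i, u i * (∑ a, r a * star (r a)) = (∑ a, r a * star (r a)) * u i
  f_mem : ∀ i a b, star (r a) * u i * r b ∈ StarAlgebra.adjoin ℂ (Set.range u)
  e_mem : ∀ a b, r a * star (r b) ∈ StarAlgebra.adjoin ℂ (Set.range u)
  b_mem : ∀ i, ∑ a, r a * u i * star (r a) ∈ StarAlgebra.adjoin ℂ (Set.range u)
  w_iso : star w * w = 1
  w_inv : ∀ i, u i * w = w

/-- Sums of hermitian squares. -/
def SOS (R : Type*) [Ring R] [StarRing R] : AddSubmonoid R :=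
  AddSubmonoid.closure (Set.range fun y : R => star y * y)

/-- The Laplacian of a finite family of elements. -/
noncomputable def Lap {R : Type*} [Ring R] [Algebra ℂ R] [StarRing R] {Γ : Type} [Fintype Γ]
    (a : Γ → R) : R :=
  1 - ((2 * Fintype.card Γ : ℂ)⁻¹) • ∑ γ, (a γ + star (a γ))

/-- The family `U` is approximately intertwined, by an isometry into a finite multiple of `H`,
with scalar matrices. -/
def AP {H : Type*} [NormedAddCommGroup H] [InnerProductSpace ℂ H] [CompleteSpace H] {I : Type}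
    (U : I → H →L[ℂ] H) (η : ℝ) : Prop :=
  ∃ (T : Type) (_ : Fintype T) (Kop : T → H →L[ℂ] H) (x : I → T → T → ℂ),
    (∀ ζ, ∑ α, ‖Kop α ζ‖ ^ 2 = ‖ζ‖ ^ 2) ∧
    (∀ i ζ, ∑ α, ‖Kop α (U i ζ) - ∑ β, x i α β • Kop β ζ‖ ^ 2 ≤ η * ‖ζ‖ ^ 2) ∧
    (∀ i ζ, ∑ α, ‖Kop α (star (U i) ζ) - ∑ β, star (x i β α) • Kop β ζ‖ ^ 2 ≤ η * ‖ζ‖ ^ 2)

end Vale.Agent.P083
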