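import Vale.Agent.P083.Energy
import Vale.Agent.P083.Rel

/-!
From an approximate spectral gap to the correction of almost invariant elements.
-/

namespace Vale.Agent.P083

open scoped InnerProductSpace
open ContinuousLinearMap

section iter

variable {K : Type*} [NormedAddCommGroup K] [InnerProductSpace ℂ K] [CompleteSpace K]

/-- the quadratic form of an operator -/
noncomputable def qf (Λ : K →L[ℂ] K) (v : K) : ℝ := (⟪v, Λ v⟫_ℂ).re

omit [CompleteSpace K] in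
lemma qf_le {Λ : K →L[ℂ] K} (hn : ‖Λ‖ ≤ 2) (v : K) : qf Λ v ≤ 2 * ‖v‖ ^ 2 := by
  have h1 : qf Λ v ≤ ‖v‖ * ‖Λ v‖ := (Complex.re_le_norm _).trans (norm_inner_le_norm _ _)
  have h2 : ‖Λ v‖ ≤ 2 * ‖v‖ := (Λ.le_opNorm v).trans (by gcongr)
  nlinarith [norm_nonneg v]

lemma qf_step {Λ : K →L[ℂ] K} (hs : star Λ = Λ) (hn : ‖Λ‖ ≤ 2) (v : K) :
    qf Λ ((1 - (2⁻¹ : ℂ) • Λ) v) ≤ qf Λ v - ‖Λ v‖ ^ 2 / 2 := by
  have h1 : ⟪v, Λ (Λ v)⟫_ℂ = ⟪Λ v, Λ v⟫_ℂ := by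
    rw [← adjoint_inner_left, ← star_eq_adjoint, hs]
  have h2 := qf_le hn (Λ v)
  have h3 : (⟪Λ v, Λ v⟫_ℂ).re = ‖Λ v‖ ^ 2 := by
    rw [inner_self_eq_norm_sq_to_K]; norm_cast
  unfold qf at *
  simp only [sub_apply, one_apply_eq_self, smul_apply, map_sub, map_smul, inner_sub_left,
    inner_sub_right, inner_smul_left, inner_smul_right, h1, Complex.sub_re, Complex.mul_re, h3]
  norm_num
  linarith

lemma iter {Λ : K →L[ℂ] K} (hs : star Λ = Λ) (hn : ‖Λ‖ ≤ 2) (hpos : ∀ v, 0 ≤ qf Λ v)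
    (hT : ∀ v, ‖(1 - (2⁻¹ : ℂ) • Λ) v‖ ≤ ‖v‖) {c η : ℝ} (hc : 0 < c) (hc1 : c ≤ 1) (hη : 0 ≤ η)
    (hgap : ∀ v, c * qf Λ v - η * ‖v‖ ^ 2 ≤ ‖Λ v‖ ^ 2) (N : ℕ) (v : K) :
    qf Λ (((1 - (2⁻¹ : ℂ) • Λ) ^ N) v) ≤ (1 - c / 2) ^ N * qf Λ v + N * η * ‖v‖ ^ 2 ∧
      ‖v - ((1 - (2⁻¹ : ℂ) • Λ) ^ N) v‖ ≤
        (1 - √(1 - c / 2))⁻¹ * (√(qf Λ v) + N * √η * ‖v‖) := by
  set T : K →L[ℂ] K := 1 - (2⁻¹ : ℂ) • Λ with hTdef
  have hρ : 0 ≤ 1 - c / 2 := by linarith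
  have hσ : √(1 - c / 2) < 1 := by
    rw [Real.sqrt_lt' one_pos]; linarith
  have h1 : ∀ v, qf Λ (T v) ≤ (1 - c / 2) * qf Λ v + η * ‖v‖ ^ 2 := fun v => by
    have : qf Λ (T v) ≤ _ := qf_step hs hn v
    have h2 := hgap v
    have h3 : 0 ≤ η * ‖v‖ ^ 2 := by positivity
    linarith
  have h2 : ∀ v, ‖v - T v‖ ≤ √(qf Λ v) := fun v => by
    refine Real.le_sqrt_of_sq_le ?_
    have e : v - T v = (2⁻¹ : ℂ) • Λ v := by simp [hTdef]
    have : qf Λ (T v) ≤ _ := qf_step hs hn v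
    have h3 := hpos (T v)
    have h4 := hpos v
    rw [e, norm_smul, mul_pow]
    norm_num
    linarith
  have h3 : ∀ v, √(qf Λ (T v)) ≤ √(1 - c / 2) * √(qf Λ v) + √η * ‖v‖ := fun v => by
    refine Real.sqrt_le_iff.2 ⟨by positivity, (h1 v).trans ?_⟩
    rw [add_sq, mul_pow, mul_pow, Real.sq_sqrt hρ, Real.sq_sqrt (hpos v), Real.sq_sqrt hη]
    have : 0 ≤ 2 * (√(1 - c / 2) * √(qf Λ v)) * (√η * ‖v‖) := by positivity
    linarith
  set σ := √(1 - c / 2) with hσdef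
  have hσ0 : 0 ≤ σ := Real.sqrt_nonneg _
  have ha : 0 < (1 - σ)⁻¹ := by rw [inv_pos]; linarith
  have ha' : (1 - σ)⁻¹ = 1 + (1 - σ)⁻¹ * σ := by
    have : 1 - σ ≠ 0 := by linarith
    field_simp; ring
  induction N generalizing v with
  | zero => simp; positivity
  | succ N ih =>
    obtain ⟨i1, i2⟩ := ih (T v)
    rw [pow_succ, mul_apply_eq_comp]
    have hTv := hT v
    constructor
    · have a1 : (1 - c / 2) ^ N * qf Λ (T v) ≤
          (1 - c / 2) ^ N * ((1 - c / 2) * qf Λ v + η * ‖v‖ ^ 2) := by gcongr; exact h1 v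
      have a2 : N * η * ‖T v‖ ^ 2 ≤ N * η * ‖v‖ ^ 2 := by gcongr
      have a3 : (1 - c / 2) ^ N * (η * ‖v‖ ^ 2) ≤ 1 * (η * ‖v‖ ^ 2) := by
        gcongr; exact pow_le_one₀ hρ (by linarith)
      rw [pow_succ, Nat.cast_succ]
      linarith
    · have a1 := norm_sub_le_norm_sub_add_norm_sub v (T v) ((T ^ N) (T v))
      have a2 : (1 - σ)⁻¹ * (√(qf Λ (T v)) + N * √η * ‖T v‖) ≤
          (1 - σ)⁻¹ * ((σ * √(qf Λ v) + √η * ‖v‖) + N * √η * ‖v‖) := by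
        gcongr; exact h3 v
      have a3 : (1 - σ)⁻¹ * √(qf Λ v) = (1 + (1 - σ)⁻¹ * σ) * √(qf Λ v) := by rw [← ha']
      have a4 := h2 v
      rw [Nat.cast_succ]
      linarith

end iter

variable {H : Type*} [NormedAddCommGroup H] [InnerProductSpace ℂ H] [CompleteSpace H]
  {ι : Type*} {b : HilbertBasis ι ℂ H}

namespace HS

/-- conjugation -/
noncomputable def Ad (u : H →L[ℂ] H) : HS b →L[ℂ] HS b := (lm u).comp (rm (star u))

@[simp] lemma op_Ad (u : H →L[ℂ] H) (x : HS b) : op (Ad u x) = u * op x * star u := by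
  simp [Ad, mul_assoc]

lemma Ad_mul (u v : H →L[ℂ] H) : Ad (b := b) (u * v) = Ad u * Ad v := by
  ext x; exact ext' (by simp [mul_assoc])

lemma Ad_one : Ad (b := b) 1 = 1 := by
  ext x; exact ext' (by simp)

lemma Ad_pow (u : H →L[ℂ] H) (k : ℕ) : Ad (b := b) (u ^ k) = Ad u ^ k := by
  induction k with
  | zero => simp [Ad_one]
  | succ k ih => rw [pow_succ, Ad_mul, ih, pow_succ]

lemma norm_Ad_apply_le {u : H →L[ℂ] H} (hu : ‖u‖ ≤ 1) (x : HS b) : ‖Ad u x‖ ≤ ‖x‖ :=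
  norm_le_of_op_eq_mul₂ hu (by rwa [norm_star]) (op_Ad u x)

lemma norm_Ad_le {u : H →L[ℂ] H} (hu : ‖u‖ ≤ 1) : ‖Ad (b := b) u‖ ≤ 1 :=
  opNorm_le_bound _ zero_le_one fun x => by simpa using norm_Ad_apply_le hu x

lemma norm_Ad_sub_le {u v : H →L[ℂ] H} (hu : ‖u‖ ≤ 1) (hv : ‖v‖ ≤ 1) :
    ‖Ad (b := b) u - Ad v‖ ≤ 2 * ‖u - v‖ := by
  refine opNorm_le_bound _ (by positivity) fun x => ?_
  have e : Ad u x - Ad v x = lm (u - v) (rm (star u) x) + rm (star (u - v)) (lm v x) :=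
    ext' (by simp only [map_sub, map_add, op_Ad, op_lm, op_rm, star_sub]; noncomm_ring)
  rw [sub_apply, e]
  have a1 := norm_lm_le (u - v) (rm (star u) x)
  have a2 := norm_rm_le (star (u - v)) (lm v x)
  have a3 := norm_rm_le_of_le_one (a := star u) (by rwa [norm_star]) x
  have a4 := norm_lm_le_of_le_one hv x
  rw [norm_star] at a2
  have a5 := norm_add_le (lm (u - v) (rm (star u) x)) (rm (star (u - v)) (lm v x))
  have a6 : ‖u - v‖ * ‖rm (star u) x‖ ≤ ‖u - v‖ * ‖x‖ := by gcongr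
  have a7 : ‖u - v‖ * ‖lm v x‖ ≤ ‖u - v‖ * ‖x‖ := by gcongr
  linarith

lemma norm_le_of_unitary {C : Type*} [CStarAlgebra C] {u : C} (hu : u ∈ unitary C) :
    ‖u‖ ≤ 1 := by
  have h1 : ‖u‖ * ‖u‖ = ‖(1 : C)‖ := by
    rw [← CStarRing.norm_star_mul_self, Unitary.star_mul_self_of_mem hu]
  have h2 : ‖(1 : C)‖ ≤ 1 := (IsStarProjection.one C).norm_le
  nlinarith [norm_nonneg u]

lemma norm_Ad_apply {u : H →L[ℂ] H} (hu : u ∈ unitary (H →L[ℂ] H)) (x : HS b) :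
    ‖Ad u x‖ = ‖x‖ := by
  refine le_antisymm (norm_Ad_apply_le (norm_le_of_unitary hu) x) ?_
  have : x = Ad (star u) (Ad u x) := by
    rw [← mul_apply_eq_comp, ← Ad_mul, Unitary.star_mul_self_of_mem hu, Ad_one]; rfl
  conv_lhs => rw [this]
  exact norm_Ad_apply_le (norm_le_of_unitary (Unitary.star_mem hu)) _

lemma star_Ad {u : H →L[ℂ] H} (hu : u ∈ unitary (H →L[ℂ] H)) :
    star (Ad (b := b) u) = Ad (star u) := by
  have h1 : star (Ad (b := b) u) * Ad u = 1 :=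
    (norm_map_iff_adjoint_comp_self (Ad (b := b) u)).1 (norm_Ad_apply hu)
  calc star (Ad (b := b) u) = star (Ad (b := b) u) * Ad (u * star u) := by
        rw [Unitary.mul_star_self_of_mem hu, Ad_one, mul_one]
    _ = _ := by rw [Ad_mul, ← mul_assoc, h1, one_mul]

lemma norm_Ad_sub_self {u : H →L[ℂ] H} (hu : u ∈ unitary (H →L[ℂ] H)) (x : HS b) :
    ‖Ad u x - x‖ = ‖cm u x‖ := by
  have n1 := norm_le_of_unitary hu
  have n2 := norm_le_of_unitary (Unitary.star_mem hu)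
  refine le_antisymm (norm_le_of_op_eq_mul₂ (a := 1) norm_id_le n2 ?_)
    (norm_le_of_op_eq_mul₂ (a := 1) norm_id_le n1 ?_)
  · simp [sub_mul, mul_assoc, Unitary.mul_star_self_of_mem hu]
  · simp [sub_mul, mul_assoc, Unitary.star_mul_self_of_mem hu]

variable {Γ : Type} [Fintype Γ] [Nonempty Γ] {W : Γ → H →L[ℂ] H}

omit [Nonempty Γ] in
lemma star_Lap {R : Type*} [Ring R] [Algebra ℂ R] [StarRing R] [StarModule ℂ R] (a : Γ → R) :
    star (Lap a) = Lap a := by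
  simp [Lap, star_sum, add_comm]

lemma qf_Lap (hW : ∀ γ, W γ ∈ unitary (H →L[ℂ] H)) (x : HS b) :
    qf (Lap fun γ => Ad (b := b) (W γ)) x = (2 * Fintype.card Γ : ℝ)⁻¹ * En W x := by
  have hN : (0 : ℝ) < Fintype.card Γ := by exact_mod_cast Fintype.card_pos
  have h1 : ∀ γ, ‖cm (W γ) x‖ ^ 2 = 2 * ‖x‖ ^ 2 -
      (⟪x, (Ad (b := b) (W γ) + star (Ad (b := b) (W γ))) x⟫_ℂ).re := fun γ => by
    rw [← norm_Ad_sub_self (hW γ), @norm_sub_sq ℂ, norm_Ad_apply (hW γ), add_apply,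
      inner_add_right, star_eq_adjoint, adjoint_inner_right, Complex.add_re,
      ← inner_conj_symm x, Complex.conj_re]
    simp; ring
  have h2 : (⟪x, x⟫_ℂ).re = ‖x‖ ^ 2 := by rw [inner_self_eq_norm_sq_to_K]; norm_cast
  have h3 : ((2 * Fintype.card Γ : ℂ)⁻¹) = (((2 * Fintype.card Γ : ℝ)⁻¹ : ℝ) : ℂ) := by
    push_cast; rfl
  simp only [qf, Lap, En, h1, sub_apply, one_apply_eq_self, smul_apply, sum_apply,
    inner_sub_right, inner_smul_right, inner_sum, Complex.sub_re, h2, h3, Complex.re_ofReal_mul,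
    Complex.re_sum, Finset.sum_sub_distrib, Finset.sum_const, Finset.card_univ, nsmul_eq_mul]
  field_simp

/-- maps preserving finite rank, self-adjointness and both norms -/
structure Pres (S : HS b →L[ℂ] HS b) : Prop where
  fr : ∀ x, FR x → FR (S x)
  sa : ∀ x, star (op x) = op x → star (op (S x)) = op (S x)
  n1 : ∀ x, ‖op (S x)‖ ≤ ‖op x‖
  n2 : ∀ x, ‖S x‖ ≤ ‖x‖

lemma Pres.pow {S : HS b →L[ℂ] HS b} (h : Pres S) (N : ℕ) : Pres (S ^ N) := by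
  induction N with
  | zero => exact ⟨fun _ h => h, fun _ h => h, fun _ => le_rfl, fun _ => le_rfl⟩
  | succ N ih =>
    rw [pow_succ]
    exact ⟨fun x hx => ih.fr _ (h.fr x hx), fun x hx => ih.sa _ (h.sa x hx),
      fun x => (ih.n1 _).trans (h.n1 x), fun x => (ih.n2 _).trans (h.n2 x)⟩

lemma norm_avg_le {E : Type*} [SeminormedAddCommGroup E] [NormedSpace ℂ E] {f g : Γ → E} {M : ℝ}
    (hf : ∀ γ, ‖f γ‖ ≤ M) (hg : ∀ γ, ‖g γ‖ ≤ M) :
    ‖(2 * Fintype.card Γ : ℂ)⁻¹ • ∑ γ, (f γ + g γ)‖ ≤ M := by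
  have hN : (0 : ℝ) < Fintype.card Γ := by exact_mod_cast Fintype.card_pos
  have h1 : ‖∑ γ, (f γ + g γ)‖ ≤ ∑ _γ : Γ, 2 * M :=
    (norm_sum_le _ _).trans (Finset.sum_le_sum fun γ _ => (norm_add_le _ _).trans (by
      linarith [hf γ, hg γ]))
  rw [norm_smul, norm_inv, norm_mul, Complex.norm_natCast, Complex.norm_ofNat,
    inv_mul_le_iff₀ (by positivity)]
  simp only [Finset.sum_const, Finset.card_univ, nsmul_eq_mul] at h1
  linarith

lemma norm_half_le {E : Type*} [SeminormedAddCommGroup E] [NormedSpace ℂ E] {x y : E} {M : ℝ}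
    (hx : ‖x‖ ≤ M) (hy : ‖y‖ ≤ M) : ‖(2⁻¹ : ℂ) • (x + y)‖ ≤ M := by
  rw [norm_smul]
  have := norm_add_le x y
  norm_num
  linarith

lemma pres_Lap (hW : ∀ γ, W γ ∈ unitary (H →L[ℂ] H)) :
    Pres (1 - (2⁻¹ : ℂ) • Lap fun γ => Ad (b := b) (W γ)) := by
  have n1 := fun γ => norm_le_of_unitary (hW γ)
  have n2 := fun γ => norm_le_of_unitary (Unitary.star_mem (hW γ))
  have e : ∀ x : HS b, (1 - (2⁻¹ : ℂ) • Lap fun γ => Ad (b := b) (W γ)) x = (2⁻¹ : ℂ) • (x +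
      (2 * Fintype.card Γ : ℂ)⁻¹ • ∑ γ, (Ad (W γ) x + Ad (star (W γ)) x)) := fun x => by
    simp only [Lap, star_Ad (hW _), sub_apply, one_apply_eq_self, smul_apply, sum_apply, add_apply]
    module
  refine ⟨fun x hx => ?_, fun x hx => ?_, fun x => ?_, fun x => ?_⟩ <;> rw [e]
  · exact (hx.add ((FR.sum _ fun γ _ => ((hx.rm _).lm _).add ((hx.rm _).lm _)).smul _)).smul _
  · simp [star_sum, hx, mul_assoc]
  · simp only [map_smul, map_add, map_sum, op_Ad]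
    refine norm_half_le le_rfl (norm_avg_le (fun γ => ?_) (fun γ => ?_))
    · refine norm_mul₃_le.trans ?_
      calc _ ≤ 1 * ‖op x‖ * 1 := by gcongr; exacts [n1 γ, n2 γ]
        _ = _ := by ring
    · refine norm_mul₃_le.trans ?_
      rw [star_star]
      calc _ ≤ 1 * ‖op x‖ * 1 := by gcongr; exacts [n2 γ, n1 γ]
        _ = _ := by ring
  · exact norm_half_le le_rfl (norm_avg_le (fun γ => norm_Ad_apply_le (n1 γ) x)
      (fun γ => norm_Ad_apply_le (n2 γ) x))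

lemma norm_Lap_le (hW : ∀ γ, W γ ∈ unitary (H →L[ℂ] H)) :
    ‖Lap fun γ => Ad (b := b) (W γ)‖ ≤ 2 := by
  refine (norm_sub_le _ _).trans ?_
  have h1 : ‖(1 : HS b →L[ℂ] HS b)‖ ≤ 1 := norm_id_le
  have h2 := norm_avg_le (f := fun γ => Ad (b := b) (W γ)) (g := fun γ => star (Ad (b := b) (W γ)))
    (M := 1) (fun γ => norm_Ad_le (norm_le_of_unitary (hW γ)))
    (fun γ => by rw [norm_star]; exact norm_Ad_le (norm_le_of_unitary (hW γ)))
  linarith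

theorem gap_correct (c : ℝ) (hc : 0 < c) : ∃ L : ℝ, 0 ≤ L ∧ ∀ ε : ℝ, 0 < ε → ∃ η : ℝ, 0 < η ∧
    ∀ W : Γ → H →L[ℂ] H, (∀ γ, W γ ∈ unitary (H →L[ℂ] H)) →
      (∀ v : HS b, c * qf (Lap fun γ => Ad (b := b) (W γ)) v - η * ‖v‖ ^ 2 ≤
        ‖(Lap fun γ => Ad (b := b) (W γ)) v‖ ^ 2) →
      ∀ x : HS b, FR x → star (op x) = op x → ‖op x‖ ≤ 1 → ∃ x' : HS b, FR x' ∧
        star (op x') = op x' ∧ ‖op x'‖ ≤ 1 ∧ ‖x'‖ ≤ ‖x‖ ∧ En W x' ≤ ε * ‖x‖ ^ 2 ∧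
          ‖x - x'‖ ^ 2 ≤ L * En W x + ε * ‖x‖ ^ 2 := by
  set c' := min c 1 with hc'
  have c0 : 0 < c' := lt_min hc one_pos
  have c1 : c' ≤ 1 := min_le_right _ _
  have c2 : c' ≤ c := min_le_left _ _
  set a := (1 - √(1 - c' / 2))⁻¹ with ha
  have hN : (1 : ℝ) ≤ Fintype.card Γ := by exact_mod_cast Fintype.card_pos
  set n : ℝ := (Fintype.card Γ : ℝ) with hn
  refine ⟨2 * a ^ 2, by positivity, fun ε hε => ?_⟩
  obtain ⟨N, hN1⟩ := exists_pow_lt_of_lt_one (x := ε / (8 * n)) (y := 1 - c' / 2)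
    (by positivity) (by linarith)
  set M : ℝ := 4 * n * N + 2 * a ^ 2 * N ^ 2 + 1 with hM
  have hM0 : 0 < M := by positivity
  refine ⟨ε / M, by positivity, fun W hW hgap x x1 x2 x3 => ?_⟩
  have hP := (pres_Lap (b := b) hW).pow N
  have hq : ∀ v, 0 ≤ qf (Lap fun γ => Ad (b := b) (W γ)) v := fun v => by
    rw [qf_Lap hW]; have := En_nonneg W v; positivity
  obtain ⟨i1, i2⟩ := iter (star_Lap _) (norm_Lap_le hW) hq (pres_Lap (b := b) hW).n2 c0 c1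
    (η := ε / M) (by positivity) (fun v => le_trans (by
      have := mul_le_mul_of_nonneg_right c2 (hq v); linarith) (hgap v)) N x
  refine ⟨_, hP.fr x x1, hP.sa x x2, (hP.n1 x).trans x3, hP.n2 x, ?_, ?_⟩
  · have a1 := qf_le (norm_Lap_le (b := b) hW) x
    have a2 : (1 - c' / 2) ^ N * qf (Lap fun γ => Ad (b := b) (W γ)) x ≤
        ε / (8 * n) * (2 * ‖x‖ ^ 2) := by gcongr; exact hq x
    have a3 : N * (ε / M) ≤ ε / (4 * n) := by
      rw [mul_div_assoc', div_le_div_iff₀ hM0 (by positivity)]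
      have : ε * (4 * n * N) ≤ ε * M := by
        gcongr; rw [hM]; have : 0 ≤ 2 * a ^ 2 * N ^ 2 := by positivity
        linarith
      linarith
    have a4 : N * (ε / M) * ‖x‖ ^ 2 ≤ ε / (4 * n) * ‖x‖ ^ 2 := by gcongr
    rw [qf_Lap hW, inv_mul_le_iff₀ (by positivity)] at i1
    refine i1.trans ?_
    calc _ ≤ 2 * n * (ε / (8 * n) * (2 * ‖x‖ ^ 2) + ε / (4 * n) * ‖x‖ ^ 2) := by gcongr
      _ = _ := by field_simp; ring
  · have a1 := pow_le_pow_left₀ (norm_nonneg _) i2 2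
    refine a1.trans ?_
    have a2 : qf (Lap fun γ => Ad (b := b) (W γ)) x ≤ En W x := by
      rw [qf_Lap hW, inv_mul_le_iff₀ (by positivity)]
      nlinarith [En_nonneg W x]
    have a3 : (√(qf (Lap fun γ => Ad (b := b) (W γ)) x) + N * √(ε / M) * ‖x‖) ^ 2 ≤
        2 * En W x + 2 * (N ^ 2 * (ε / M) * ‖x‖ ^ 2) := by
      have b1 := Real.sq_sqrt (hq x)
      have b2 : (N * √(ε / M) * ‖x‖) ^ 2 = N ^ 2 * (ε / M) * ‖x‖ ^ 2 := by
        rw [mul_pow, mul_pow, Real.sq_sqrt (by positivity)]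
      nlinarith [sq_nonneg (√(qf (Lap fun γ => Ad (b := b) (W γ)) x) - N * √(ε / M) * ‖x‖)]
    have a4 : 2 * a ^ 2 * N ^ 2 * (ε / M) ≤ ε := by
      rw [mul_div_assoc', div_le_iff₀ hM0]
      have : ε * (2 * a ^ 2 * N ^ 2) ≤ ε * M := by
        gcongr; rw [hM]; have : 0 ≤ 4 * n * N := by positivity
        linarith
      linarith
    have a5 : 2 * a ^ 2 * N ^ 2 * (ε / M) * ‖x‖ ^ 2 ≤ ε * ‖x‖ ^ 2 := by gcongr
    rw [mul_pow]
    calc _ ≤ a ^ 2 * (2 * En W x + 2 * (N ^ 2 * (ε / M) * ‖x‖ ^ 2)) := by gcongr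
      _ ≤ _ := by linarith

end HS

end Vale.Agent.P083
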