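import Vale.Agent.P083.Spec
import Vale.Agent.P083.Rel

/-!
Finite dimensional approximation produces almost invariant projections of bounded rank.
-/

namespace Vale.Agent.P083

open scoped InnerProductSpace
open ContinuousLinearMap InnerProductSpace

variable {H : Type*} [NormedAddCommGroup H] [InnerProductSpace ℂ H] [CompleteSpace H]
  {ι : Type*} {b : HilbertBasis ι ℂ H}

section orth

variable {E : Type*} [NormedAddCommGroup E] [InnerProductSpace ℂ E] {n : ℕ} {g : Fin n → E}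
  {μ : Fin n → ℝ}

lemma orthonormal_normalize (hμ : ∀ j, 0 ≤ μ j)
    (hg : ∀ j l, ⟪g j, g l⟫_ℂ = if j = l then (μ j : ℂ) else 0) :
    Orthonormal ℂ fun j : {j // μ j ≠ 0} => (((√(μ j))⁻¹ : ℝ) : ℂ) • g j := by
  classical
  rw [orthonormal_iff_ite]
  rintro ⟨j, hj⟩ ⟨l, hl⟩
  simp only [inner_smul_left, inner_smul_right, hg, Subtype.mk.injEq, Complex.conj_ofReal]
  split_ifs with h
  · subst h
    have h1 : √(μ j) ≠ 0 := by rw [Real.sqrt_ne_zero (hμ j)]; exact hj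
    have h2 : (√(μ j))⁻¹ * ((√(μ j))⁻¹ * μ j) = 1 := by
      field_simp; rw [Real.sq_sqrt (hμ j)]
    exact_mod_cast h2
  · simp

lemma bessel_orth (hμ : ∀ j, 0 ≤ μ j)
    (hg : ∀ j l, ⟪g j, g l⟫_ℂ = if j = l then (μ j : ℂ) else 0) (y : E) :
    ∑ j, ‖⟪g j, y⟫_ℂ‖ ^ 2 / μ j ≤ ‖y‖ ^ 2 := by
  classical
  have h := (orthonormal_normalize hμ hg).sum_inner_products_le y (s := Finset.univ)
  refine le_trans (le_of_eq ?_) h
  rw [← Finset.sum_subtype (s := Finset.univ.filter fun j => μ j ≠ 0) (by simp)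
    (fun j => ‖⟪(((√(μ j))⁻¹ : ℝ) : ℂ) • g j, y⟫_ℂ‖ ^ 2), Finset.sum_filter]
  refine Finset.sum_congr rfl fun j _ => ?_
  split_ifs with hj
  · rw [inner_smul_left, norm_mul, mul_pow]
    simp only [Complex.conj_ofReal, Complex.norm_real, Real.norm_eq_abs, sq_abs, inv_pow,
      Real.sq_sqrt (hμ j)]
    ring
  · push Not at hj; simp [hj]

lemma card_orth [FiniteDimensional ℂ E] (hμ : ∀ j, 0 ≤ μ j)
    (hg : ∀ j l, ⟪g j, g l⟫_ℂ = if j = l then (μ j : ℂ) else 0) :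
    (Finset.univ.filter fun j => μ j ≠ 0).card ≤ Module.finrank ℂ E := by
  have := (orthonormal_normalize hμ hg).linearIndependent.fintype_card_le_finrank
  rwa [Fintype.card_subtype] at this

lemma amgm_orth (hμ : ∀ j, 0 ≤ μ j)
    (hg : ∀ j l, ⟪g j, g l⟫_ℂ = if j = l then (μ j : ℂ) else 0) (y : E) (j : Fin n) (a : ℝ)
    {κ : ℝ} (hκ : 0 < κ) :
    a * ‖⟪g j, y⟫_ℂ‖ ≤ κ / 2 * (a ^ 2 * μ j) + (2 * κ)⁻¹ * (‖⟪g j, y⟫_ℂ‖ ^ 2 / μ j) := by
  rcases (hμ j).eq_or_lt with h | h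
  · have : g j = 0 := by
      have := hg j j
      rw [if_pos rfl, ← h] at this
      simpa using this
    simp [this, ← h]
  · generalize ‖⟪g j, y⟫_ℂ‖ = t
    have : κ / 2 * (a ^ 2 * μ j) + (2 * κ)⁻¹ * (t ^ 2 / μ j) - a * t =
        (κ * a * μ j - t) ^ 2 / (2 * κ * μ j) := by field_simp; ring
    have h2 : 0 ≤ (κ * a * μ j - t) ^ 2 / (2 * κ * μ j) := by positivity
    linarith

end orth

namespace HS

variable {I : Type} [Fintype I] {U : I → H →L[ℂ] H} {T : Type} [Fintype T]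

/-- One slice. -/
lemma slice (hU : ∀ i, ‖U i‖ ≤ 1) (x : I → T → T → ℂ) (η : T → H) {κ θ : ℝ} (hκ : 0 < κ)
    (hpos : 0 < ∑ α, ‖η α‖ ^ 2)
    (herr : ∑ i, (∑ α, ‖star (U i) (η α) - ∑ β, star (x i α β) • η β‖ ^ 2 +
      ∑ α, ‖U i (η α) - ∑ β, x i β α • η β‖ ^ 2) ≤ θ * ∑ α, ‖η α‖ ^ 2) :
    ∃ Q : HS b, IsP Q ∧ Q ≠ 0 ∧ (∀ E : H →L[ℂ] H, (∀ α, E (η α) = η α) → E * op Q = op Q) ∧
      ‖Q‖ ^ 2 ≤ Fintype.card T ∧
      En U Q ≤ (κ * Fintype.card I + (2 * κ)⁻¹ * θ) * ‖Q‖ ^ 2 := by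
  classical
  set A : HS b := ∑ α, ro (η α) (η α) with hA
  have hAv : ∀ v, op A v = ∑ α, ⟪η α, v⟫_ℂ • η α := fun v => by simp [hA]
  have hAs : star (op A) = op A := by simp [hA, star_sum, star_eq_adjoint]
  obtain ⟨D⟩ := exists_diag U (x := A) (FR.sum _ fun _ _ => FR.ro _ _) hAs
  have hop : op A = op (dg (b := b) D.e D.s) := by rw [← D.eq]
  let vec : (T → H) → H → EuclideanSpace ℂ T := fun f v => WithLp.toLp 2 fun α => ⟪f α, v⟫_ℂ
  have hvec : ∀ f f' v v', ⟪vec f v, vec f' v'⟫_ℂ = ∑ α, ⟪v, f α⟫_ℂ * ⟪f' α, v'⟫_ℂ := by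
    intro f f' v v'
    simp [vec, PiLp.inner_apply, mul_comm]
  have hvecn : ∀ f : T → H, ∑ l, ‖vec f (D.e l)‖ ^ 2 ≤ ∑ α, ‖f α‖ ^ 2 := fun f => by
    simp only [EuclideanSpace.norm_sq_eq, vec]
    rw [Finset.sum_comm]
    refine Finset.sum_le_sum fun α _ => ?_
    simpa [norm_inner_symm] using D.on.sum_inner_products_le (f α) (s := Finset.univ)
  have hgA : ∀ v v', ⟪vec η v, vec η v'⟫_ℂ = ⟪v, op A v'⟫_ℂ := fun v v' => by
    rw [hvec, hAv, inner_sum]; simp [inner_smul_right, mul_comm]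
  have hg : ∀ j l, ⟪vec η (D.e j), vec η (D.e l)⟫_ℂ = if j = l then (D.s j : ℂ) else 0 := by
    intro j l
    rw [hgA, hop, inner_op_dg D.on, orthonormal_iff_ite.1 D.on]; simp
  have hs : ∀ j, D.s j = ‖vec η (D.e j)‖ ^ 2 := fun j => by
    have := hg j j
    rw [if_pos rfl, inner_self_eq_norm_sq_to_K] at this
    refine Complex.ofReal_injective ?_
    rw [← this]; simp
  have hs0 : ∀ j, 0 ≤ D.s j := fun j => by rw [hs]; positivity
  have hprj : ∀ α, prj D.e (η α) = η α := fun α => by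
    have p1 : op A * prj D.e = op A := by
      rw [hop, ← op_dg_one (b := b), op_dg_mul D.on, mul_one]
    have p2 : prj D.e * prj D.e = prj D.e := by
      rw [← op_dg_one (b := b), op_dg_mul D.on, mul_one]
    have p3 : op A (η α - prj D.e (η α)) = 0 := by
      rw [map_sub, ← mul_apply_eq_comp, p1, sub_self]
    have p4 := hgA (η α - prj D.e (η α)) (η α - prj D.e (η α))
    rw [p3, inner_zero_right, inner_self_eq_zero] at p4
    have p5 : ⟪η α, η α - prj D.e (η α)⟫_ℂ = 0 := congrArg (fun v => v α) p4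
    have p6 : ⟪prj D.e (η α), η α - prj D.e (η α)⟫_ℂ = 0 := by
      rw [← adjoint_inner_right, ← star_eq_adjoint, star_prj, map_sub, ← mul_apply_eq_comp, p2,
        sub_self, inner_zero_right]
    have p7 : ⟪η α - prj D.e (η α), η α - prj D.e (η α)⟫_ℂ = 0 := by
      rw [inner_sub_left, p5, p6, sub_zero]
    exact (sub_eq_zero.1 (inner_self_eq_zero.1 p7)).symm
  have htr : ∑ j, D.s j = ∑ α, ‖η α‖ ^ 2 := by
    simp only [hs, EuclideanSpace.norm_sq_eq, vec]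
    rw [Finset.sum_comm]
    refine Finset.sum_congr rfl fun α _ => ?_
    rw [norm_sq_of_prj D.on (hprj α)]
    simp [norm_inner_symm]
  set ρ : I → T → H := fun i α => star (U i) (η α) - ∑ β, star (x i α β) • η β with hρ
  set ρ' : I → T → H := fun i α => U i (η α) - ∑ β, x i β α • η β with hρ'
  have key : ∀ i j l, ((D.s j - D.s l : ℝ) : ℂ) * ⟪D.e j, U i (D.e l)⟫_ℂ =
      ⟪vec η (D.e j), vec (ρ i) (D.e l)⟫_ℂ - ⟪vec (ρ' i) (D.e j), vec η (D.e l)⟫_ℂ := by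
    intro i j l
    have k1 : (D.s j : ℂ) * ⟪D.e j, U i (D.e l)⟫_ℂ =
        ∑ α, ⟪D.e j, η α⟫_ℂ * ⟪star (U i) (η α), D.e l⟫_ℂ := by
      rw [← inner_op_dg (b := b) D.on, ← hop, ← hgA, hvec]
      simp only [star_eq_adjoint, adjoint_inner_left]
    have k2 : (D.s l : ℂ) * ⟪D.e j, U i (D.e l)⟫_ℂ =
        ∑ α, ⟪D.e j, U i (η α)⟫_ℂ * ⟪η α, D.e l⟫_ℂ := by
      rw [← inner_smul_right, ← map_smul, ← op_dg_e (b := b) D.on, ← hop, hAv, map_sum, inner_sum]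
      simp [inner_smul_right, mul_comm]
    rw [Complex.ofReal_sub, sub_mul, k1, k2, hvec, hvec]
    simp only [hρ, hρ', inner_sub_left, inner_sub_right, sum_inner, inner_sum, inner_smul_left,
      inner_smul_right, mul_sub, sub_mul, Finset.sum_sub_distrib, Finset.mul_sum, Finset.sum_mul,
      Complex.star_def, Complex.conj_conj]
    rw [Finset.sum_comm (f := fun α β => x i β α * ⟪D.e j, η β⟫_ℂ * ⟪η α, D.e l⟫_ℂ)]
    simp only [mul_comm, mul_left_comm, mul_assoc]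
    abel
  have hterm : ∀ i j l, D.w i j l * |D.s j - D.s l| ≤ κ / 2 * (D.w i j l * (D.s j + D.s l)) +
      (2 * κ)⁻¹ * (‖⟪vec η (D.e j), vec (ρ i) (D.e l)⟫_ℂ‖ ^ 2 / D.s j +
        ‖⟪vec η (D.e l), vec (ρ' i) (D.e j)⟫_ℂ‖ ^ 2 / D.s l) := by
    intro i j l
    have a1 := amgm_orth hs0 hg (vec (ρ i) (D.e l)) j ‖⟪D.e j, U i (D.e l)⟫_ℂ‖ hκ
    have a2 := amgm_orth hs0 hg (vec (ρ' i) (D.e j)) l ‖⟪D.e j, U i (D.e l)⟫_ℂ‖ hκ
    have a3 := congrArg norm (key i j l)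
    rw [norm_mul, Complex.norm_real, Real.norm_eq_abs] at a3
    have a4 := norm_sub_le ⟪vec η (D.e j), vec (ρ i) (D.e l)⟫_ℂ
      ⟪vec (ρ' i) (D.e j), vec η (D.e l)⟫_ℂ
    rw [← a3, norm_inner_symm (vec (ρ' i) _)] at a4
    have a5 := mul_le_mul_of_nonneg_left a4 (norm_nonneg ⟪D.e j, U i (D.e l)⟫_ℂ)
    unfold Diag.w
    linarith
  have hsum : ∑ t : I × Fin D.n × Fin D.n, D.w t.1 t.2.2 t.2.1 * |D.s t.2.2 - D.s t.2.1| ≤
      (κ * Fintype.card I + (2 * κ)⁻¹ * θ) * ∑ j, D.s j := by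
    refine (Finset.sum_le_sum fun t _ => hterm t.1 t.2.2 t.2.1).trans ?_
    rw [Finset.sum_add_distrib, ← Finset.mul_sum, ← Finset.mul_sum]
    have a1 := D.sum_w_mul hU hs0
    have a2 : ∑ t : I × Fin D.n × Fin D.n,
        (‖⟪vec η (D.e t.2.2), vec (ρ t.1) (D.e t.2.1)⟫_ℂ‖ ^ 2 / D.s t.2.2 +
        ‖⟪vec η (D.e t.2.1), vec (ρ' t.1) (D.e t.2.2)⟫_ℂ‖ ^ 2 / D.s t.2.1) ≤ θ * ∑ j, D.s j := by
      rw [htr]
      refine le_trans ?_ herr
      rw [Fintype.sum_prod_type]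
      refine Finset.sum_le_sum fun i _ => ?_
      rw [Fintype.sum_prod_type]
      simp only [Finset.sum_add_distrib]
      refine add_le_add ?_ ?_
      · exact (Finset.sum_le_sum fun l _ => bessel_orth hs0 hg _).trans (hvecn _)
      · rw [Finset.sum_comm]
        exact (Finset.sum_le_sum fun l _ => bessel_orth hs0 hg _).trans (hvecn _)
    have a3 := mul_le_mul_of_nonneg_left a1 (by positivity : 0 ≤ κ / 2)
    have a4 := mul_le_mul_of_nonneg_left a2 (by positivity : 0 ≤ (2 * κ)⁻¹)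
    linarith
  obtain ⟨τ, hτ, h0, hen⟩ := exists_layer D hs0 (by rwa [htr]) hsum
  refine ⟨_, D.isP_ind τ, h0, fun E hE => D.le_ind hτ.le ?_, ?_, hen⟩
  · ext v; simp [hAv, hE]
  · rw [norm_dg D.on]
    have a1 := card_orth hs0 hg
    rw [finrank_euclideanSpace] at a1
    calc ∑ j, ind τ (D.s j) ^ 2 ≤ ∑ j, if D.s j ≠ 0 then (1 : ℝ) else 0 := by
          refine Finset.sum_le_sum fun j _ => ?_
          unfold ind
          split_ifs with h1 h2 h2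
          · simp
          · push Not at h2; linarith
          · simp
          · simp
      _ ≤ _ := by rw [Finset.sum_boole]; exact_mod_cast a1

lemma hasSum_lm (F : T → H →L[ℂ] H) (y : HS b) :
    HasSum (fun i => ∑ α, ‖F α (op y (b i))‖ ^ 2) (∑ α, ‖lm (F α) y‖ ^ 2) :=
  hasSum_sum fun α _ => by simpa using hasSum_op (lm (F α) y)

lemma sum_lm_le {F : T → H →L[ℂ] H} {η : ℝ} (h : ∀ ζ, ∑ α, ‖F α ζ‖ ^ 2 ≤ η * ‖ζ‖ ^ 2)
    (y : HS b) : ∑ α, ‖lm (F α) y‖ ^ 2 ≤ η * ‖y‖ ^ 2 :=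
  hasSum_le (fun _ => h _) (hasSum_lm F y) ((hasSum_op y).mul_left η)

lemma sum_lm_eq {F : T → H →L[ℂ] H} (h : ∀ ζ, ∑ α, ‖F α ζ‖ ^ 2 = ‖ζ‖ ^ 2)
    (y : HS b) : ∑ α, ‖lm (F α) y‖ ^ 2 = ‖y‖ ^ 2 := by
  have := hasSum_lm F y
  simp only [h] at this
  exact this.unique (hasSum_op y)

lemma sum_err_le {K : T → H →L[ℂ] H} (hK : ∀ ζ, ∑ α, ‖K α ζ‖ ^ 2 = ‖ζ‖ ^ 2) {u : H →L[ℂ] H}
    {x : T → T → ℂ} {η : ℝ}
    (h : ∀ ζ, ∑ α, ‖K α (u ζ) - ∑ β, x α β • K β ζ‖ ^ 2 ≤ η * ‖ζ‖ ^ 2) (P : HS b)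
    {n : ℕ} {ξ : Fin n → H} (hξ : Orthonormal ℂ ξ) :
    ∑ s, ∑ α, ‖star u (star (K α * op P) (ξ s)) -
      ∑ β, star (x α β) • star (K β * op P) (ξ s)‖ ^ 2 ≤ 2 * ‖cm u P‖ ^ 2 + 2 * (η * ‖P‖ ^ 2) := by
  rw [Finset.sum_comm]
  have a1 : ∀ α, ∑ s, ‖star u (star (K α * op P) (ξ s)) -
      ∑ β, star (x α β) • star (K β * op P) (ξ s)‖ ^ 2 ≤ 2 * ‖lm (K α * u - ∑ β, x α β • K β) P‖ ^ 2
        + 2 * ‖lm (K α) (cm u P)‖ ^ 2 := fun α => by
    refine le_trans ?_ (norm_sub_sq_le_two _ _)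
    rw [← norm_adj]
    refine le_trans (le_of_eq ?_) (bessel _ hξ Finset.univ)
    refine Finset.sum_congr rfl fun s _ => ?_
    have e : op (lm (K α * u - ∑ β, x α β • K β) P - lm (K α) (cm u P)) =
        K α * op P * u - ∑ β, x α β • (K β * op P) := by
      simp only [map_sub, op_lm, op_cm, sub_mul, mul_sub, Finset.sum_mul, smul_mul_assoc,
        mul_assoc]
      abel
    rw [op_adj, e, star_sub, star_mul (K α * op P), star_sum]
    simp only [star_smul, sub_apply, mul_apply_eq_comp, sum_apply, smul_apply]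
  refine (Finset.sum_le_sum fun α _ => a1 α).trans ?_
  rw [Finset.sum_add_distrib, ← Finset.mul_sum, ← Finset.mul_sum, sum_lm_eq hK]
  have a2 := sum_lm_le (F := fun α => K α * u - ∑ β, x α β • K β) (η := η)
    (fun ζ => by simpa using h ζ) P
  linarith

omit [CompleteSpace H] in
lemma exists_prj (W : Submodule ℂ H) [FiniteDimensional ℂ W] :
    ∃ (n : ℕ) (e : Fin n → H), Orthonormal ℂ e ∧ ∀ v ∈ W, prj e v = v := by
  let eb := stdOrthonormalBasis ℂ W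
  refine ⟨_, fun j => eb j, eb.orthonormal.comp_linearIsometry W.subtypeₗᵢ, fun v hv => ?_⟩
  have := congrArg Subtype.val (eb.sum_repr' ⟨v, hv⟩)
  rw [prj_apply]
  simpa using this

theorem small_piece (lam : ℝ) (hlam : 0 < lam) : ∃ δ : ℝ, 0 < δ ∧
    ∀ U : I → H →L[ℂ] H, (∀ i, ‖U i‖ ≤ 1) → AP U δ → ∃ k : ℝ, ∀ P : HS b, IsP P → P ≠ 0 →
      En U P ≤ δ * ‖P‖ ^ 2 → ∃ Q : HS b, IsP Q ∧ op P * op Q = op Q ∧ ‖Q‖ ^ 2 ≤ k ∧
        En U Q < lam * ‖Q‖ ^ 2 := by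
  set m : ℝ := (Fintype.card I : ℝ) with hm
  have hm0 : 0 ≤ m := Nat.cast_nonneg _
  set κ : ℝ := lam / (4 * (m + 1)) with hκ
  have hκ0 : 0 < κ := by positivity
  refine ⟨κ * lam / (8 * (m + 1)), by positivity, ?_⟩
  rintro U hU ⟨T, _, K, x, h1, h2, h3⟩
  refine ⟨Fintype.card T, fun P hP hP0 hen => ?_⟩
  set δ := κ * lam / (8 * (m + 1)) with hδ
  obtain ⟨W₀, _, hW₀⟩ := hP.fr
  obtain ⟨n, ξ, hξ, hξ'⟩ := exists_prj (⨆ α, W₀.map (K α : H →ₗ[ℂ] H))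
  set η : Fin n → T → H := fun s α => star (K α * op P) (ξ s) with hη
  have htr : ∑ s, ∑ α, ‖η s α‖ ^ 2 = ‖P‖ ^ 2 := by
    rw [Finset.sum_comm, ← sum_lm_eq h1 P]
    refine Finset.sum_congr rfl fun α _ => ?_
    rw [← norm_adj, parseval _ hξ]
    · simp [hη]
    · refine star_injective ?_
      change star (_ * prj ξ) = _
      rw [star_mul, star_prj, op_adj, star_star, op_lm]
      ext v
      exact hξ' _ (Submodule.mem_iSup_of_mem α (Submodule.mem_map_of_mem (hW₀ v)))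
  set err : Fin n → ℝ := fun s => ∑ i,
    (∑ α, ‖star (U i) (η s α) - ∑ β, star (x i α β) • η s β‖ ^ 2 +
      ∑ α, ‖U i (η s α) - ∑ β, x i β α • η s β‖ ^ 2) with herr
  have herr0 : ∀ s, 0 ≤ err s := fun s => by positivity
  have hsum : ∑ s, err s ≤ κ * lam / 2 * ‖P‖ ^ 2 := by
    simp only [herr]
    rw [Finset.sum_comm]
    have a1 : ∀ i, ∑ s, (∑ α, ‖star (U i) (η s α) - ∑ β, star (x i α β) • η s β‖ ^ 2 +
        ∑ α, ‖U i (η s α) - ∑ β, x i β α • η s β‖ ^ 2) ≤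
        4 * ‖cm (U i) P‖ ^ 2 + 4 * (δ * ‖P‖ ^ 2) := fun i => by
      have b1 := sum_err_le h1 (h2 i) P hξ
      have b2 := sum_err_le h1 (h3 i) P hξ
      have b3 : ‖cm (star (U i)) P‖ = ‖cm (U i) P‖ := by
        rw [← norm_adj, ← norm_neg]
        congr 1
        exact ext' (by simp [hP.star_eq])
      simp only [star_star, b3] at b2
      rw [Finset.sum_add_distrib]
      linarith
    refine (Finset.sum_le_sum fun i _ => a1 i).trans ?_
    rw [Finset.sum_add_distrib, ← Finset.mul_sum, Finset.sum_const, Finset.card_univ,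
      nsmul_eq_mul, ← hm]
    change 4 * En U P + _ ≤ _
    have : 4 * (δ * ‖P‖ ^ 2) + m * (4 * (δ * ‖P‖ ^ 2)) = κ * lam / 2 * ‖P‖ ^ 2 := by
      rw [hδ]; field_simp; ring
    linarith
  have hP1 := hP.one_le hP0
  obtain ⟨s, hs1, hs2⟩ : ∃ s, 0 < ∑ α, ‖η s α‖ ^ 2 ∧ err s ≤ κ * lam / 2 * ∑ α, ‖η s α‖ ^ 2 := by
    by_contra hcon
    push Not at hcon
    obtain ⟨s₀, -, hs₀⟩ := Finset.exists_lt_of_sum_lt (s := Finset.univ) (f := fun _ => (0 : ℝ))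
      (g := fun s => ∑ α, ‖η s α‖ ^ 2) (by rw [htr]; simp; linarith)
    have : ∑ s, κ * lam / 2 * ∑ α, ‖η s α‖ ^ 2 < ∑ s, err s := by
      refine Finset.sum_lt_sum (fun s _ => ?_) ⟨s₀, Finset.mem_univ _, hcon s₀ hs₀⟩
      rcases (by positivity : 0 ≤ ∑ α, ‖η s α‖ ^ 2).eq_or_lt with h | h
      · rw [← h, mul_zero]; exact herr0 s
      · exact (hcon s h).le
    rw [← Finset.mul_sum, htr] at this
    linarith
  obtain ⟨Q, q1, q2, q3, q4, q5⟩ := slice (b := b) hU x (η s) hκ0 hs1 hs2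
  refine ⟨Q, q1, q3 _ fun α => ?_, q4, q5.trans_lt ?_⟩
  · simp only [hη, star_mul, hP.star_eq]
    rw [← mul_apply_eq_comp, ← mul_assoc, hP.mul_self]
  · have := q1.one_le q2
    gcongr
    have a1 : κ * m ≤ lam / 4 := by
      rw [hκ, div_mul_eq_mul_div, div_le_div_iff₀ (by positivity) (by positivity)]
      nlinarith
    have a2 : (2 * κ)⁻¹ * (κ * lam / 2) = lam / 4 := by field_simp; ring
    linarith

end HS

end Vale.Agent.P083
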