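import Vale.Agent.P083.Core

/-!
The induction step and the final contradiction at the level of Hilbert-Schmidt estimates.
-/

namespace Vale.Agent.P083

open scoped InnerProductSpace
open ContinuousLinearMap

variable {H : Type*} [NormedAddCommGroup H] [InnerProductSpace ℂ H] [CompleteSpace H]
  {ι : Type*} {b : HilbertBasis ι ℂ H} {I J : Type} [Fintype I] [Fintype J] [DecidableEq J]

namespace HS

lemma exists_delta (L m D lam δ₄ : ℝ) (hL : 1 ≤ L) (hm : 0 ≤ m) (hD : 0 ≤ D) (hlam : 0 < lam)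
    (h4 : 0 < δ₄) : ∃ δ ζ τ ν : ℝ, 0 < δ ∧ δ ≤ δ₄ ∧ δ ≤ lam ∧ 300 * L ^ 2 * δ ≤ ζ ∧ ζ ≤ 1 / 100 ∧
      δ ≤ 1 / 10000 ∧ L * (2 * (δ / 20) + 32 * m * ζ) + δ ≤ τ ∧ 2 * τ + 8 * ζ ≤ ν ∧
      164 * ν ≤ 1 / 100 ∧ 2 * δ + 2 * (2 * τ * D + 648 * m * ν) ≤ lam / 100 := by
  set ζ₀ := 300 * L ^ 2 with h1
  set τ₀ := L * (2 / 20 + 32 * m * ζ₀) + 1 with h2
  set ν₀ := 2 * τ₀ + 8 * ζ₀ with h3
  set μ₀ := 2 + 2 * (2 * τ₀ * D + 648 * m * ν₀) with h5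
  have p1 : 0 < ζ₀ := by positivity
  have p2 : 0 < τ₀ := by positivity
  have p3 : 0 < ν₀ := by positivity
  have p4 : 0 < μ₀ := by positivity
  have key : ∀ᶠ δ in nhdsWithin (0 : ℝ) (Set.Ioi 0), δ ≤ δ₄ ∧ δ ≤ lam ∧ δ ≤ 1 / 100 / ζ₀ ∧
      δ ≤ 1 / 10000 ∧ δ ≤ 1 / 100 / (164 * ν₀) ∧ δ ≤ lam / 100 / μ₀ := by
    refine nhdsWithin_le_nhds ?_
    have h : ∀ a : ℝ, 0 < a → ∀ᶠ δ in nhds (0 : ℝ), δ ≤ a := fun a ha => Iic_mem_nhds ha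
    exact (h _ h4).and ((h _ hlam).and ((h _ (by positivity)).and ((h _ (by positivity)).and
      ((h _ (by positivity)).and (h _ (by positivity))))))
  obtain ⟨δ, ⟨a1, a2, a3, a4, a5, a6⟩, h0⟩ := (key.and self_mem_nhdsWithin).exists
  rw [le_div_iff₀ (by positivity)] at a3 a5 a6
  refine ⟨δ, ζ₀ * δ, τ₀ * δ, ν₀ * δ, h0, a1, a2, le_rfl, by linarith, a4, le_of_eq ?_,
    le_of_eq ?_, by linarith, ?_⟩
  · rw [h2]; ring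
  · rw [h3]; ring
  · refine le_trans (le_of_eq ?_) a6
    rw [h5]; ring

theorem step (L δ₄ : ℝ) (hL : 1 ≤ L) (hJ : 3 ≤ Fintype.card J) (h4 : 0 < δ₄) :
    ∃ δ ε₀ : ℝ, 0 < δ ∧ δ ≤ δ₄ ∧ 0 < ε₀ ∧ ε₀ ≤ δ ∧
      ∀ (U : I → H →L[ℂ] H) (r : J → H →L[ℂ] H) (ε : ℝ), Hyp b U r L ε → 0 ≤ ε → ε ≤ ε₀ →
        ∀ P : HS b, Good U δ (1 / (10000 * L)) P →
          ∃ P' : HS b, Good U δ (1 / (10000 * L)) P' ∧ 2 * ‖P‖ ^ 2 ≤ ‖P'‖ ^ 2 := by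
  have hlam : 0 < 1 / (10000 * L) := by positivity
  obtain ⟨δ, ζ, τ, ν, d0, d1, d2, d3, d4, d5, d6, d7, d8, d9⟩ := exists_delta L
    (Fintype.card I) (Fintype.card J) _ δ₄ hL (Nat.cast_nonneg _) (Nat.cast_nonneg _) hlam h4
  obtain ⟨ε₁, e1, e2, c1⟩ := corr' (b := b) (I := I) (J := J) (δ / 20) (by positivity)
  obtain ⟨ε₂, e3, e4, c2⟩ := corr' (b := b) (I := I) (J := J) ε₁ e1
  refine ⟨δ, ε₂, d0, d1, e3, by linarith, fun U r ε h hε hε' P hP => ?_⟩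
  have hJ' : (3 : ℝ) ≤ Fintype.card J := by exact_mod_cast hJ
  have hd1 : 1 ≤ ‖P‖ ^ 2 := hP.isP.one_le hP.ne
  have hP₁ := hP.isP.bK h.iso
  have hn := norm_bK h.iso P
  have hle : 3 * ‖P‖ ^ 2 ≤ Fintype.card J * ‖P‖ ^ 2 := by gcongr
  obtain ⟨P₂, p1, -, p3, p4⟩ := c2 U r L ε h hε' (Fintype.card J * ‖P‖ ^ 2) 1 0 (bK r P)
    (IsStarProjection.one _) (by simp) (by simp; positivity) hP₁ (by simp) hn.le
  have hnear : ‖bK r P - P₂‖ ^ 2 ≤ ζ * (Fintype.card J * ‖P‖ ^ 2) := by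
    have a1 := h.up P
    have a2 : L * En U P ≤ L * (δ * ‖P‖ ^ 2) := by gcongr; exact hP.en
    have a3 : ε * ‖P‖ ^ 2 ≤ δ * ‖P‖ ^ 2 := by gcongr; linarith
    have a4 : δ * ‖P‖ ^ 2 ≤ δ * (Fintype.card J * ‖P‖ ^ 2) := by gcongr; linarith
    rw [hn] at p4
    have a5 : ε * (Fintype.card J * ‖P‖ ^ 2) ≤ δ * (Fintype.card J * ‖P‖ ^ 2) := by
      gcongr; linarith
    have a6 := mul_le_mul_of_nonneg_right d3 (by linarith : 0 ≤ (Fintype.card J * ‖P‖ ^ 2 : ℝ))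
    rw [mul_assoc (300 * L ^ 2)] at a6
    have a0 : 0 ≤ δ * (Fintype.card J * ‖P‖ ^ 2) := by positivity
    have a7 : L * (δ * ‖P‖ ^ 2) ≤ L * (δ * (Fintype.card J * ‖P‖ ^ 2)) := by gcongr
    generalize δ * (Fintype.card J * ‖P‖ ^ 2) = t at *
    have a8 : En U (bK r P) ≤ 2 * L * t := by nlinarith
    have a9 : L * En U (bK r P) ≤ L * (2 * L * t) := by gcongr
    have a10 : 1 * t ≤ L ^ 2 * t := by gcongr; nlinarith
    linarith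
  have r1 := hP₁.rank_sub_le p1
  have r2 := hP₁.rank_sub_le' p1
  rw [hn] at r1 r2
  have a6 := mul_le_mul_of_nonneg_right d4 (by linarith : 0 ≤ (Fintype.card J * ‖P‖ ^ 2 : ℝ))
  obtain ⟨P', q1, q2, q3, q4⟩ := extract (U := U) (L := L) (ε := ε) (σ := δ / 20) (η := δ / 20)
    p1 hL (by linarith : 1 ≤ (Fintype.card J * ‖P‖ ^ 2 : ℝ)) rfl (by positivity) (by linarith) hε
    (by linarith) (by linarith) (by linarith) p3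
    (fun Q hQ hle hQd => c1 U r L ε h (by linarith) _ (op P₂) (fun i => cm (U i) P₂) Q p1.proj
      (fun i => op_cm _ _) p3 hQ hle hQd)
    (fun Q hQ hle hen => dichotomy h (by linarith) hε (by linarith) hlam hP p1 hnear hQ hle hen
      d0.le (by linarith) d7 d8 d9)
  refine ⟨P', ⟨q1, fun h0 => ?_, q3.trans ?_, q4⟩, by linarith⟩
  · rw [h0] at q2; simp at q2; linarith
  · have a1 : (2 * ε₁ + 4 * (δ / 20 + ε + δ / 20)) * (Fintype.card J * ‖P‖ ^ 2) ≤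
        (9 / 10 * δ) * (Fintype.card J * ‖P‖ ^ 2) := by gcongr; linarith
    have a2 : δ * (9 / 10 * (Fintype.card J * ‖P‖ ^ 2)) ≤ δ * ‖P'‖ ^ 2 := by gcongr
    linarith

/-- The core contradiction. -/
theorem core (L δ₄ : ℝ) (hL : 1 ≤ L) (hJ : 3 ≤ Fintype.card J) (h4 : 0 < δ₄) :
    ∃ ε₀ : ℝ, 0 < ε₀ ∧ ∀ (U : I → H →L[ℂ] H) (r : J → H →L[ℂ] H), Hyp b U r L ε₀ →
      ∀ k : ℝ, (∀ P : HS b, IsP P → P ≠ 0 → En U P ≤ δ₄ * ‖P‖ ^ 2 → ∃ Q : HS b, IsP Q ∧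
        op P * op Q = op Q ∧ ‖Q‖ ^ 2 ≤ k ∧ En U Q < 1 / (10000 * L) * ‖Q‖ ^ 2) → False := by
  obtain ⟨δ, ε₀, d0, d1, e0, e1, hstep⟩ := step (b := b) (I := I) L δ₄ hL hJ h4
  refine ⟨ε₀, e0, fun U r h k hk => ?_⟩
  have hall : ∀ n : ℕ, ∃ P : HS b, Good U δ (1 / (10000 * L)) P ∧ 2 ^ n ≤ ‖P‖ ^ 2 := by
    intro n
    induction n with
    | zero =>
      obtain ⟨P, p1, p2, p3⟩ := h.base
      refine ⟨P, ⟨p1, fun h0 => by simp [h0] at p2, by rw [p2]; linarith, fun Q q1 _ q3 => ?_⟩,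
        by simp [p2]⟩
      rcases eq_or_ne Q 0 with rfl | hQ
      · simp
      · have := q1.one_le hQ
        linarith
    | succ n ih =>
      obtain ⟨P, p1, p2⟩ := ih
      obtain ⟨P', q1, q2⟩ := hstep U r ε₀ h e0.le le_rfl P p1
      exact ⟨P', q1, by rw [pow_succ]; linarith⟩
  obtain ⟨n, hn⟩ := pow_unbounded_of_one_lt (2 * k) (one_lt_two (α := ℝ))
  obtain ⟨P, p1, p2⟩ := hall n
  obtain ⟨Q, q1, q2, q3, q4⟩ := hk P p1.isP p1.ne (p1.en.trans (by gcongr))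
  have := p1.exp Q q1 q2 (by linarith)
  linarith

end HS

end Vale.Agent.P083
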