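import Vale.Agent.P083.Dom
import Vale.Agent.P083.Step
import Vale.Agent.P083.Piece
import Vale.Agent.P083.Cuntz

/-!
The relations cannot be realised in the ultrapower of a Cuntz algebra.
-/

namespace Vale.Agent.P083

open Filter Topology
open scoped ENNReal InnerProductSpace

variable {H : Type*} [NormedAddCommGroup H] [InnerProductSpace ℂ H] [CompleteSpace H]
  {ι : Type*} {b : HilbertBasis ι ℂ H} {I J : Type} [Fintype I] [Fintype J] [DecidableEq J]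

namespace HS

lemma norm_Ad_le' (u : H →L[ℂ] H) : ‖Ad (b := b) u‖ ≤ ‖u‖ * ‖u‖ :=
  ContinuousLinearMap.opNorm_le_bound _ (by positivity) fun x => by
    have h1 := norm_lm_le u (rm (star u) x)
    have h2 := norm_rm_le (star u) x
    rw [norm_star] at h2
    calc ‖Ad u x‖ ≤ ‖u‖ * (‖u‖ * ‖x‖) := h1.trans (by gcongr)
      _ = _ := by ring

lemma norm_Ad_sub_le' (u v : H →L[ℂ] H) :
    ‖Ad (b := b) u - Ad v‖ ≤ (‖u‖ + ‖v‖) * ‖u - v‖ := by
  refine ContinuousLinearMap.opNorm_le_bound _ (by positivity) fun x => ?_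
  have e : Ad u x - Ad v x = lm (u - v) (rm (star u) x) + rm (star (u - v)) (lm v x) :=
    ext' (by simp only [map_sub, map_add, op_Ad, op_lm, op_rm, star_sub]; noncomm_ring)
  rw [sub_apply, e]
  have a1 := norm_lm_le (u - v) (rm (star u) x)
  have a2 := norm_rm_le (star (u - v)) (lm v x)
  have a3 := norm_rm_le (star u) x
  have a4 := norm_lm_le v x
  rw [norm_star] at a2 a3
  calc _ ≤ ‖u - v‖ * (‖u‖ * ‖x‖) + ‖u - v‖ * (‖v‖ * ‖x‖) :=
        (norm_add_le _ _).trans (add_le_add (a1.trans (by gcongr)) (a2.trans (by gcongr)))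
    _ = _ := by ring

variable [Nontrivial (H →L[ℂ] H)] [Nontrivial (HS b →L[ℂ] HS b)] {ω : Ultrafilter ℕ}

variable (b) in
/-- entrywise conjugation -/
noncomputable def AdL : LL (H →L[ℂ] H) →* LL (HS b →L[ℂ] HS b) where
  toFun X := ofB (fun n => Ad (ev n X)) (‖X‖ * ‖X‖) fun n =>
    (norm_Ad_le' _).trans (by gcongr <;> exact norm_ev _ _)
  map_one' := ll_ext fun n => by simp [Ad_one]
  map_mul' X Y := ll_ext fun n => by simp [Ad_mul]

@[simp] lemma ev_AdL (X : LL (H →L[ℂ] H)) (n : ℕ) : ev n (AdL b X) = Ad (ev n X) := rfl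

lemma mk_AdL {X Y : LL (H →L[ℂ] H)} (h : mk ω X = mk ω Y) :
    mk ω (AdL b X) = mk ω (AdL b Y) := by
  rw [mk_eq_iff'] at h ⊢
  refine squeeze_zero (fun n => norm_nonneg _) (fun n => ?_)
    (by simpa using h.const_mul (‖X‖ + ‖Y‖))
  exact (norm_Ad_sub_le' _ _).trans (by gcongr <;> exact norm_ev _ _)

variable (b ω) in
lemma exists_AdU : ∃ ρ : Ultrapower (H →L[ℂ] H) ω →* Ultrapower (HS b →L[ℂ] HS b) ω,
    ∀ x, ρ (mk ω x) = mk ω (AdL b x) := by
  choose s hs using mk_surj (D := H →L[ℂ] H) ω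
  have key : ∀ x, mk ω (AdL b (s (mk ω x))) = mk ω (AdL b x) := fun x => mk_AdL (hs _)
  refine ⟨{ toFun := fun a => mk ω (AdL b (s a))
            map_one' := by rw [← map_one (mk ω), key]; simp
            map_mul' := fun a c => ?_ }, key⟩
  rw [← map_mul, ← map_mul, ← key (_ * _), map_mul (mk ω), hs, hs]

variable {U : I → LL (H →L[ℂ] H)} {p : ℕ} {R : J → LL (H →L[ℂ] H)}
  {w : Ultrapower (H →L[ℂ] H) ω}

lemma spectral_gap [Nonempty I] (hp : p.Prime) (hI : Fintype.card I ^ 2 < p)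
    (hU : ∀ i n, ev n (U i) ∈ unitary (H →L[ℂ] H))
    (h : Rel p (fun i => mk ω (U i)) (fun a => mk ω (R a)) w) :
    ∃ c : ℝ, 0 < c ∧ ∀ η : ℝ, 0 < η → ∀ᶠ n in (ω : Filter ℕ), ∀ v : HS b,
      c * qf (Lap fun γ : I × Fin p => Ad (b := b) (ev n (U γ.1) ^ γ.2.val)) v - η * ‖v‖ ^ 2 ≤
        ‖(Lap fun γ : I × Fin p => Ad (b := b) (ev n (U γ.1) ^ γ.2.val)) v‖ ^ 2 := by
  obtain ⟨c, hc, hsos⟩ := heis_sos (R := Ultrapower (HS b →L[ℂ] HS b) ω) hp hI
  obtain ⟨ρ, hρ⟩ := exists_AdU b ω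
  have h1 := hsos (fun i => mk ω (AdL b (U i))) (fun i => by
      constructor
      · rw [← map_star, ← map_mul, ← map_one (mk ω)]
        congr 1
        refine ll_ext fun n => ?_
        rw [map_mul, map_star, ev_AdL, star_Ad (hU i n), ← Ad_mul, (hU i n).1, Ad_one, map_one]
      · rw [← map_star, ← map_mul, ← map_one (mk ω)]
        congr 1
        refine ll_ext fun n => ?_
        rw [map_mul, map_star, ev_AdL, star_Ad (hU i n), ← Ad_mul, (hU i n).2, Ad_one, map_one])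
    (fun i => by rw [← hρ, ← map_pow, h.pow i, map_one])
    (fun i j => by
      have := HeisP.map ρ (show HeisP (mk ω (U i)) (mk ω (U j)) from h.heis i j)
      rwa [hρ, hρ] at this)
  refine ⟨c, hc, fun η hη => ?_⟩
  set Λ : LL (HS b →L[ℂ] HS b) := Lap fun γ : I × Fin p => AdL b (U γ.1) ^ γ.2.val with hΛ
  have h2 : mk ω (Λ * Λ - (c : ℂ) • Λ) ∈ SOS (Ultrapower (HS b →L[ℂ] HS b) ω) := by
    simpa only [map_sub, map_mul, map_smul, hΛ, map_Lap, map_pow] using h1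
  filter_upwards [sos_transfer h2 hη] with n hn v
  have e : ev n Λ = Lap fun γ : I × Fin p => Ad (b := b) (ev n (U γ.1) ^ γ.2.val) := by
    simp only [hΛ, map_Lap, map_pow, ev_AdL, Ad_pow]
  have h3 := hn v
  rw [map_sub, map_mul, map_smul, e] at h3
  set T := Lap fun γ : I × Fin p => Ad (b := b) (ev n (U γ.1) ^ γ.2.val) with hT
  have hs : star T = T := star_Lap _
  have e2 : qf (T * T - (c : ℂ) • T) v = ‖T v‖ ^ 2 - c * qf T v := by
    have : ⟪v, T (T v)⟫_ℂ = ⟪T v, T v⟫_ℂ := by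
      conv_lhs => rw [← hs, ContinuousLinearMap.star_eq_adjoint,
        ContinuousLinearMap.adjoint_inner_right, ← ContinuousLinearMap.star_eq_adjoint, hs]
    simp only [qf, sub_apply, mul_apply_eq_comp, smul_apply, inner_sub_right, inner_smul_right,
      this, Complex.sub_re, Complex.re_ofReal_mul, inner_self_eq_norm_sq_to_K]
    norm_cast
  linarith

lemma hyp_gap [Nonempty I] (hp : p.Prime) (hI : Fintype.card I ^ 2 < p)
    (hU : ∀ i n, ev n (U i) ∈ unitary (H →L[ℂ] H))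
    (h : Rel p (fun i => mk ω (U i)) (fun a => mk ω (R a)) w) :
    ∃ L : ℝ, 0 ≤ L ∧ ∀ ε : ℝ, 0 < ε → ∀ᶠ n in (ω : Filter ℕ),
      ∀ x : HS b, FR x → star (op x) = op x → ‖op x‖ ≤ 1 → ∃ x' : HS b, FR x' ∧
        star (op x') = op x' ∧ ‖op x'‖ ≤ 1 ∧ ‖x'‖ ≤ ‖x‖ ∧
          En (fun i => ev n (U i)) x' ≤ ε * ‖x‖ ^ 2 ∧
          ‖x - x'‖ ^ 2 ≤ L * En (fun i => ev n (U i)) x + ε * ‖x‖ ^ 2 := by
  have : NeZero p := ⟨hp.ne_zero⟩
  obtain ⟨c, hc, h1⟩ := spectral_gap (b := b) hp hI hU h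
  obtain ⟨L, hL, h2⟩ := gap_correct (b := b) (Γ := I × Fin p) c hc
  obtain ⟨C, hC, h3⟩ : Dom (b := b) ω (fun n i => ev n (U i))
      fun n x => En (fun γ : I × Fin p => ev n (U γ.1) ^ γ.2.val) x := by
    refine Dom.sum _ fun γ _ => ?_
    have := actrl (b := b) (ω := ω) hU (Y := U γ.1 ^ γ.2.val) (by
      rw [map_pow]; exact pow_mem (StarAlgebra.subset_adjoin _ _ (Set.mem_range_self γ.1)) _)
    simp only [map_pow] at this
    exact this
  refine ⟨L * C, by positivity, fun ε hε => ?_⟩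
  obtain ⟨η, hη, h4⟩ := h2 (ε / 2) (by positivity)
  filter_upwards [h1 η hη, h3 (ε / (2 * (L + 1))) (by positivity)] with n h5 h6 x x1 x2 x3
  obtain ⟨x', y1, y2, y3, y4, y5, y6⟩ := h4 _ (fun γ => pow_mem (hU γ.1 n) _) h5 x x1 x2 x3
  have hx : 0 ≤ ε / 2 * ‖x‖ ^ 2 := by positivity
  refine ⟨x', y1, y2, y3, y4, le_trans ?_ (y5.trans (by linarith)), y6.trans ?_⟩
  · rw [En, En, Fintype.sum_prod_type]
    refine Finset.sum_le_sum fun i _ => ?_
    have := Finset.single_le_sum (f := fun k : Fin p => ‖cm (ev n (U i) ^ k.val) x'‖ ^ 2)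
      (fun _ _ => by positivity) (Finset.mem_univ ⟨1, hp.one_lt⟩)
    simpa using this
  · have a1 : L * (ε / (2 * (L + 1))) ≤ ε / 2 := by
      rw [mul_div_assoc', div_le_div_iff₀ (by positivity) (by positivity)]; nlinarith
    have a2 : L * (ε / (2 * (L + 1))) * ‖x‖ ^ 2 ≤ ε / 2 * ‖x‖ ^ 2 := by gcongr
    have a3 := mul_le_mul_of_nonneg_left (h6 x) hL
    nlinarith

omit [Nontrivial (HS b →L[ℂ] HS b)] in
lemma hyp_base [Nontrivial H] (h : Rel p (fun i => mk ω (U i)) (fun a => mk ω (R a)) w)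
    {ε : ℝ} (hε : 0 < ε) : ∀ᶠ n in (ω : Filter ℕ),
      ∃ P : HS b, IsP P ∧ ‖P‖ ^ 2 = 1 ∧ En (fun i => ev n (U i)) P ≤ ε := by
  obtain ⟨W, h1, h2⟩ := lift_iso (J := Unit) (r := fun _ => w) fun _ _ => by simpa using h.w_iso
  obtain ⟨ζ, hζ⟩ := exists_norm_eq H zero_le_one
  set P₀ : HS b := ro ζ ζ with hP₀
  have p1 : IsP P₀ := ⟨FR.ro _ _, by
    rw [hP₀, op_ro]; exact InnerProductSpace.isStarProjection_rankOne_self hζ⟩
  have p2 : ‖P₀‖ = 1 := by rw [hP₀, norm_ro, hζ, one_mul]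
  have t1 : ∀ i, Tendsto (fun n => ‖ev n (U i * W ()) - ev n (W ())‖) (ω : Filter ℕ) (𝓝 0) :=
    fun i => mk_eq_iff'.1 (by rw [map_mul, h1, h.w_inv i])
  have t2 : ∀ i, Tendsto (fun n => ‖ev n (star (W ())) - ev n (star (W ()) * U i)‖)
      (ω : Filter ℕ) (𝓝 0) := fun i => mk_eq_iff'.1 (by
    rw [map_mul, map_star, h1]
    conv_rhs => rw [← h.w_inv i, star_mul, mul_assoc, (h.unit i).1, mul_one])
  have t3 : Tendsto (fun n => ∑ i, (‖ev n (U i * W ()) - ev n (W ())‖ +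
      ‖ev n (star (W ())) - ev n (star (W ()) * U i)‖) ^ 2) (ω : Filter ℕ) (𝓝 0) := by
    simpa using tendsto_finsetSum Finset.univ fun i _ => ((t1 i).add (t2 i)).pow 2
  filter_upwards [h2, t3.eventually_lt_const hε] with n hn hn'
  refine ⟨bK (fun a => ev n (W a)) P₀, p1.bK hn, by simp [norm_bK hn, p2],
    le_trans (Finset.sum_le_sum fun i _ => ?_) hn'.le⟩
  have n1 := hn.norm_le ()
  have e : cm (ev n (U i)) (bK (fun a => ev n (W a)) P₀) =
      lm (ev n (U i * W ()) - ev n (W ())) (rm (star (ev n (W ()))) P₀) +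
        rm (ev n (star (W ())) - ev n (star (W ()) * U i)) (lm (ev n (W ())) P₀) := ext' (by
    simp only [op_cm, op_bK, bB, map_add, op_lm, op_rm, map_mul, map_star, Fintype.sum_unique]
    noncomm_ring)
  rw [e]
  gcongr
  have a1 := norm_lm_le (ev n (U i * W ()) - ev n (W ())) (rm (star (ev n (W ()))) P₀)
  have a2 := norm_rm_le (ev n (star (W ())) - ev n (star (W ()) * U i)) (lm (ev n (W ())) P₀)
  have a3 := norm_rm_le_of_le_one (a := star (ev n (W ()))) (by rwa [norm_star]) P₀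
  have a4 := norm_lm_le_of_le_one n1 P₀
  rw [p2] at a3 a4
  exact (norm_add_le _ _).trans (add_le_add (a1.trans (mul_le_of_le_one_right (norm_nonneg _) a3))
    (a2.trans (mul_le_of_le_one_right (norm_nonneg _) a4)))

end HS

theorem no_rel [Nontrivial H] [Nonempty I] {ω : Ultrafilter ℕ} (S₁ S₂ : H →L[ℂ] H)
    (h₁ : star S₁ * S₁ = 1) (h₂ : star S₂ * S₂ = 1) (hs : S₁ * star S₁ + S₂ * star S₂ = 1)
    {p : ℕ} (hp : p.Prime) (hI : Fintype.card I ^ 2 < p) (hJ : 3 ≤ Fintype.card J)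
    {u : I → Ultrapower (H →L[ℂ] H) ω} {r : J → Ultrapower (H →L[ℂ] H) ω}
    {w : Ultrapower (H →L[ℂ] H) ω} (h : Rel p u r w)
    (hu : ∀ i, ∃ x : LL (H →L[ℂ] H), mk ω x = u i ∧ ∀ n, ev n x ∈
      closure (StarAlgebra.adjoin ℂ ({S₁, S₂} : Set (H →L[ℂ] H)) : Set (H →L[ℂ] H))) : False := by
  obtain ⟨s, b, -⟩ := exists_hilbertBasis ℂ H
  have : Nontrivial (HS b) := by
    obtain ⟨ζ, hζ⟩ := exists_norm_eq H zero_le_one
    refine ⟨HS.ro ζ ζ, 0, fun h0 => ?_⟩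
    have := HS.norm_ro (b := b) ζ ζ
    rw [h0, hζ] at this
    simp at this
  have : Nonempty J := Fintype.card_pos_iff.1 (by omega)
  choose U hU1 hU2 using fun i => lift_unitary (h.unit i)
  obtain ⟨R, hR1, hR2⟩ := lift_iso h.iso
  obtain rfl : u = fun i => mk ω (U i) := funext fun i => (hU1 i).symm
  obtain rfl : r = fun a => mk ω (R a) := funext fun a => (hR1 a).symm
  obtain ⟨L₁, l1, g1⟩ := HS.hyp_gap (b := b) hp hI hU2 h
  obtain ⟨L₂, l2, g2⟩ := HS.dom_up (b := b) hU2 hR2 h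
  obtain ⟨L₃, l3, g3⟩ := HS.dom_par (b := b) hU2 hR2 h
  obtain ⟨L₄, l4, g4⟩ := HS.dom_down (b := b) hU2 hR2 h
  set L := 1 + L₁ + L₂ + L₃ + L₄ with hL
  have hL1 : 1 ≤ L := by linarith
  obtain ⟨δ, hδ, hsp⟩ := HS.small_piece (b := b) (I := I) (1 / (10000 * L)) (by positivity)
  obtain ⟨ε, hε, hcore⟩ := HS.core (b := b) (I := I) L δ hL1 hJ hδ
  choose x hx1 hx2 using hu
  have hsd : 0 < √δ / 4 := by positivity
  have g5 : ∀ᶠ n in (ω : Filter ℕ), ∀ i, ‖ev n (U i) - ev n (x i)‖ < √δ / 4 :=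
    eventually_all.2 fun i => (mk_eq_iff'.1 (hx1 i).symm).eventually_lt_const hsd
  obtain ⟨n, ⟨⟨⟨⟨⟨k1, k2⟩, k3⟩, k4⟩, k5⟩, k6⟩, k7⟩ := (((((((g1 ε hε).and (g2 ε hε)).and
    (g3 ε hε)).and (g4 ε hε)).and g5).and hR2).and (HS.hyp_base (b := b) h hε)).exists
  have hn : ∀ i, ‖ev n (U i)‖ ≤ 1 := fun i => HS.norm_le_of_unitary (hU2 i n)
  have mono : ∀ {L' t : ℝ} {y : HS b}, L' ≤ L → t ≤ L' * HS.En (fun i => ev n (U i)) y + ε * ‖y‖ ^ 2 →
      t ≤ L * HS.En (fun i => ev n (U i)) y + ε * ‖y‖ ^ 2 := fun {L' t y} h1 h2 =>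
    h2.trans (by gcongr; exact HS.En_nonneg _ _)
  have hyp : HS.Hyp b (fun i => ev n (U i)) (fun a => ev n (R a)) L ε :=
    ⟨hn, k6, fun y y1 y2 y3 => by
      obtain ⟨y', z1, z2, z3, z4, z5, z6⟩ := k1 y y1 y2 y3
      exact ⟨y', z1, z2, z3, z4, z5, mono (by linarith) z6⟩,
      fun y => mono (by linarith) (k2 y), fun y => mono (by linarith) (k3 y),
      fun y => mono (by linarith) (k4 y), k7⟩
  have hap : AP (fun i => ev n (U i)) δ := by
    refine ap_of_cuntz S₁ S₂ h₁ h₂ hs _ (√δ / 2) δ ?_ fun i => ?_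
    · rw [div_pow, Real.sq_sqrt hδ.le]; linarith
    · obtain ⟨y, hy, hy'⟩ := Metric.mem_closure_iff.1 (hx2 i n) _ hsd
      refine ⟨y, hy, ?_⟩
      rw [dist_eq_norm] at hy'
      have := norm_sub_le_norm_sub_add_norm_sub (ev n (U i)) (ev n (x i)) y
      linarith [k5 i]
  obtain ⟨k, hk⟩ := hsp _ hn hap
  exact hcore _ _ hyp k hk

universe u

theorem no_hom {A : Type*} [Ring A] [Algebra ℂ A] [StarRing A] [StarModule ℂ A] [Nonempty I]
    {p : ℕ} (hp : p.Prime) (hI : Fintype.card I ^ 2 < p) (hJ : 3 ≤ Fintype.card J)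
    {u : I → A} {r : J → A} {w : A} (h : Rel p u r w) (B : Type u) [CStarAlgebra B] [Nontrivial B]
    (s₁ s₂ : B) (hB : IsCuntzTwo B s₁ s₂) (ω : Ultrafilter ℕ) :
    IsEmpty (A →⋆ₐ[ℂ] Ultrapower B ω) := by
  refine ⟨fun φ => ?_⟩
  obtain ⟨H, _, _, _, _, ⟨π⟩⟩ := exists_rep B
  obtain ⟨ρ, hρ⟩ := exists_umap (ω := ω) π
  obtain ⟨b1, b2, b3, b4⟩ := hB
  refine no_rel (π s₁) (π s₂) (by rw [← map_star, ← map_mul, b1, map_one])
    (by rw [← map_star, ← map_mul, b2, map_one])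
    (by rw [← map_star, ← map_star, ← map_mul, ← map_mul, ← map_add, b3, map_one]) hp hI hJ
    ((h.map φ).map ρ) fun i => ?_
  obtain ⟨y, hy⟩ := mk_surj ω (φ (u i))
  refine ⟨lmap π y, by rw [← hρ, hy], fun n => ?_⟩
  have h1 : ev n y ∈ closure (StarAlgebra.adjoin ℂ ({s₁, s₂} : Set B) : Set B) := by
    rw [← StarSubalgebra.topologicalClosure_coe, b4]; trivial
  have hc : Continuous π := (AddMonoidHomClass.continuous_of_bound π 1 fun x => by
    rw [one_mul]; exact NonUnitalStarAlgHom.norm_apply_le π x)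
  refine closure_mono ?_ (image_closure_subset_closure_image hc ⟨_, h1, rfl⟩)
  rw [← Set.image_pair, ← StarAlgHom.map_adjoin]
  rfl

end Vale.Agent.P083
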