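import Mathlib

/-!
Hilbert-Schmidt operators on a Hilbert space, as a Hilbert bimodule over the bounded operators.
-/

namespace Vale.Agent.P083

open scoped InnerProductSpace ENNReal
open ContinuousLinearMap

variable {H : Type*} [NormedAddCommGroup H] [InnerProductSpace ℂ H] [CompleteSpace H]
  {ι : Type*}

/-- Square summable families indexed by a Hilbert basis: the columns of an operator. -/
def HS (_b : HilbertBasis ι ℂ H) : Type _ := lp (fun _ : ι => H) 2

variable {b : HilbertBasis ι ℂ H}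

namespace HS

noncomputable instance : NormedAddCommGroup (HS b) :=
  inferInstanceAs (NormedAddCommGroup (lp (fun _ : ι => H) 2))

noncomputable instance : InnerProductSpace ℂ (HS b) :=
  inferInstanceAs (InnerProductSpace ℂ (lp (fun _ : ι => H) 2))

instance : CompleteSpace (HS b) := inferInstanceAs (CompleteSpace (lp (fun _ : ι => H) 2))

/-- The underlying family. -/
def col (x : HS b) : lp (fun _ : ι => H) 2 := x

omit [CompleteSpace H] in
lemma hasSum_col (x : HS b) : HasSum (fun i => ‖x.col i‖ ^ 2) (‖x‖ ^ 2) := by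
  have := lp.hasSum_norm (p := 2) (by norm_num) x.col
  have h : ‖x.col‖ = ‖x‖ := rfl
  simpa [h] using this

/-- Build an element from a family with bounded partial sums. -/
def ofFun (f : ι → H) (C : ℝ) (hf : ∀ s : Finset ι, ∑ i ∈ s, ‖f i‖ ^ 2 ≤ C) : HS b :=
  (⟨f, memℓp_gen' (C := C) (by simpa using hf)⟩ : lp (fun _ : ι => H) 2)

omit [CompleteSpace H] in
lemma norm_ofFun_le (f : ι → H) (C : ℝ) (hf : ∀ s : Finset ι, ∑ i ∈ s, ‖f i‖ ^ 2 ≤ C) :
    ‖(ofFun f C hf : HS b)‖ ^ 2 ≤ C :=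
  hasSum_le_of_sum_le (hasSum_col _) hf

omit [CompleteSpace H] in
lemma sum_col_le (x : HS b) (s : Finset ι) : ∑ i ∈ s, ‖x.col i‖ ^ 2 ≤ ‖x‖ ^ 2 :=
  sum_le_hasSum s (fun _ _ => by positivity) (hasSum_col x)

/-- coefficients of the adjoint operator -/
noncomputable def coef (x : HS b) (ζ : H) : lp (fun _ : ι => ℂ) 2 :=
  ⟨fun i => ⟪x.col i, ζ⟫_ℂ, memℓp_gen' (C := ‖x‖ ^ 2 * ‖ζ‖ ^ 2) (by
    intro s
    simp only [ENNReal.toReal_ofNat, Real.rpow_ofNat]
    calc ∑ i ∈ s, ‖⟪x.col i, ζ⟫_ℂ‖ ^ 2 ≤ ∑ i ∈ s, ‖x.col i‖ ^ 2 * ‖ζ‖ ^ 2 := by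
          refine Finset.sum_le_sum fun i _ => ?_
          rw [← mul_pow]
          gcongr
          exact norm_inner_le_norm _ _
      _ ≤ _ := by
          rw [← Finset.sum_mul]
          gcongr
          exact sum_col_le x s)⟩

omit [CompleteSpace H] in
lemma coef_apply (x : HS b) (ζ : H) (i : ι) : x.coef ζ i = ⟪x.col i, ζ⟫_ℂ := rfl

omit [CompleteSpace H] in
lemma hasSum_coef (x : HS b) (ζ : H) :
    HasSum (fun i => ‖⟪x.col i, ζ⟫_ℂ‖ ^ 2) (‖x.coef ζ‖ ^ 2) := by
  have := lp.hasSum_norm (p := 2) (by norm_num) (x.coef ζ)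
  simpa [coef_apply] using this

omit [CompleteSpace H] in
lemma norm_coef_le (x : HS b) (ζ : H) : ‖x.coef ζ‖ ≤ ‖x‖ * ‖ζ‖ := by
  have h := hasSum_le (g := fun i => ‖x.col i‖ ^ 2 * ‖ζ‖ ^ 2) (fun i => by
    rw [← mul_pow]
    gcongr
    exact norm_inner_le_norm _ _) (hasSum_coef x ζ) ((hasSum_col x).mul_right _)
  rw [← mul_pow] at h
  exact (pow_le_pow_iff_left₀ (by positivity) (by positivity) two_ne_zero).1 h

/-- the adjoint of the operator with the given columns -/
noncomputable def opStar (x : HS b) : H →L[ℂ] H :=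
  LinearMap.mkContinuous
    { toFun := fun ζ => b.repr.symm (x.coef ζ)
      map_add' := fun ζ ζ' => by
        rw [← map_add]; congr 1; ext i; simp [coef_apply]
      map_smul' := fun c ζ => by
        rw [RingHom.id_apply, ← map_smul]; congr 1; ext i; simp [coef_apply] }
    ‖x‖ (fun ζ => by simpa using norm_coef_le x ζ)

omit [CompleteSpace H] in
lemma opStar_apply (x : HS b) (ζ : H) : x.opStar ζ = b.repr.symm (x.coef ζ) := rfl

omit [CompleteSpace H] in
lemma norm_opStar_le (x : HS b) : ‖x.opStar‖ ≤ ‖x‖ :=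
  LinearMap.mkContinuous_norm_le _ (norm_nonneg _) _

omit [CompleteSpace H] in
lemma inner_opStar (x : HS b) (ζ : H) (i : ι) : ⟪b i, x.opStar ζ⟫_ℂ = ⟪x.col i, ζ⟫_ℂ := by
  rw [← b.repr_apply_apply, opStar_apply]; simp [coef_apply]

omit [CompleteSpace H] in
lemma sum_opStar_le (x : HS b) {κ : Type*} {e : κ → H} (he : Orthonormal ℂ e) (s : Finset κ) :
    ∑ j ∈ s, ‖x.opStar (e j)‖ ^ 2 ≤ ‖x‖ ^ 2 := by
  have h1 : HasSum (fun i => ∑ j ∈ s, ‖⟪x.col i, e j⟫_ℂ‖ ^ 2)
      (∑ j ∈ s, ‖x.opStar (e j)‖ ^ 2) := by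
    refine hasSum_sum fun j _ => ?_
    simpa [opStar_apply] using hasSum_coef x (e j)
  refine hasSum_le (fun i => ?_) h1 (hasSum_col x)
  have := he.sum_inner_products_le (x.col i) (s := s)
  simpa [norm_inner_symm] using this

omit [CompleteSpace H] in
lemma clm_ext {T S : H →L[ℂ] H} (h : ∀ i, T (b i) = S (b i)) : T = S := by
  refine ContinuousLinearMap.ext_on (s := Set.range b) ?_ ?_
  · rw [Submodule.dense_iff_topologicalClosure_eq_top]
    exact b.dense_span
  · rintro _ ⟨i, rfl⟩; exact h i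

lemma adjoint_opStar_basis (x : HS b) (i : ι) : adjoint x.opStar (b i) = x.col i := by
  refine ext_inner_right ℂ fun ζ => ?_
  rw [adjoint_inner_left, inner_opStar]

/-- The operator with the given columns. -/
noncomputable def op : HS b →ₗ[ℂ] (H →L[ℂ] H) where
  toFun x := adjoint x.opStar
  map_add' x y := clm_ext (b := b) fun i => by
    simp only [add_apply, adjoint_opStar_basis]; rfl
  map_smul' c x := clm_ext (b := b) fun i => by
    simp only [RingHom.id_apply, smul_apply, adjoint_opStar_basis]; rfl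

lemma op_basis (x : HS b) (i : ι) : op x (b i) = x.col i := adjoint_opStar_basis x i

lemma star_op (x : HS b) : star (op x) = x.opStar := by
  change adjoint (adjoint x.opStar) = _
  simp

lemma op_injective : Function.Injective (op (b := b)) := fun x y h => by
  have : x.col = y.col := lp.ext (funext fun i => by rw [← op_basis, ← op_basis, h])
  exact this

lemma ext' {x y : HS b} (h : op x = op y) : x = y := op_injective h

lemma norm_op_le (x : HS b) : ‖op x‖ ≤ ‖x‖ := by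
  rw [← norm_star, star_op]; exact norm_opStar_le x

lemma hasSum_op (x : HS b) : HasSum (fun i => ‖op x (b i)‖ ^ 2) (‖x‖ ^ 2) := by
  simpa [op_basis] using hasSum_col x

/-- The adjoint. -/
noncomputable def adj (x : HS b) : HS b :=
  ofFun (fun i => x.opStar (b i)) (‖x‖ ^ 2) (fun s => sum_opStar_le x b.orthonormal s)

@[simp] lemma op_adj (x : HS b) : op (adj x) = star (op x) :=
  clm_ext (b := b) fun i => by rw [op_basis, star_op]; rfl

@[simp] lemma adj_adj (x : HS b) : adj (adj x) = x := ext' (by simp)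

omit [CompleteSpace H] in
lemma norm_adj_le (x : HS b) : ‖adj x‖ ≤ ‖x‖ :=
  (pow_le_pow_iff_left₀ (by positivity) (by positivity) two_ne_zero).1 (norm_ofFun_le _ _ _)

@[simp] lemma norm_adj (x : HS b) : ‖adj x‖ = ‖x‖ :=
  le_antisymm (norm_adj_le x) (by simpa using norm_adj_le (adj x))

lemma bessel (x : HS b) {κ : Type*} {e : κ → H} (he : Orthonormal ℂ e) (s : Finset κ) :
    ∑ j ∈ s, ‖op x (e j)‖ ^ 2 ≤ ‖x‖ ^ 2 := by
  have := sum_opStar_le (adj x) he s
  rwa [← star_op, op_adj, star_star, norm_adj] at this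

/-- left multiplication, unbundled -/
noncomputable def lm0 (a : H →L[ℂ] H) (x : HS b) : HS b :=
  ofFun (fun i => a (x.col i)) (‖a‖ ^ 2 * ‖x‖ ^ 2) (fun s => by
    calc ∑ i ∈ s, ‖a (x.col i)‖ ^ 2 ≤ ∑ i ∈ s, ‖a‖ ^ 2 * ‖x.col i‖ ^ 2 := by
          refine Finset.sum_le_sum fun i _ => ?_
          rw [← mul_pow]
          gcongr
          exact a.le_opNorm _
      _ ≤ _ := by
          rw [← Finset.mul_sum]
          gcongr
          exact sum_col_le x s)

lemma op_lm0 (a : H →L[ℂ] H) (x : HS b) : op (lm0 a x) = a * op x :=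
  clm_ext (b := b) fun i => by rw [op_basis, mul_def, comp_apply, op_basis]; rfl

omit [CompleteSpace H] in
lemma norm_lm0_le (a : H →L[ℂ] H) (x : HS b) : ‖lm0 a x‖ ≤ ‖a‖ * ‖x‖ := by
  refine (pow_le_pow_iff_left₀ (by positivity) (by positivity) two_ne_zero).1 ?_
  rw [mul_pow]; exact norm_ofFun_le _ _ _

/-- Left multiplication by a bounded operator. -/
noncomputable def lm (a : H →L[ℂ] H) : HS b →L[ℂ] HS b :=
  LinearMap.mkContinuous
    { toFun := lm0 a
      map_add' := fun x y => ext' (by simp [op_lm0, mul_add])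
      map_smul' := fun c x => ext' (by simp [op_lm0]) }
    ‖a‖ (norm_lm0_le a)

@[simp] lemma op_lm (a : H →L[ℂ] H) (x : HS b) : op (lm a x) = a * op x := op_lm0 a x

lemma norm_lm_le (a : H →L[ℂ] H) (x : HS b) : ‖lm a x‖ ≤ ‖a‖ * ‖x‖ := norm_lm0_le a x

/-- Right multiplication by a bounded operator. -/
noncomputable def rm (a : H →L[ℂ] H) : HS b →L[ℂ] HS b :=
  LinearMap.mkContinuous
    { toFun := fun x => adj (lm (star a) (adj x))
      map_add' := fun x y => ext' (by simp [add_mul])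
      map_smul' := fun c x => ext' (by simp) }
    ‖a‖ (fun x => by simpa using norm_lm_le (star a) (adj x))

@[simp] lemma op_rm (a : H →L[ℂ] H) (x : HS b) : op (rm a x) = op x * a := by
  change op (adj (lm (star a) (adj x))) = _
  simp

lemma norm_rm_le (a : H →L[ℂ] H) (x : HS b) : ‖rm a x‖ ≤ ‖a‖ * ‖x‖ := by
  change ‖adj (lm (star a) (adj x))‖ ≤ _
  simpa using norm_lm_le (star a) (adj x)

lemma norm_lm_le_of_le_one {a : H →L[ℂ] H} (ha : ‖a‖ ≤ 1) (x : HS b) : ‖lm a x‖ ≤ ‖x‖ :=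
  (norm_lm_le a x).trans (by nlinarith [norm_nonneg x])

lemma norm_rm_le_of_le_one {a : H →L[ℂ] H} (ha : ‖a‖ ≤ 1) (x : HS b) : ‖rm a x‖ ≤ ‖x‖ :=
  (norm_rm_le a x).trans (by nlinarith [norm_nonneg x])

/-- norm comparison through a factorisation on the left -/
lemma norm_le_of_op_eq_mul {x y : HS b} {a : H →L[ℂ] H} (h : op y = a * op x) :
    ‖y‖ ≤ ‖a‖ * ‖x‖ := by
  have : y = lm a x := ext' (by simp [h])
  rw [this]; exact norm_lm_le a x

lemma norm_le_of_op_eq_mul' {x y : HS b} {a : H →L[ℂ] H} (h : op y = op x * a) :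
    ‖y‖ ≤ ‖a‖ * ‖x‖ := by
  have : y = rm a x := ext' (by simp [h])
  rw [this]; exact norm_rm_le a x

lemma norm_le_of_op_eq_mul₂ {x y : HS b} {a c : H →L[ℂ] H} (ha : ‖a‖ ≤ 1) (hc : ‖c‖ ≤ 1)
    (h : op y = a * op x * c) : ‖y‖ ≤ ‖x‖ := by
  have : y = rm c (lm a x) := ext' (by simp [h])
  rw [this]; exact (norm_rm_le_of_le_one hc _).trans (norm_lm_le_of_le_one ha _)

lemma inner_eq_zero_of_star_mul {x y : HS b} (h : star (op x) * op y = 0) : ⟪x, y⟫_ℂ = 0 := by
  have h1 : HasSum (fun i => ⟪x.col i, y.col i⟫_ℂ) ⟪x, y⟫_ℂ := lp.hasSum_inner x.col y.col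
  have h2 : (fun i => ⟪x.col i, y.col i⟫_ℂ) = fun _ => 0 := by
    funext i
    rw [← op_basis, ← op_basis, ← adjoint_inner_right, ← star_eq_adjoint, ← comp_apply, ← mul_def, h]
    simp
  rw [h2] at h1
  exact h1.unique hasSum_zero

lemma pyth_left {x y : HS b} (h : star (op x) * op y = 0) :
    ‖x + y‖ ^ 2 = ‖x‖ ^ 2 + ‖y‖ ^ 2 := by
  have := norm_add_sq_eq_norm_sq_add_norm_sq_of_inner_eq_zero x y (inner_eq_zero_of_star_mul h)
  simpa [sq] using this

lemma pyth_right {x y : HS b} (h : op x * star (op y) = 0) :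
    ‖x + y‖ ^ 2 = ‖x‖ ^ 2 + ‖y‖ ^ 2 := by
  have h1 : adj (x + y) = adj x + adj y := ext' (by simp)
  rw [← norm_adj, h1, pyth_left (by simpa using h)]
  simp

lemma pyth_sum_left {κ : Type*} (s : Finset κ) (x : κ → HS b)
    (h : ∀ i ∈ s, ∀ j ∈ s, i ≠ j → star (op (x i)) * op (x j) = 0) :
    ‖∑ i ∈ s, x i‖ ^ 2 = ∑ i ∈ s, ‖x i‖ ^ 2 := by
  classical
  induction s using Finset.induction_on with
  | empty => simp
  | insert a s ha ih =>
    rw [Finset.sum_insert ha, Finset.sum_insert ha, pyth_left, ih]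
    · intro i hi j hj hij
      exact h i (Finset.mem_insert_of_mem hi) j (Finset.mem_insert_of_mem hj) hij
    · rw [map_sum, Finset.mul_sum]
      refine Finset.sum_eq_zero fun j hj => h a (Finset.mem_insert_self _ _) j
        (Finset.mem_insert_of_mem hj) (fun e => ha (e ▸ hj))

lemma adj_sum {κ : Type*} (s : Finset κ) (x : κ → HS b) :
    adj (∑ i ∈ s, x i) = ∑ i ∈ s, adj (x i) := ext' (by simp [star_sum])

lemma pyth_sum_right {κ : Type*} (s : Finset κ) (x : κ → HS b)
    (h : ∀ i ∈ s, ∀ j ∈ s, i ≠ j → op (x i) * star (op (x j)) = 0) :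
    ‖∑ i ∈ s, x i‖ ^ 2 = ∑ i ∈ s, ‖x i‖ ^ 2 := by
  rw [← norm_adj, adj_sum, pyth_sum_left]
  · simp
  · simpa using h

/-- Rank one elements. -/
noncomputable def ro (η ζ : H) : HS b :=
  ofFun (fun i => ⟪ζ, b i⟫_ℂ • η) (‖ζ‖ ^ 2 * ‖η‖ ^ 2) (fun s => by
    simp only [norm_smul, mul_pow]
    rw [← Finset.sum_mul]
    gcongr
    have := b.orthonormal.sum_inner_products_le ζ (s := s)
    simpa [norm_inner_symm] using this)

@[simp] lemma op_ro (η ζ : H) : op (ro (b := b) η ζ) = InnerProductSpace.rankOne ℂ η ζ :=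
  clm_ext (b := b) fun i => by rw [op_basis]; rfl

lemma norm_ro (η ζ : H) : ‖ro (b := b) η ζ‖ = ‖η‖ * ‖ζ‖ := by
  refine le_antisymm ?_ ?_
  · refine (pow_le_pow_iff_left₀ (by positivity) (by positivity) two_ne_zero).1 ?_
    rw [mul_pow, mul_comm]; exact norm_ofFun_le _ _ _
  · simpa using norm_op_le (ro (b := b) η ζ)

/-- Parseval identity for an element supported on the span of a finite orthonormal family. -/
lemma parseval (x : HS b) {κ : Type*} [Fintype κ] {e : κ → H} (he : Orthonormal ℂ e)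
    (hx : op x * ∑ j, InnerProductSpace.rankOne ℂ (e j) (e j) = op x) :
    ‖x‖ ^ 2 = ∑ j, ‖op x (e j)‖ ^ 2 := by
  classical
  have h1 : x = ∑ j, ro (op x (e j)) (e j) := by
    refine ext' ?_
    conv_lhs => rw [← hx]
    simp only [map_sum, op_ro, Finset.mul_sum]
    refine Finset.sum_congr rfl fun j _ => ?_
    ext ζ; simp
  conv_lhs => rw [h1]
  rw [pyth_sum_right]
  · refine Finset.sum_congr rfl fun j _ => ?_
    rw [norm_ro, he.1 j, mul_one]
  · intro i _ j _ hij
    ext ζ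
    simp [star_eq_adjoint, he.2 hij]

end HS

end Vale.Agent.P083
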