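import Mathlib

/-!
A layer cake lemma for finite families of real numbers.
-/

namespace Vale.Agent.P083

open MeasureTheory Set

/-- indicator of `τ < z` -/
noncomputable def ind (τ z : ℝ) : ℝ := if τ < z then 1 else 0

/-- length of the set of `τ` in the interval with `τ < z` -/
noncomputable def lev (lo hi z : ℝ) : ℝ := max (min hi z - lo) 0

lemma ind_eq_indicator (z : ℝ) : (fun τ => ind τ z) = (Iio z).indicator 1 := by
  funext τ; simp [ind, indicator]

lemma integrableOn_ind (lo hi z : ℝ) : IntegrableOn (fun τ => ind τ z) (Ioo lo hi) := by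
  rw [ind_eq_indicator]
  refine Integrable.indicator ?_ measurableSet_Iio
  exact integrableOn_const (by simp)

lemma integral_ind (lo hi z : ℝ) : ∫ τ in Ioo lo hi, ind τ z = lev lo hi z := by
  rw [ind_eq_indicator, integral_indicator_one measurableSet_Iio, measureReal_restrict_apply
    measurableSet_Iio, inter_comm, Ioo_inter_Iio, Real.volume_real_Ioo, lev]

lemma ind_sub_sq (τ a a' : ℝ) :
    (ind τ a - ind τ a') ^ 2 = ind τ (max a a') - ind τ (min a a') := by
  unfold ind
  by_cases h : τ < a <;> by_cases h' : τ < a' <;> simp [h, h']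

lemma lev_mono (lo hi : ℝ) {a a' : ℝ} (h : a ≤ a') : lev lo hi a ≤ lev lo hi a' := by
  unfold lev; gcongr

lemma lev_max_sub (lo hi a a' : ℝ) :
    lev lo hi (max a a') - lev lo hi (min a a') = |lev lo hi a - lev lo hi a'| := by
  rcases le_total a a' with h | h
  · rw [max_eq_right h, min_eq_left h, abs_sub_comm, abs_of_nonneg]
    linarith [lev_mono lo hi h]
  · rw [max_eq_left h, min_eq_right h, abs_of_nonneg]
    linarith [lev_mono lo hi h]

lemma abs_lev_sub_le (lo hi a a' : ℝ) : |lev lo hi a - lev lo hi a'| ≤ |a - a'| := by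
  unfold lev
  refine (abs_max_sub_max_le_abs _ _ _).trans ?_
  have := abs_min_sub_min_le_max hi a hi a'
  simpa using this

lemma exists_thr {T T' : Type*} [Fintype T] [Fintype T'] (c a a' : T → ℝ) (g : T' → ℝ)
    (Λ lo hi M : ℝ) (h : lo < hi)
    (hM : ∑ t, c t * |lev lo hi (a t) - lev lo hi (a' t)| - Λ * ∑ t, lev lo hi (g t)
      ≤ M * (hi - lo)) :
    ∃ τ ∈ Ioo lo hi, ∑ t, c t * (ind τ (a t) - ind τ (a' t)) ^ 2 - Λ * ∑ t, ind τ (g t) ≤ M := by
  set f : ℝ → ℝ := fun τ => ∑ t, c t * (ind τ (max (a t) (a' t)) - ind τ (min (a t) (a' t)))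
    - Λ * ∑ t, ind τ (g t) with hf
  have i1 : ∀ t, IntegrableOn (fun τ => c t * (ind τ (max (a t) (a' t)) -
      ind τ (min (a t) (a' t)))) (Ioo lo hi) := fun t =>
    ((integrableOn_ind _ _ _).sub (integrableOn_ind _ _ _)).const_mul _
  have i2 : IntegrableOn (fun τ => ∑ t, c t * (ind τ (max (a t) (a' t)) -
      ind τ (min (a t) (a' t)))) (Ioo lo hi) := integrable_finsetSum _ fun t _ => i1 t
  have i3 : IntegrableOn (fun τ => Λ * ∑ t, ind τ (g t)) (Ioo lo hi) :=
    (integrable_finsetSum _ fun t _ => integrableOn_ind lo hi (g t)).const_mul _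
  have hint : ∫ τ in Ioo lo hi, f τ =
      ∑ t, c t * |lev lo hi (a t) - lev lo hi (a' t)| - Λ * ∑ t, lev lo hi (g t) := by
    rw [hf, integral_sub i2 i3, integral_finsetSum _ fun t _ => i1 t, integral_const_mul,
      integral_finsetSum _ fun t _ => integrableOn_ind lo hi (g t)]
    congr 1
    · refine Finset.sum_congr rfl fun t _ => ?_
      rw [integral_const_mul, integral_sub (integrableOn_ind _ _ _) (integrableOn_ind _ _ _),
        integral_ind, integral_ind, lev_max_sub]
    · simp only [integral_ind]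
  obtain ⟨τ, hτ, hle⟩ := exists_le_setAverage (μ := volume) (s := Ioo lo hi) (f := f)
    (by simp [h]) (by simp) (i2.sub i3)
  refine ⟨τ, hτ, ?_⟩
  simp only [ind_sub_sq]
  refine hle.trans ?_
  rw [setAverage_eq, hint, Real.volume_real_Ioo, max_eq_left (by linarith), smul_eq_mul,
    inv_mul_le_iff₀ (by linarith)]
  linarith

end Vale.Agent.P083
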