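import Vale.Agent.P083.Wop
import Vale.Agent.P083.Mono
import Vale.Agent.P083.Beta

/-!
The concrete model of the relations.
-/

namespace Vale.Agent.P083

open scoped InnerProductSpace
open ContinuousLinearMap

set_option linter.unusedSectionVars false

namespace Model

variable (p : ℕ) [Fact p.Prime]

/-- letters -/
abbrev JJ : Type := Fin 3 → ZMod p
/-- words -/
abbrev WW : Type := ℕ → JJ p
/-- basis -/
abbrev VV : Type := ℕ × ℕ × WW p
/-- operators -/
abbrev BB : Type := L2 (VV p) →L[ℂ] L2 (VV p)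
/-- level-wise elements -/
abbrev GG : Type := ℕ → Mono (WW p) (ZMod p)

variable {p}

/-- the character -/
noncomputable def ψ (s : ZMod p) : ℂ := ZMod.stdAddChar s

lemma ψ_add (s t : ZMod p) : ψ (s + t) = ψ s * ψ t := AddChar.map_add_eq_mul _ _ _
@[simp] lemma ψ_zero : ψ (0 : ZMod p) = 1 := AddChar.map_zero_eq_one _
lemma norm_ψ (s : ZMod p) : ‖ψ s‖ = 1 := AddChar.norm_apply _ _
lemma ψ_one_ne : ψ (1 : ZMod p) - 1 ≠ 0 := fun h => by
  have h1 : ZMod.stdAddChar (1 : ZMod p) = ZMod.stdAddChar (0 : ZMod p) := by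
    rw [AddChar.map_zero_eq_one]; exact sub_eq_zero.1 h
  exact one_ne_zero (ZMod.injective_stdAddChar h1)
lemma ψ_pow (s : ZMod p) (k : ZMod p) : ψ s ^ k.val = ψ (k * s) := by
  rw [ψ, ← AddChar.map_nsmul_eq_pow, nsmul_eq_mul, ZMod.natCast_zmod_val]; rfl
lemma sum_ψ (s : ZMod p) : ∑ k : ZMod p, ψ (k * s) = if s = 0 then (p : ℂ) else 0 := by
  have := AddChar.sum_mulShift s (ZMod.isPrimitive_stdAddChar p)
  simp only [ZMod.card] at this
  simpa [ψ] using this

lemma lev_inj (m : GG p) :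
    Function.Injective fun x : VV p => ((x.1, x.2.1, (m x.1).f x.2.2) : VV p) := by
  rintro ⟨n, k, v⟩ ⟨n', k', v'⟩ h
  simp only [Prod.mk.injEq] at h
  obtain ⟨rfl, rfl, h⟩ := h
  rw [(m n).f.injective h]

/-- the operator of a level-wise element -/
noncomputable def og (m : GG p) : BB p :=
  wop (lev_inj m) (χ := fun x => ψ ((m x.1).c x.2.2)) fun _ => norm_ψ _

lemma og_dl (m : GG p) (n k : ℕ) (v : WW p) :
    og m (dl (n, k, v)) = ψ ((m n).c v) • dl (n, k, (m n).f v) := wop_dl _ _ _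

lemma bb_ext {T S : BB p} (h : ∀ n k v, T (dl (n, k, v)) = S (dl (n, k, v))) : T = S :=
  op_ext fun ⟨n, k, v⟩ => h n k v

/-- the representation -/
noncomputable def ogh : GG p →* BB p where
  toFun := og
  map_one' := bb_ext fun n k v => by simp [og_dl]
  map_mul' a b := bb_ext fun n k v => by
    simp [og_dl, ψ_add, smul_smul, mul_comm]

lemma og_mul (a b : GG p) : og (a * b) = og a * og b := ogh.map_mul a b
lemma og_one : og (1 : GG p) = 1 := ogh.map_one
lemma og_pow (a : GG p) (k : ℕ) : og (a ^ k) = og a ^ k := ogh.map_pow a k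

lemma star_og_mul (a : GG p) : star (og a) * og a = 1 := star_wop_mul _ _

lemma og_unitary (a : GG p) : og a ∈ unitary (BB p) := by
  refine ⟨star_og_mul a, ?_⟩
  have h : og a * og a⁻¹ = 1 := by rw [← og_mul, mul_inv_cancel, og_one]
  have h2 : star (og a) = og a⁻¹ := by
    rw [← mul_one (star (og a)), ← h, ← mul_assoc, star_og_mul, one_mul]
  rw [h2, h]

/-- prepend a letter -/
def cn (a : JJ p) (v : WW p) : WW p := fun i => Nat.casesOn i a v

/-- tail of a word -/
def tl : WW p →+ WW p := AddMonoidHom.mk' (fun v i => v (i + 1)) fun _ _ => rfl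

@[simp] lemma cn_zero (a : JJ p) (v : WW p) : cn a v 0 = a := rfl
@[simp] lemma tl_cn (a : JJ p) (v : WW p) : tl (cn a v) = v := rfl
lemma cn_tl (v : WW p) : cn (v 0) (tl v) = v := funext fun i => by cases i <;> rfl
lemma cn_add (a b : JJ p) (v w : WW p) : cn (a + b) (v + w) = cn a v + cn b w :=
  funext fun i => by cases i <;> rfl
lemma cn_zero_zero : cn (0 : JJ p) 0 = 0 := funext fun i => by cases i <;> rfl

lemma cons_inj (a : JJ p) :
    Function.Injective fun x : VV p => ((x.1 + 1, x.2.1, cn a x.2.2) : VV p) := by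
  rintro ⟨n, k, v⟩ ⟨n', k', v'⟩ h
  simp only [Prod.mk.injEq, Nat.add_right_cancel_iff] at h
  obtain ⟨rfl, rfl, h⟩ := h
  rw [← tl_cn a v, h, tl_cn]

/-- the isometries -/
noncomputable def rr (a : JJ p) : BB p := wop (cons_inj a) (χ := fun _ => 1) fun _ => norm_one

lemma rr_dl (a : JJ p) (n k : ℕ) (v : WW p) : rr a (dl (n, k, v)) = dl (n + 1, k, cn a v) := by
  rw [rr, wop_dl, one_smul]

lemma star_rr_zero (a : JJ p) (k : ℕ) (v : WW p) : star (rr a) (dl (0, k, v)) = 0 :=
  star_wop_dl _ _ fun x h => by simp at h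

lemma star_rr_succ (a : JJ p) (n k : ℕ) (v : WW p) :
    star (rr a) (dl (n + 1, k, v)) = (if a = v 0 then (1 : ℂ) else 0) • dl (n, k, tl v) := by
  split_ifs with h
  · conv_lhs => rw [← cn_tl v, ← h, ← rr_dl, ← mul_apply_eq_comp, rr, star_wop_mul]
    simp
  · rw [zero_smul]
    refine star_wop_dl _ _ fun x hx => h ?_
    simp only [Prod.mk.injEq] at hx
    rw [← hx.2.2, cn_zero]

lemma iso_rr : Iso (rr (p := p)) := fun a c => bb_ext fun n k v => by
  rw [mul_apply_eq_comp, rr_dl, star_rr_succ]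
  split_ifs with h h2 h2 <;> simp_all

/-- sum of the adjoints -/
noncomputable def RR : BB p := ∑ a, star (rr a)

lemma RR_succ (n k : ℕ) (v : WW p) : RR (dl (n + 1, k, v)) = dl (n, k, tl v) := by
  simp [RR, star_rr_succ]

lemma q_zero (k : ℕ) (v : WW p) : (∑ a, rr a * star (rr a) : BB p) (dl (0, k, v)) = 0 := by
  simp [star_rr_zero]

lemma q_succ (n k : ℕ) (v : WW p) :
    (∑ a, rr a * star (rr a) : BB p) (dl (n + 1, k, v)) = dl (n + 1, k, v) := by
  simp [star_rr_succ, rr_dl, cn_tl, apply_ite]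

lemma og_comm (m : GG p) : og m * ∑ a, rr a * star (rr a) = (∑ a, rr a * star (rr a)) * og m :=
  bb_ext fun n k v => by
    rw [mul_apply_eq_comp, mul_apply_eq_comp, og_dl, map_smul]
    cases n with
    | zero => simp only [q_zero, map_zero, smul_zero]
    | succ n => rw [q_succ, q_succ, og_dl]

lemma enc_inj : Function.Injective fun x : VV p => ((0, Nat.pair x.1 x.2.1, x.2.2) : VV p) := by
  rintro ⟨n, k, v⟩ ⟨n', k', v'⟩ h
  simp only [Prod.mk.injEq, Nat.pair_eq_pair, true_and] at h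
  obtain ⟨⟨rfl, rfl⟩, rfl⟩ := h
  rfl

/-- the isometry into level zero -/
noncomputable def ww : BB p := wop enc_inj (χ := fun _ => 1) fun _ => norm_one

lemma og_ww (m : GG p) (h : m 0 = 1) : og m * ww = ww := bb_ext fun n k v => by
  rw [mul_apply_eq_comp, ww, wop_dl, one_smul, og_dl, h]
  simp

/-- head of a word at a given level -/
def hd : ℕ → WW p →+ JJ p
  | 0 => 0
  | _ + 1 => Pi.evalAddMonoidHom _ 0

/-- one letter word at a given level -/
def dlt : ℕ → JJ p →+ WW p
  | 0 => 0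
  | _ + 1 => AddMonoidHom.mk' (fun c => cn c 0) fun a b => by rw [← cn_add, add_zero]

@[simp] lemma hd_zero (v : WW p) : hd 0 v = 0 := rfl
@[simp] lemma hd_succ (n : ℕ) (v : WW p) : hd (n + 1) v = v 0 := rfl
@[simp] lemma dlt_zero (c : JJ p) : dlt 0 c = 0 := rfl
@[simp] lemma dlt_succ (n : ℕ) (c : JJ p) : dlt (n + 1) c = cn c 0 := rfl

/-- one coordinate letters -/
def sg (j : Fin 3) (c : ZMod p) : JJ p := Pi.single j c

lemma sg_add (j : Fin 3) (c d : ZMod p) : sg j (c + d) = sg j c + sg j d := Pi.single_add _ _ _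
@[simp] lemma sg_zero (j : Fin 3) : sg j (0 : ZMod p) = 0 := Pi.single_zero _
@[simp] lemma sg_same (j : Fin 3) (c : ZMod p) : sg j c j = c := Pi.single_eq_same _ _
lemma sg_ne {j l : Fin 3} (h : l ≠ j) (c : ZMod p) : sg j c l = 0 := Pi.single_eq_of_ne h _

/-- indicator coefficients -/
def cf (e e' : Fin 3) : ZMod p := if e = e' then 1 else 0

/-- the nilpotent maps -/
def NN (j e : Fin 3) : ℕ → WW p →+ WW p
  | 0 => 0
  | n + 1 => AddMonoidHom.mk'
      (fun v => cn (sg j (cf e 0 * v 0 (j + 1) + cf e 1 * hd n (tl v) (j + 1)))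
        (NN j e n (tl v) + dlt n (sg j (cf e 2 * v 0 (j + 1))))) fun a b => by
        rw [← cn_add, ← sg_add]
        congr 1
        · simp only [Pi.add_apply, map_add]; congr 1; ring
        · simp only [Pi.add_apply, map_add, mul_add, sg_add]; abel

@[simp] lemma NN_zero (j e : Fin 3) (v : WW p) : NN j e 0 v = 0 := rfl
lemma NN_succ (j e : Fin 3) (n : ℕ) (v : WW p) : NN j e (n + 1) v =
    cn (sg j (cf e 0 * v 0 (j + 1) + cf e 1 * hd n (tl v) (j + 1)))
      (NN j e n (tl v) + dlt n (sg j (cf e 2 * v 0 (j + 1)))) := rfl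

lemma NN_off (j e : Fin 3) {l : Fin 3} (hl : l ≠ j) (n : ℕ) (v : WW p) (i : ℕ) :
    NN j e n v i l = 0 := by
  induction n generalizing v i with
  | zero => rfl
  | succ n ih =>
    rw [NN_succ]
    cases i with
    | zero => simp [sg_ne hl]
    | succ i =>
      change NN j e n (tl v) i l + dlt n (sg j (cf e 2 * v 0 (j + 1))) i l = 0
      rw [ih, zero_add]
      cases n with
      | zero => rfl
      | succ n => cases i with
        | zero => simp [sg_ne hl]
        | succ i => rfl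

lemma NN_eq_zero (j e : Fin 3) (n : ℕ) (v : WW p) (hv : ∀ i, v i (j + 1) = 0) : NN j e n v = 0 := by
  induction n generalizing v with
  | zero => rfl
  | succ n ih =>
    have h1 : hd n (tl v) (j + 1) = 0 := by
      cases n with
      | zero => rfl
      | succ n => exact hv 1
    rw [NN_succ, ih (tl v) fun i => hv (i + 1), hv, h1]
    simp [cn_zero_zero]

lemma NN_NN {j k : Fin 3} (h : j + 1 ≠ k) (e e' : Fin 3) (n : ℕ) (v : WW p) :
    NN j e n (NN k e' n v) = 0 := NN_eq_zero _ _ _ _ fun _ => NN_off _ _ h _ _ _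

lemma succ_ne (j : Fin 3) : j + 1 ≠ j := by revert j; decide

/-- linear generators -/
def gL (j e : Fin 3) : GG p := fun n => Mono.lin (NN j e n) (NN_NN (succ_ne j) e e n)
/-- translation elements -/
def gX (c : JJ p) : GG p := fun n => Mono.tr (dlt n c)
/-- phase generators -/
def gZ (j : Fin 3) : GG p := fun n => Mono.ph ((Pi.evalAddMonoidHom _ j).comp (hd n)) 0

/-- index set of generators -/
abbrev II : Type := (Fin 3 × Fin 3) ⊕ Fin 3 ⊕ Fin 3

/-- generators -/
def gen : II → GG p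
  | .inl (j, e) => gL j e
  | .inr (.inl j) => gX (sg j 1)
  | .inr (.inr j) => gZ j

lemma heis_gen (i i' : II) : HeisP (gen (p := p) i) (gen i') := by
  refine HeisP.pi fun n => ?_
  rcases i with ⟨j, e⟩ | j | j <;> rcases i' with ⟨j', e'⟩ | j' | j'
  · have : j + 1 ≠ j' ∨ j' + 1 ≠ j := by revert j j'; decide
    rcases this with h | h
    · exact (Mono.heis_lin_lin (NN_NN (succ_ne j') e' e' n) (NN_NN (succ_ne j) e e n)
        (NN_NN h _ _ _)).symm
    · exact Mono.heis_lin_lin (NN_NN (succ_ne j) e e n) (NN_NN (succ_ne j') e' e' n)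
        (NN_NN h _ _ _)
  · exact Mono.heis_lin_tr (NN_NN (succ_ne j) e e n) _
  · exact Mono.heis_lin_ph (NN_NN (succ_ne j) e e n) _
  · exact (Mono.heis_lin_tr (NN_NN (succ_ne j') e' e' n) _).symm
  · exact Mono.heis_tr_tr _ _
  · exact Mono.heis_tr_ph _ _
  · exact (Mono.heis_lin_ph (NN_NN (succ_ne j') e' e' n) _).symm
  · exact (Mono.heis_tr_ph _ _).symm
  · exact Mono.heis_ph_ph _ _

lemma p_smul_J (c : JJ p) : p • c = 0 := funext fun j => by simp
lemma p_smul_W (v : WW p) : p • v = 0 := funext fun _ => p_smul_J _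

lemma gen_pow (i : II) : gen (p := p) i ^ p = 1 := by
  funext n
  rcases i with ⟨j, e⟩ | j | j
  · rw [Pi.pow_apply, gen, gL, Mono.lin_pow]
    exact Mono.ext' (fun v => by simp) (fun v => by simp)
  · rw [Pi.pow_apply, gen, gX, Mono.tr_pow, p_smul_W, Mono.tr_zero]; rfl
  · rw [Pi.pow_apply, gen, gZ, Mono.ph_pow]
    exact Mono.ext' (fun v => by simp) (fun v => by simp)

lemma gen_zero (i : II) : gen (p := p) i 0 = 1 := by
  rcases i with ⟨j, e⟩ | j | j
  · exact Mono.ext' (fun v => by simp [gen, gL]) (fun v => by simp [gen, gL])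
  · exact Mono.ext' (fun v => by simp [gen, gX]) (fun v => by simp [gen, gX])
  · exact Mono.ext' (fun v => by simp [gen, gZ]) (fun v => by simp [gen, gZ])

/-- the unitaries -/
noncomputable def uu (i : II) : BB p := og (gen i)

variable (p) in
/-- the algebra generated by the unitaries -/
noncomputable abbrev AA : StarSubalgebra ℂ (BB p) := StarAlgebra.adjoin ℂ (Set.range (uu (p := p)))

lemma uu_mem (i : II) : uu i ∈ AA p := StarAlgebra.subset_adjoin _ _ ⟨i, rfl⟩

lemma gL_mem (j e : Fin 3) : og (gL j e) ∈ AA p := uu_mem (.inl (j, e))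
lemma gZ_mem (j : Fin 3) : og (gZ j) ∈ AA p := uu_mem (.inr (.inr j))

lemma gX_add (c d : JJ p) : gX (c + d) = gX c * gX d := funext fun n => by
  simp [gX, Mono.tr_add]

lemma gX_zero : gX (0 : JJ p) = 1 := funext fun n => by simp [gX, Mono.tr_zero]

lemma gX_mem (c : JJ p) : og (gX c) ∈ AA p := by
  let S : AddSubmonoid (JJ p) :=
    { carrier := {c | og (gX c) ∈ AA p}
      add_mem' := fun {a b} ha hb => by
        change og (gX (a + b)) ∈ AA p
        rw [gX_add, og_mul]; exact mul_mem ha hb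
      zero_mem' := by
        change og (gX 0) ∈ AA p
        rw [gX_zero, og_one]; exact one_mem _ }
  have h : c = ∑ j, (c j).val • sg j (1 : ZMod p) := by
    funext l
    simp only [Finset.sum_apply, sg, Pi.smul_apply, Pi.single_apply, smul_ite, smul_zero,
      Finset.sum_ite_eq, Finset.mem_univ, if_true]
    rw [nsmul_eq_mul, ZMod.natCast_zmod_val, mul_one]
  change c ∈ S
  rw [h]
  exact sum_mem fun j _ => nsmul_mem (show _ ∈ S from uu_mem (.inr (.inl j))) _

lemma gL_dl (j e : Fin 3) (n k : ℕ) (v : WW p) :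
    og (gL j e) (dl (n, k, v)) = dl (n, k, v + NN j e n v) := by simp [og_dl, gL]
lemma gX_dl (c : JJ p) (n k : ℕ) (v : WW p) :
    og (gX c) (dl (n, k, v)) = dl (n, k, v + dlt n c) := by simp [og_dl, gX]
lemma gZ_dl (j : Fin 3) (n k : ℕ) (v : WW p) :
    og (gZ j) (dl (n, k, v)) = ψ (hd n v j) • dl (n, k, v) := by simp [og_dl, gZ]

lemma diag_mem (g : JJ p → ℂ) :
    ∃ y ∈ AA p, ∀ n k v, y (dl (n, k, v)) = g (hd n v) • dl (n, k, v) := by
  let S : Subalgebra ℂ (JJ p → ℂ) :=
    { carrier := {g | ∃ y ∈ AA p, ∀ n k v, y (dl (n, k, v)) = g (hd n v) • dl (n, k, v)}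
      mul_mem' := by
        rintro a b ⟨y, hy, hy'⟩ ⟨z, hz, hz'⟩
        exact ⟨y * z, mul_mem hy hz, fun n k v => by simp [hy', hz', smul_smul, mul_comm]⟩
      add_mem' := by
        rintro a b ⟨y, hy, hy'⟩ ⟨z, hz, hz'⟩
        exact ⟨y + z, add_mem hy hz, fun n k v => by simp [hy', hz', add_smul]⟩
      algebraMap_mem' := fun c => ⟨c • 1, SMulMemClass.smul_mem _ (one_mem _), fun n k v => by
        simp⟩ }
  have h1 : ∀ j, (fun b : JJ p => ψ (b j)) ∈ S := fun j => ⟨_, gZ_mem j, gZ_dl j⟩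
  have hp : (p : ℂ) ≠ 0 := by exact_mod_cast (Fact.out : p.Prime).ne_zero
  have h2 : ∀ j c, (fun b : JJ p => if b j = c then (1 : ℂ) else 0) ∈ S := fun j c => by
    have e : (fun b : JJ p => if b j = c then (1 : ℂ) else 0) =
        ∑ t : ZMod p, ((p : ℂ)⁻¹ * ψ (t * -c)) • (fun b : JJ p => ψ (b j)) ^ t.val := by
      funext b
      simp only [Finset.sum_apply, Pi.smul_apply, Pi.pow_apply, ψ_pow, smul_eq_mul, mul_assoc,
        ← ψ_add, ← mul_add, ← Finset.mul_sum, sum_ψ, neg_add_eq_zero, eq_comm (a := c)]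
      split_ifs <;> simp [hp]
    rw [e]
    exact sum_mem fun t _ => S.smul_mem (pow_mem (h1 j) _) _
  have e : g = ∑ c : JJ p, g c • ∏ j, fun b : JJ p => if b j = c j then (1 : ℂ) else 0 := by
    funext b
    simp only [Finset.sum_apply, Pi.smul_apply, Finset.prod_apply, Finset.prod_boole,
      Finset.mem_univ, true_implies, smul_eq_mul]
    simp [← funext_iff]
  change g ∈ S
  rw [e]
  exact sum_mem fun c _ => S.smul_mem (prod_mem fun j _ => h2 j _) _

lemma q_mem : (∑ a, rr a * star (rr a) : BB p) ∈ AA p := by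
  let ζ : GG p := fun n => Mono.ph 0 (hd n (dlt n (sg 0 1)) 0)
  have h1 : gZ 0 * gX (sg 0 1) = ζ * (gX (sg 0 1) * gZ 0) := funext fun n =>
    Mono.ext' (fun v => by simp [gZ, gX, ζ]) (fun v => by simp [gZ, gX, ζ, add_comm])
  have h2 : og ζ = og (gZ 0) * og (gX (sg 0 1)) *
      star (og (gX (sg 0 1)) * og (gZ 0)) := by
    rw [← og_mul, h1, og_mul, ← og_mul (gX _), mul_assoc, (og_unitary _).2, mul_one]
  have h3 : og ζ ∈ AA p := by
    rw [h2]
    exact mul_mem (mul_mem (gZ_mem _) (gX_mem _)) (star_mem (mul_mem (gX_mem _) (gZ_mem _)))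
  have h4 : (∑ a, rr a * star (rr a) : BB p) = (ψ (1 : ZMod p) - 1)⁻¹ • (og ζ - 1) :=
    bb_ext fun n k v => by
      cases n with
      | zero => rw [q_zero]; simp [og_dl, ζ]
      | succ n =>
        rw [q_succ]
        have : (og ζ - 1) (dl (n + 1, k, v)) = (ψ (1 : ZMod p) - 1) • dl (n + 1, k, v) := by
          simp [og_dl, ζ, sub_smul]
        rw [smul_apply, this, smul_smul, inv_mul_cancel₀ ψ_one_ne, one_smul]
  rw [h4]
  exact SMulMemClass.smul_mem _ (sub_mem h3 (one_mem _))

lemma e_mem (a b : JJ p) : rr a * star (rr b) ∈ AA p := by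
  obtain ⟨y, hy, hy'⟩ := diag_mem (p := p) fun h => if b = h then 1 else 0
  have : rr a * star (rr b) = og (gX (a - b)) * (y * ∑ a, rr a * star (rr a)) :=
    bb_ext fun n k v => by
      rw [mul_apply_eq_comp, mul_apply_eq_comp, mul_apply_eq_comp]
      cases n with
      | zero => rw [q_zero, star_rr_zero]; simp
      | succ n =>
        rw [q_succ, star_rr_succ, hy', map_smul, map_smul, rr_dl, gX_dl, hd_succ]
        split_ifs with h
        · congr 4
          conv_rhs => rw [← cn_tl v, dlt_succ, ← cn_add, ← h]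
          simp
        · simp
  rw [this]
  exact mul_mem (gX_mem _) (mul_mem hy q_mem)

lemma add_NN_cn (j e : Fin 3) (n : ℕ) (b : JJ p) (v : WW p) :
    cn b v + NN j e (n + 1) (cn b v) =
      cn (b + sg j (cf e 0 * b (j + 1) + cf e 1 * hd n v (j + 1)))
        (v + NN j e n v + dlt n (sg j (cf e 2 * b (j + 1)))) := by
  rw [NN_succ, ← cn_add, add_assoc]; rfl

lemma f_mem (i : II) (a b : JJ p) : star (rr a) * uu i * rr b ∈ AA p := by
  rcases i with ⟨j, e⟩ | j | j
  · obtain ⟨y, hy, hy'⟩ := diag_mem (p := p) fun h =>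
      if a = b + sg j (cf e 0 * b (j + 1) + cf e 1 * h (j + 1)) then 1 else 0
    have : star (rr a) * uu (.inl (j, e)) * rr b =
        og (gX (sg j (cf e 2 * b (j + 1)))) * (og (gL j e) * y) := bb_ext fun n k v => by
      change star (rr a) (og (gL j e) (rr b _)) = og _ (og _ (y _))
      rw [rr_dl, gL_dl, add_NN_cn, star_rr_succ, hy', map_smul, map_smul, gL_dl, gX_dl]
      rfl
    rw [this]
    exact mul_mem (gX_mem _) (mul_mem (gL_mem _ _) hy)
  · have : star (rr a) * uu (.inr (.inl j)) * rr b =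
        (if a = b + sg j 1 then (1 : ℂ) else 0) • (1 : BB p) := bb_ext fun n k v => by
      change star (rr a) (og (gX _) (rr b _)) = _
      rw [rr_dl, gX_dl, dlt_succ, ← cn_add, star_rr_succ, smul_apply, add_zero]
      rfl
    rw [this]
    exact SMulMemClass.smul_mem _ (one_mem _)
  · have : star (rr a) * uu (.inr (.inr j)) * rr b =
        (ψ (b j) * if a = b then (1 : ℂ) else 0) • (1 : BB p) := bb_ext fun n k v => by
      change star (rr a) (og (gZ _) (rr b _)) = _
      rw [rr_dl, gZ_dl, map_smul, star_rr_succ, smul_smul, smul_apply]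
      rfl
    rw [this]
    exact SMulMemClass.smul_mem _ (one_mem _)

lemma bB_RR {y : BB p} (hy : y ∈ AA p) (b : JJ p) : bB rr (RR * y * rr b) ∈ AA p := by
  have : bB rr (RR * y * rr b) = ∑ c, ∑ a, (rr c * star (rr a)) * y * (rr b * star (rr c)) := by
    simp only [bB, RR, Finset.sum_mul, Finset.mul_sum, mul_assoc]
  rw [this]
  exact sum_mem fun c _ => sum_mem fun a _ => mul_mem (mul_mem (e_mem _ _) hy) (e_mem _ _)

lemma RR_L (j e : Fin 3) (b : JJ p) :
    RR * og (gL j e) * rr b = og (gX (sg j (cf e 2 * b (j + 1)))) * og (gL j e) :=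
  bb_ext fun n k v => by
    change RR (og (gL j e) (rr b _)) = og _ (og _ _)
    rw [rr_dl, gL_dl, add_NN_cn, RR_succ, gL_dl, gX_dl]
    rfl

lemma RR_Z (j : Fin 3) :
    RR * (og (gZ j) * og (gL j 1)) * rr (0 : JJ p) = og (gL j 1) * og (gZ (j + 1)) :=
  bb_ext fun n k v => by
    change RR (og (gZ j) (og (gL j 1) (rr 0 _))) = og _ (og _ _)
    rw [rr_dl, gL_dl, add_NN_cn, gZ_dl, map_smul, RR_succ, gZ_dl, map_smul, gL_dl]
    simp [cf]

lemma bL_mem (j e : Fin 3) : bB rr (og (gL j e)) ∈ AA p := by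
  have := bB_RR (gL_mem (p := p) j e) 0
  rw [RR_L] at this
  simpa [gX_zero, og_one] using this

lemma b_mem (i : II) : bB rr (uu i) ∈ AA p := by
  rcases i with ⟨j, e⟩ | j | j
  · exact bL_mem j e
  · have := bB_RR (gL_mem (p := p) j 2) (sg (j + 1) 1)
    rw [RR_L] at this
    have h2 := mul_mem this (star_mem (bL_mem j 2))
    rw [star_bB, ← iso_rr.bB_mul, mul_assoc, (og_unitary _).2, mul_one] at h2
    simpa [cf, uu, gen] using h2
  · obtain ⟨j, rfl⟩ : ∃ j' : Fin 3, j = j' + 1 := ⟨j - 1, by simp⟩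
    have := bB_RR (mul_mem (gZ_mem (p := p) j) (gL_mem j 1)) 0
    rw [RR_Z] at this
    have h2 := mul_mem (star_mem (bL_mem j 1)) this
    rw [star_bB, ← iso_rr.bB_mul, ← mul_assoc, (og_unitary _).1, one_mul] at h2
    exact h2

theorem rel : Rel p (uu (p := p)) rr ww :=
  ⟨fun _ => og_unitary _, fun i => by rw [uu, ← og_pow, gen_pow, og_one],
    fun i j => HeisP.map (ogh (p := p)) (heis_gen i j), iso_rr, fun _ => og_comm _, f_mem, e_mem, b_mem,
    star_wop_mul _ _, fun i => og_ww _ (gen_zero i)⟩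

end Model

theorem exists_model : ∃ (A : Type) (_ : CStarAlgebra A) (I J : Type) (_ : Fintype I)
    (_ : Nonempty I) (_ : Fintype J) (_ : DecidableEq J) (p : ℕ) (u : I → A) (r : J → A) (w : A),
    Nontrivial A ∧ TopologicalSpace.SeparableSpace A ∧ p.Prime ∧ Fintype.card I ^ 2 < p ∧ 3 ≤ Fintype.card J ∧
      Rel p u r w := by
  have : Fact (Nat.Prime 227) := ⟨by norm_num⟩
  let s : Set (Model.BB 227) := Set.range Model.uu ∪ Set.range Model.rr ∪ {Model.ww}
  have hs : s.Countable :=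
    ((Set.countable_range _).union (Set.countable_range _)).union (Set.countable_singleton _)
  let A := (StarAlgebra.adjoin ℂ s).topologicalClosure
  have hcl : IsClosed (A : Set (Model.BB 227)) := StarSubalgebra.isClosed_topologicalClosure _
  have m : ∀ x ∈ s, x ∈ A := fun x hx => StarSubalgebra.le_topologicalClosure _
    (StarAlgebra.subset_adjoin _ _ hx)
  have hnt : Nontrivial (L2 (Model.VV 227)) := ⟨dl (0, 0, 0), 0, fun h => by
    have := inner_dl_dl (V := Model.VV 227) (0, 0, 0) (0, 0, 0)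
    rw [h] at this
    simp at this⟩
  refine ⟨A, inferInstance, Model.II, Model.JJ 227, inferInstance, inferInstance, inferInstance,
    inferInstance, 227, fun i => ⟨Model.uu i, m _ (.inl (.inl ⟨i, rfl⟩))⟩,
    fun a => ⟨Model.rr a, m _ (.inl (.inr ⟨a, rfl⟩))⟩, ⟨Model.ww, m _ (.inr rfl)⟩,
    inferInstance, separable_closure_adjoin hs, Fact.out, by simp, by simp, ?_⟩
  exact Rel.of_injective A.subtype Subtype.val_injective Model.rel

end Vale.Agent.P083
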