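import Mathlib

/-!
The norm ultrapower of a unital C*-algebra as a concrete quotient.
-/

namespace Vale.Agent.P083

open Filter Topology
open scoped ENNReal

variable (B : Type*) [CStarAlgebra B] [Nontrivial B] (ω : Ultrafilter ℕ)

/-- Two norm-bounded sequences are congruent when their difference lies in the ideal of
sequences whose norm tends to zero along the ultrafilter. -/
def nullCon : RingCon (lp (fun _ : ℕ => B) ∞) where
  r x y := Tendsto (fun n => ‖x n - y n‖) (ω : Filter ℕ) (𝓝 0)
  iseqv :=
    { refl := fun x => by simp
      symm := fun {x y} h => by simpa only [norm_sub_rev] using h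
      trans := fun {x y z} h₁ h₂ => by
        refine squeeze_zero (fun n => norm_nonneg _) (fun n => norm_sub_le_norm_sub_add_norm_sub
          (x n) (y n) (z n)) ?_
        simpa using h₁.add h₂ }
  add' := fun {w x y z} h₁ h₂ => by
    refine squeeze_zero (fun n => norm_nonneg _)
      (g := fun n => ‖w n - x n‖ + ‖y n - z n‖) (fun n => ?_) (by simpa using h₁.add h₂)
    have : (w + y) n - (x + z) n = (w n - x n) + (y n - z n) := by
      simp only [lp.coeFn_add, Pi.add_apply]; abel
    rw [this]; exact norm_add_le _ _
  mul' := fun {w x y z} h₁ h₂ => by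
    refine squeeze_zero (fun n => norm_nonneg _)
      (g := fun n => ‖w n - x n‖ * ‖y‖ + ‖x‖ * ‖y n - z n‖) (fun n => ?_)
      (by simpa using (h₁.mul_const ‖y‖).add (h₂.const_mul ‖x‖))
    have : (w * y) n - (x * z) n = (w n - x n) * y n + x n * (y n - z n) := by
      simp only [lp.infty_coeFn_mul, Pi.mul_apply]; noncomm_ring
    rw [this]
    refine (norm_add_le _ _).trans (add_le_add ?_ ?_)
    · exact (norm_mul_le _ _).trans (by gcongr; exact lp.norm_apply_le_norm (by simp) y n)
    · exact (norm_mul_le _ _).trans (by gcongr; exact lp.norm_apply_le_norm (by simp) x n)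

/-- The norm ultrapower: bounded sequences modulo sequences tending to zero in norm along the
ultrafilter. -/
def Ultrapower : Type _ := (nullCon B ω).Quotient

noncomputable instance : Ring (Ultrapower B ω) := inferInstanceAs (Ring (nullCon B ω).Quotient)

noncomputable instance : Algebra ℂ (Ultrapower B ω) :=
  inferInstanceAs (Algebra ℂ (nullCon B ω).Quotient)

/-- The involution of the ultrapower, induced by the entrywise involution. -/
noncomputable instance : Star (Ultrapower B ω) where
  star := Quotient.map' (s₁ := (nullCon B ω).toSetoid) (s₂ := (nullCon B ω).toSetoid) star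
    (fun x y h => by
      change Tendsto (fun n => ‖(star x) n - (star y) n‖) (ω : Filter ℕ) (𝓝 0)
      have h' : Tendsto (fun n => ‖x n - y n‖) (ω : Filter ℕ) (𝓝 0) := h
      simpa only [lp.coeFn_star, Pi.star_apply, ← star_sub, norm_star] using h')

end Vale.Agent.P083
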