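import Vale.Agent.P083.Energy
import Vale.Agent.P083.Layer

/-!
Spectral decomposition of finite rank self-adjoint elements and threshold projections.
-/

namespace Vale.Agent.P083

open scoped InnerProductSpace
open ContinuousLinearMap InnerProductSpace

variable {H : Type*} [NormedAddCommGroup H] [InnerProductSpace ℂ H] [CompleteSpace H]
  {ι : Type*} {b : HilbertBasis ι ℂ H}

namespace HS

/-- the projection onto the span of a finite orthonormal family -/
noncomputable def prj {n : ℕ} (e : Fin n → H) : H →L[ℂ] H := ∑ j, rankOne ℂ (e j) (e j)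

lemma star_prj {n : ℕ} (e : Fin n → H) : star (prj e) = prj e := by
  simp [prj, star_sum, star_eq_adjoint]

omit [CompleteSpace H] in
lemma prj_apply {n : ℕ} (e : Fin n → H) (v : H) : prj e v = ∑ j, ⟪e j, v⟫_ℂ • e j := by
  simp [prj]

omit [CompleteSpace H] in
lemma norm_sq_of_prj {n : ℕ} {e : Fin n → H} (he : Orthonormal ℂ e) {v : H} (hv : prj e v = v) :
    ‖v‖ ^ 2 = ∑ j, ‖⟪e j, v⟫_ℂ‖ ^ 2 := by
  have h := he.inner_sum (fun j => ⟪e j, v⟫_ℂ) (fun j => ⟪e j, v⟫_ℂ) Finset.univ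
  rw [← prj_apply, hv, inner_self_eq_norm_sq_to_K] at h
  have h2 : ((‖v‖ ^ 2 : ℝ) : ℂ) = ((∑ j, ‖⟪e j, v⟫_ℂ‖ ^ 2 : ℝ) : ℂ) := by
    push_cast
    refine Eq.trans rfl (h.trans ?_)
    refine Finset.sum_congr rfl fun j _ => ?_
    rw [Complex.conj_mul']
  exact_mod_cast h2

/-- diagonal elements -/
noncomputable def dg {n : ℕ} (e : Fin n → H) (f : Fin n → ℝ) : HS b :=
  ∑ j, (f j : ℂ) • ro (e j) (e j)

section dg

variable {n : ℕ} {e : Fin n → H}

lemma op_dg_apply (f : Fin n → ℝ) (v : H) :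
    op (dg (b := b) e f) v = ∑ j, ((f j : ℂ) * ⟪e j, v⟫_ℂ) • e j := by
  simp only [dg, map_sum, map_smul, op_ro, sum_apply, smul_apply, rankOne_apply, smul_smul]

lemma star_op_dg (f : Fin n → ℝ) : star (op (dg (b := b) e f)) = op (dg (b := b) e f) := by
  simp [dg, star_sum, star_eq_adjoint]

lemma FR.dg (f : Fin n → ℝ) : FR (dg (b := b) e f) :=
  FR.sum _ fun _ _ => (FR.ro _ _).smul _

lemma op_dg_e (he : Orthonormal ℂ e) (f : Fin n → ℝ) (l : Fin n) :
    op (dg (b := b) e f) (e l) = (f l : ℂ) • e l := by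
  rw [op_dg_apply, Finset.sum_eq_single l]
  · simp [he.1 l]
  · intro j _ hj; simp [he.2 hj]
  · simp

lemma inner_op_dg (he : Orthonormal ℂ e) (f : Fin n → ℝ) (j : Fin n) (v : H) :
    ⟪e j, op (dg (b := b) e f) v⟫_ℂ = (f j : ℂ) * ⟪e j, v⟫_ℂ := by
  rw [← star_op_dg, star_eq_adjoint, adjoint_inner_right, op_dg_e he, inner_smul_left]
  simp

lemma op_dg_mul (he : Orthonormal ℂ e) (f g : Fin n → ℝ) :
    op (dg (b := b) e f) * op (dg (b := b) e g) = op (dg (b := b) e (f * g)) := by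
  ext v
  rw [mul_apply_eq_comp, op_dg_apply f, op_dg_apply (f * g)]
  refine Finset.sum_congr rfl fun j _ => ?_
  rw [inner_op_dg he]; simp [mul_assoc]

lemma op_dg_one : op (dg (b := b) e 1) = prj e := by simp [dg, prj]

omit [CompleteSpace H] in
lemma dg_sub (f g : Fin n → ℝ) : dg (b := b) e (f - g) = dg e f - dg e g := by
  simp [dg, ← Finset.sum_sub_distrib, sub_smul]

lemma norm_dg (he : Orthonormal ℂ e) (f : Fin n → ℝ) :
    ‖dg (b := b) e f‖ ^ 2 = ∑ j, f j ^ 2 := by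
  rw [parseval _ he]
  · refine Finset.sum_congr rfl fun j _ => ?_
    rw [op_dg_e he, norm_smul, he.1 j]; simp
  · change _ * prj e = _
    rw [← op_dg_one (b := b), op_dg_mul he, mul_one]

lemma isP_dg (he : Orthonormal ℂ e) {f : Fin n → ℝ} (hf : f * f = f) : IsP (dg (b := b) e f) :=
  ⟨FR.dg f, ⟨by rw [IsIdempotentElem, op_dg_mul he, hf], star_op_dg f⟩⟩

end dg

/-- An eigenbasis adapted to a family of operators. -/
structure Diag {I : Type} (U : I → H →L[ℂ] H) (x : HS b) where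
  n : ℕ
  e : Fin n → H
  s : Fin n → ℝ
  on : Orthonormal ℂ e
  eq : x = dg e s
  spanU : ∀ i, prj e * (U i * op x) = U i * op x
  spanUs : ∀ i, prj e * (star (U i) * op x) = star (U i) * op x

variable {I : Type} [Fintype I] {U : I → H →L[ℂ] H}

theorem exists_diag (U : I → H →L[ℂ] H) {x : HS b} (hx : FR x) (hs : star (op x) = op x) :
    Nonempty (Diag U x) := by
  obtain ⟨W₀, _, hW₀⟩ := hx
  set W : Submodule ℂ H := W₀ ⊔ ((⨆ i, W₀.map (U i : H →ₗ[ℂ] H)) ⊔
    (⨆ i, W₀.map (star (U i) : H →L[ℂ] H).toLinearMap)) with hW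
  have : FiniteDimensional ℂ W := inferInstance
  have hxW : ∀ ζ, op x ζ ∈ W := fun ζ => Submodule.mem_sup_left (hW₀ ζ)
  have hsym : (op x : H →ₗ[ℂ] H).IsSymmetric :=
    (isSelfAdjoint_iff_isSymmetric.1 hs)
  have hinv : ∀ v ∈ W, (op x : H →ₗ[ℂ] H) v ∈ W := fun v _ => hxW v
  have hT := hsym.restrict_invariant hinv
  let eb := hT.eigenvectorBasis rfl
  let e : Fin (Module.finrank ℂ W) → H := fun j => eb j
  have he : Orthonormal ℂ e := eb.orthonormal.comp_linearIsometry W.subtypeₗᵢ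
  have hP : ∀ v ∈ W, prj e v = v := fun v hv => by
    have := congrArg Subtype.val (eb.sum_repr' ⟨v, hv⟩)
    rw [prj_apply]
    simpa [e] using this
  have heig : ∀ j, op x (e j) = (hT.eigenvalues rfl j : ℂ) • e j := fun j => by
    exact congrArg Subtype.val (hT.apply_eigenvectorBasis rfl j)
  have h1 : prj e * op x = op x := by ext v; exact hP _ (hxW v)
  have h2 : op x * prj e = op x := mul_comm_of_le (star_prj e) hs h1
  refine ⟨⟨_, e, hT.eigenvalues rfl, he, ext' ?_, fun i => ?_, fun i => ?_⟩⟩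
  · ext v
    refine (DFunLike.congr_fun h2 v).symm.trans ?_
    rw [mul_apply_eq_comp, prj_apply, op_dg_apply, map_sum]
    refine Finset.sum_congr rfl fun j _ => ?_
    rw [map_smul, heig, smul_smul, mul_comm]
  · ext v
    refine hP _ (Submodule.mem_sup_right (Submodule.mem_sup_left ?_))
    exact Submodule.mem_iSup_of_mem i (Submodule.mem_map_of_mem (hW₀ v))
  · ext v
    refine hP _ (Submodule.mem_sup_right (Submodule.mem_sup_right ?_))
    exact Submodule.mem_iSup_of_mem i (Submodule.mem_map_of_mem (hW₀ v))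

namespace Diag

variable {x : HS b} (D : Diag U x)

omit [Fintype I] in
lemma factor {f : Fin D.n → ℝ} (hf : ∀ j, D.s j = 0 → f j = 0) :
    op (dg (b := b) D.e f) = op x * op (dg (b := b) D.e (f / D.s)) := by
  have h0 : op x = op (dg (b := b) D.e D.s) := by rw [← D.eq]
  rw [h0, op_dg_mul D.on]
  congr 2
  funext j
  by_cases h : D.s j = 0
  · simp [h, hf j h]
  · simp only [Pi.mul_apply, Pi.div_apply]; field_simp

/-- transition weights -/
noncomputable def w (i : I) (j l : Fin D.n) : ℝ := ‖⟪D.e j, U i (D.e l)⟫_ℂ‖ ^ 2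

omit [Fintype I] in
lemma w_nonneg (i : I) (j l : Fin D.n) : 0 ≤ D.w i j l := by unfold w; positivity

omit [Fintype I] in
lemma sum_w_left (hU : ∀ i, ‖U i‖ ≤ 1) (i : I) (l : Fin D.n) : ∑ j, D.w i j l ≤ 1 := by
  refine (D.on.sum_inner_products_le (U i (D.e l))).trans ?_
  have := (U i).le_opNorm (D.e l)
  rw [D.on.1 l] at this
  have h := hU i
  have h0 := norm_nonneg (U i (D.e l))
  nlinarith

omit [Fintype I] in
lemma sum_w_right (hU : ∀ i, ‖U i‖ ≤ 1) (i : I) (j : Fin D.n) : ∑ l, D.w i j l ≤ 1 := by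
  have h1 := D.on.sum_inner_products_le (star (U i) (D.e j)) (s := Finset.univ)
  have h2 : ∀ l, ‖⟪D.e l, star (U i) (D.e j)⟫_ℂ‖ ^ 2 = D.w i j l := fun l => by
    rw [star_eq_adjoint, adjoint_inner_right, norm_inner_symm]; rfl
  simp only [h2] at h1
  refine h1.trans ?_
  have := (star (U i)).le_opNorm (D.e j)
  rw [D.on.1 j, norm_star] at this
  have h := hU i
  have h0 := norm_nonneg (star (U i) (D.e j))
  nlinarith

omit [Fintype I] in
lemma norm_cm_dg (i : I) {f : Fin D.n → ℝ} (hf : ∀ j, D.s j = 0 → f j = 0) :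
    ‖cm (U i) (dg (b := b) D.e f)‖ ^ 2 = ∑ l, ∑ j, D.w i j l * (f j - f l) ^ 2 := by
  have p0 : prj D.e * op (dg (b := b) D.e f) = op (dg (b := b) D.e f) := by
    rw [← op_dg_one (b := b), op_dg_mul D.on, one_mul]
  have p1 : prj D.e * op (cm (U i) (dg (b := b) D.e f)) = op (cm (U i) (dg (b := b) D.e f)) := by
    rw [op_cm, mul_sub, ← mul_assoc _ (op _), p0]
    congr 1
    rw [D.factor hf, ← mul_assoc (U i), ← mul_assoc, D.spanU]
  have p2 : op (cm (U i) (dg (b := b) D.e f)) * prj D.e = op (cm (U i) (dg (b := b) D.e f)) := by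
    refine star_injective ?_
    rw [star_mul, star_prj, op_cm, star_sub, star_mul, star_mul, star_op_dg, mul_sub,
      ← mul_assoc _ (op _), p0]
    congr 1
    rw [D.factor hf, ← mul_assoc (star (U i)), ← mul_assoc, D.spanUs]
  rw [parseval _ D.on p2]
  refine Finset.sum_congr rfl fun l _ => ?_
  rw [norm_sq_of_prj D.on (by rw [← mul_apply_eq_comp, p1])]
  refine Finset.sum_congr rfl fun j _ => ?_
  rw [op_cm, sub_apply, mul_apply_eq_comp, mul_apply_eq_comp, op_dg_e D.on, inner_sub_right,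
    inner_op_dg D.on, map_smul, inner_smul_right, ← sub_mul, norm_mul, mul_pow, mul_comm]
  congr 1
  rw [← Complex.ofReal_sub, Complex.norm_real, Real.norm_eq_abs, sq_abs]; ring

lemma En_dg {f : Fin D.n → ℝ} (hf : ∀ j, D.s j = 0 → f j = 0) :
    En U (dg (b := b) D.e f) =
      ∑ t : I × Fin D.n × Fin D.n, D.w t.1 t.2.2 t.2.1 * (f t.2.2 - f t.2.1) ^ 2 := by
  simp only [En, D.norm_cm_dg _ hf, Fintype.sum_prod_type]

lemma En_eq : En U x =
      ∑ t : I × Fin D.n × Fin D.n, D.w t.1 t.2.2 t.2.1 * (D.s t.2.2 - D.s t.2.1) ^ 2 := by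
  rw [← D.En_dg (fun _ h => h), ← D.eq]

lemma sum_w_mul (hU : ∀ i, ‖U i‖ ≤ 1) {g : Fin D.n → ℝ} (hg : ∀ j, 0 ≤ g j) :
    ∑ t : I × Fin D.n × Fin D.n, D.w t.1 t.2.2 t.2.1 * (g t.2.2 + g t.2.1)
      ≤ 2 * Fintype.card I * ∑ j, g j := by
  simp only [Fintype.sum_prod_type, mul_add, Finset.sum_add_distrib]
  have h1 : ∀ i, ∑ l, ∑ j, D.w i j l * g j ≤ ∑ j, g j := fun i => by
    rw [Finset.sum_comm]
    refine Finset.sum_le_sum fun j _ => ?_
    rw [← Finset.sum_mul]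
    nlinarith [D.sum_w_right hU i j, hg j]
  have h2 : ∀ i, ∑ l, ∑ j, D.w i j l * g l ≤ ∑ j, g j := fun i => by
    refine Finset.sum_le_sum fun l _ => ?_
    rw [← Finset.sum_mul]
    nlinarith [D.sum_w_left hU i l, hg l]
  have h3 := Finset.sum_le_sum fun i (_ : i ∈ Finset.univ) => h1 i
  have h4 := Finset.sum_le_sum fun i (_ : i ∈ Finset.univ) => h2 i
  simp only [Finset.sum_const, Finset.card_univ, nsmul_eq_mul] at h3 h4
  linarith

omit [Fintype I] in
lemma ind_zero {τ : ℝ} (hτ : 0 ≤ τ) (j : Fin D.n) (h : D.s j = 0) : ind τ (D.s j) = 0 := by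
  simp [ind, h, hτ]

omit [Fintype I] in
lemma isP_ind (τ : ℝ) : IsP (dg (b := b) D.e fun j => ind τ (D.s j)) :=
  isP_dg D.on (by funext j; simp only [Pi.mul_apply, ind]; split_ifs <;> simp)

omit [Fintype I] in
lemma le_ind {τ : ℝ} (hτ : 0 ≤ τ) {E : H →L[ℂ] H} (hE : E * op x = op x) :
    E * op (dg (b := b) D.e fun j => ind τ (D.s j)) = op (dg (b := b) D.e fun j => ind τ (D.s j)) := by
  rw [D.factor (D.ind_zero hτ), ← mul_assoc, hE]

end Diag

lemma abs_lev_third (κ a a' : ℝ) (hκ : 0 < κ) :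
    |lev (1 / 3) (2 / 3) a - lev (1 / 3) (2 / 3) a'| ≤
      (a - a') ^ 2 / (2 * κ) + 9 * κ / 2 * (a ^ 2 + a' ^ 2) := by
  by_cases h : a ≤ 1 / 3 ∧ a' ≤ 1 / 3
  · have h1 : ∀ z : ℝ, z ≤ 1 / 3 → lev (1 / 3) (2 / 3) z = 0 := fun z hz => by
      unfold lev
      exact max_eq_right (by linarith [min_le_right (2 / 3 : ℝ) z])
    rw [h1 a h.1, h1 a' h.2]
    simp only [sub_self, abs_zero]
    positivity
  · have h2 : 1 ≤ 9 * (a ^ 2 + a' ^ 2) := by
      rcases not_and_or.1 h with h | h <;> push Not at h <;> nlinarith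
    refine (abs_lev_sub_le _ _ _ _).trans ?_
    have h3 : |a - a'| ≤ (a - a') ^ 2 / (2 * κ) + κ / 2 := by
      rw [← sq_abs, div_add' _ _ _ (by positivity), le_div_iff₀ (by positivity)]
      nlinarith [sq_nonneg (|a - a'| - κ)]
    nlinarith

/-- The threshold lemma. -/
theorem exists_threshold (hU : ∀ i, ‖U i‖ ≤ 1) {x : HS b} (hx : FR x) (hs : star (op x) = op x)
    {κ : ℝ} (hκ : 0 < κ) :
    ∃ Q : HS b, IsP Q ∧ En U Q ≤ 3 * (En U x / (2 * κ) + 9 * κ * Fintype.card I * ‖x‖ ^ 2) ∧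
      ‖Q - x‖ ≤ 3 * ‖x - lm (op x) x‖ ∧ ∀ E : H →L[ℂ] H, E * op x = op x → E * op Q = op Q := by
  obtain ⟨D⟩ := exists_diag U hx hs
  have hn : ‖x‖ ^ 2 = ∑ j, D.s j ^ 2 := by rw [← norm_dg (b := b) D.on, ← D.eq]
  obtain ⟨τ, hτ, hle⟩ := exists_thr (T := I × Fin D.n × Fin D.n) (T' := Empty)
    (fun t => D.w t.1 t.2.2 t.2.1) (fun t => D.s t.2.2) (fun t => D.s t.2.1) (fun _ => 0) 0
    (1 / 3) (2 / 3) (3 * (En U x / (2 * κ) + 9 * κ * Fintype.card I * ‖x‖ ^ 2)) (by norm_num) (by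
      have h1 := D.sum_w_mul hU (g := fun j => D.s j ^ 2) (fun j => sq_nonneg _)
      calc _ ≤ ∑ t : I × Fin D.n × Fin D.n, D.w t.1 t.2.2 t.2.1 *
            ((D.s t.2.2 - D.s t.2.1) ^ 2 / (2 * κ) + 9 * κ / 2 * (D.s t.2.2 ^ 2 + D.s t.2.1 ^ 2)) := by
            rw [zero_mul, sub_zero]
            exact Finset.sum_le_sum fun t _ =>
              mul_le_mul_of_nonneg_left (abs_lev_third κ _ _ hκ) (D.w_nonneg _ _ _)
        _ = En U x / (2 * κ) + 9 * κ / 2 * ∑ t : I × Fin D.n × Fin D.n, D.w t.1 t.2.2 t.2.1 *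
            (D.s t.2.2 ^ 2 + D.s t.2.1 ^ 2) := by
            rw [D.En_eq, Finset.sum_div, Finset.mul_sum, ← Finset.sum_add_distrib]
            refine Finset.sum_congr rfl fun t _ => by ring
        _ ≤ En U x / (2 * κ) + 9 * κ / 2 * (2 * Fintype.card I * ∑ j, D.s j ^ 2) := by gcongr
        _ = _ := by rw [hn]; ring)
  have hτ0 : 0 ≤ τ := by linarith [hτ.1]
  refine ⟨dg D.e fun j => ind τ (D.s j), D.isP_ind τ, ?_, ?_, fun E hE => D.le_ind hτ0 hE⟩
  · rw [D.En_dg (D.ind_zero hτ0)]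
    simpa using hle
  · have e1 : dg (b := b) D.e (fun j => ind τ (D.s j)) - x =
        dg D.e ((fun j => ind τ (D.s j)) - D.s) := by rw [dg_sub, ← D.eq]
    have e2 : x - lm (op x) x = dg D.e (D.s - D.s * D.s) := by
      rw [dg_sub, ← D.eq]
      congr 1
      refine ext' ?_
      rw [op_lm, ← op_dg_mul D.on, ← D.eq]
    refine (pow_le_pow_iff_left₀ (by positivity) (by positivity) two_ne_zero).1 ?_
    rw [mul_pow, e1, e2, norm_dg D.on, norm_dg D.on, Finset.mul_sum]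
    refine Finset.sum_le_sum fun j _ => ?_
    simp only [Pi.sub_apply, Pi.mul_apply, ind]
    have h1 := hτ.1
    have h2 := hτ.2
    split_ifs with h
    · have : 1 ≤ 9 * D.s j ^ 2 := by nlinarith
      nlinarith [sq_nonneg (1 - D.s j)]
    · have : 1 ≤ 9 * (1 - D.s j) ^ 2 := by nlinarith
      nlinarith [sq_nonneg (D.s j)]

/-- The layer cake lemma for a positive element. -/
theorem exists_layer {x : HS b} (D : Diag U x) (hs : ∀ j, 0 ≤ D.s j) (hpos : 0 < ∑ j, D.s j)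
    {Λ : ℝ} (hΛ : ∑ t : I × Fin D.n × Fin D.n, D.w t.1 t.2.2 t.2.1 * |D.s t.2.2 - D.s t.2.1|
      ≤ Λ * ∑ j, D.s j) :
    ∃ τ : ℝ, 0 < τ ∧ (dg (b := b) D.e fun j => ind τ (D.s j)) ≠ 0 ∧
      En U (dg (b := b) D.e fun j => ind τ (D.s j)) ≤
        Λ * ‖(dg (b := b) D.e fun j => ind τ (D.s j))‖ ^ 2 := by
  have hne : (Finset.univ : Finset (Fin D.n)).Nonempty := by
    by_contra h
    rw [Finset.not_nonempty_iff_eq_empty] at h
    rw [h] at hpos; simp at hpos
  obtain ⟨j₀, -, hj₀⟩ := Finset.exists_max_image Finset.univ D.s hne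
  have hj₀pos : 0 < D.s j₀ := by
    by_contra h
    have : ∑ j, D.s j ≤ 0 := Finset.sum_nonpos fun j hj => (hj₀ j hj).trans (not_lt.1 h)
    linarith
  have hlev : ∀ j, lev 0 (D.s j₀) (D.s j) = D.s j := fun j => by
    unfold lev
    rw [min_eq_right (hj₀ j (Finset.mem_univ _)), sub_zero, max_eq_left (hs j)]
  obtain ⟨τ, hτ, hle⟩ := exists_thr (T := I × Fin D.n × Fin D.n) (T' := Fin D.n)
    (fun t => D.w t.1 t.2.2 t.2.1) (fun t => D.s t.2.2) (fun t => D.s t.2.1) D.s Λ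
    0 (D.s j₀) 0 hj₀pos (by simp only [hlev]; linarith)
  have hn : ‖(dg (b := b) D.e fun j => ind τ (D.s j))‖ ^ 2 = ∑ j, ind τ (D.s j) := by
    rw [norm_dg D.on]
    refine Finset.sum_congr rfl fun j _ => ?_
    unfold ind; split_ifs <;> simp
  refine ⟨τ, hτ.1, fun h0 => ?_, ?_⟩
  · rw [h0] at hn
    have h1 : ind τ (D.s j₀) ≤ ∑ j, ind τ (D.s j) :=
      Finset.single_le_sum (f := fun j => ind τ (D.s j))
        (fun j _ => by unfold ind; split_ifs <;> norm_num) (Finset.mem_univ j₀)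
    have h2 : ind τ (D.s j₀) = 1 := by simp [ind, hτ.2]
    simp at hn
    linarith
  · rw [D.En_dg (D.ind_zero hτ.1.le), hn]
    linarith

end HS

end Vale.Agent.P083
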