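import Vale.Agent.P083.Beta

/-!
Existence of representations, and normalisation of approximate isometries.
-/

namespace Vale.Agent.P083

open scoped ComplexOrder
open Filter Topology

universe u

lemma im_eq_zero_of_state {B : Type*} [CStarAlgebra B] (f : B →L[ℂ] ℂ) (hf : ‖f‖ ≤ 1)
    (h1 : f 1 = 1) {a : B} (ha : IsSelfAdjoint a) : (f a).im = 0 := by
  have key : ∀ t : ℝ, 2 * t * (f a).im ≤ ‖a‖ ^ 2 := fun t => by
    set x : B := a + ((t : ℂ) * Complex.I) • (1 : B) with hx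
    have e : star x * x = a * a + ((t ^ 2 : ℝ) : ℂ) • (1 : B) := by
      simp only [hx, star_add, ha.star_eq, star_smul, star_one, add_mul, mul_add, smul_mul_assoc,
        mul_smul_comm, one_mul, mul_one, star_mul', Complex.star_def, Complex.conj_ofReal,
        Complex.conj_I]
      match_scalars
      · ring
      · ring
      · ring_nf; simp
    have n1 : ‖(1 : B)‖ ≤ 1 := (IsStarProjection.one B).norm_le
    have h2 : ‖x‖ ^ 2 ≤ ‖a‖ ^ 2 + t ^ 2 := by
      rw [sq, ← CStarRing.norm_star_mul_self, e]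
      refine (norm_add_le _ _).trans (add_le_add (by rw [sq]; exact norm_mul_le _ _) ?_)
      rw [norm_smul, Complex.norm_real, Real.norm_of_nonneg (sq_nonneg t)]
      nlinarith [sq_nonneg t]
    have h3 : ‖f x‖ ≤ ‖x‖ := (f.le_opNorm x).trans (by nlinarith [norm_nonneg x])
    have h4 : (f x).im = (f a).im + t := by simp [hx, h1]
    have h5 : |(f x).im| ≤ ‖x‖ := (Complex.abs_im_le_norm _).trans h3
    have h6 : (f x).im ^ 2 ≤ ‖x‖ ^ 2 := by rw [← sq_abs]; gcongr
    rw [h4] at h6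
    nlinarith [sq_nonneg (f a).im]
  by_contra h
  have := key ((‖a‖ ^ 2 + 1) / (2 * (f a).im))
  have e : 2 * ((‖a‖ ^ 2 + 1) / (2 * (f a).im)) * (f a).im = ‖a‖ ^ 2 + 1 := by field_simp
  linarith

theorem exists_rep (B : Type u) [CStarAlgebra B] [Nontrivial B] :
    ∃ (H : Type u) (_ : NormedAddCommGroup H) (_ : InnerProductSpace ℂ H) (_ : CompleteSpace H)
      (_ : Nontrivial H), Nonempty (B →⋆ₐ[ℂ] (H →L[ℂ] H)) := by
  let _ := CStarAlgebra.spectralOrder B
  have := CStarAlgebra.spectralOrderedRing B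
  obtain ⟨f, hf, h1⟩ := exists_dual_vector ℂ (1 : B) (by simp)
  simp only [norm_one, Complex.coe_algebraMap, Complex.ofReal_one] at h1
  have hpos : ∀ a : B, 0 ≤ a → 0 ≤ f a := fun a ha => by
    have hs : IsSelfAdjoint a := IsSelfAdjoint.of_nonneg ha
    have him := im_eq_zero_of_state f hf.le h1 hs
    have h2 : 0 ≤ algebraMap ℝ B ‖a‖ - a := sub_nonneg.2 hs.le_algebraMap_norm_self
    have h3 : ‖algebraMap ℝ B ‖a‖ - a‖ ≤ ‖a‖ := by
      have := CStarAlgebra.norm_le_norm_of_nonneg_of_le h2 (sub_le_self _ ha)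
      simpa using this
    have h4 : ‖f (algebraMap ℝ B ‖a‖ - a)‖ ≤ ‖a‖ := (f.le_opNorm _).trans (by rw [hf]; linarith)
    have h5 : (f (algebraMap ℝ B ‖a‖ - a)).re = ‖a‖ - (f a).re := by
      rw [map_sub, Algebra.algebraMap_eq_smul_one, ← Complex.coe_smul, map_smul, h1]; simp
    have h6 := (Complex.re_le_norm _).trans h4
    rw [Complex.nonneg_iff]
    exact ⟨by linarith, him.symm⟩
  let g : B →ₚ[ℂ] ℂ := PositiveLinearMap.mk₀ f.toLinearMap hpos
  refine ⟨g.GNS, inferInstance, inferInstance, inferInstance, ?_, ⟨g.gnsStarAlgHom⟩⟩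
  refine ⟨((g.toPreGNS 1 : g.PreGNS) : g.GNS), 0, fun h => ?_⟩
  have h2 := congrArg norm h
  rw [UniformSpace.Completion.norm_coe, g.preGNS_norm_def, norm_zero] at h2
  have h3 : g 1 = 1 := h1
  simp [h3] at h2

lemma exists_inv_sqrt {C : Type*} [CStarAlgebra C] {m : C} (hm : IsSelfAdjoint m)
    (h : ‖m - 1‖ ≤ 1 / 2) : ∃ g : C, star g * m * g = 1 ∧ ‖g - 1‖ ≤ 2 * ‖m - 1‖ := by
  rcases subsingleton_or_nontrivial C with hC | hC
  · exact ⟨1, Subsingleton.elim _ _, by simp⟩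
  have hsp : ∀ t ∈ spectrum ℝ m, |t - 1| ≤ ‖m - 1‖ := fun t ht => by
    have h1 : t - 1 ∈ spectrum ℝ (m - 1) := by
      have := spectrum.sub_singleton_eq m (1 : ℝ)
      rw [map_one] at this
      rw [← this]
      exact ⟨t, ht, 1, rfl, rfl⟩
    exact spectrum.norm_le_norm_of_mem h1
  have hpos : ∀ t ∈ spectrum ℝ m, 1 / 2 ≤ t := fun t ht => by
    have := abs_le.1 (hsp t ht); linarith
  have hc : ContinuousOn (fun t : ℝ => (√t)⁻¹) (spectrum ℝ m) :=
    Real.continuous_sqrt.continuousOn.inv₀ fun t ht =>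
      (Real.sqrt_pos.2 (by linarith [hpos t ht])).ne'
  refine ⟨cfc (fun t : ℝ => (√t)⁻¹) m, ?_, ?_⟩
  · have hs : IsSelfAdjoint (cfc (fun t : ℝ => (√t)⁻¹) m) := cfc_predicate _ _
    rw [hs.star_eq]
    nth_rewrite 2 [← cfc_id' ℝ m]
    rw [← cfc_mul _ _ m, ← cfc_mul _ _ m, ← cfc_one ℝ m]
    refine cfc_congr fun t ht => ?_
    have h0 : 0 < t := by linarith [hpos t ht]
    have h1 := Real.sqrt_pos.2 h0
    have h2 := Real.mul_self_sqrt h0.le
    simp only [Pi.one_apply]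
    field_simp
    linarith
  · have e : cfc (fun t : ℝ => (√t)⁻¹) m - 1 = cfc (fun t : ℝ => (√t)⁻¹ - 1) m := by
      rw [cfc_sub _ _ m, cfc_const_one ℝ m]
    rw [e]
    refine norm_cfc_le (by positivity) fun t ht => ?_
    have h0 : 0 < t := by linarith [hpos t ht]
    have h1 := Real.sqrt_pos.2 h0
    have h2 := Real.mul_self_sqrt h0.le
    have h3 : 1 / 2 ≤ √t := Real.le_sqrt_of_sq_le (by linarith [hpos t ht])
    have h4 : (√t)⁻¹ - 1 = (1 - t) / (√t * (1 + √t)) := by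
      field_simp
      nlinarith
    rw [h4, Real.norm_eq_abs, abs_div, abs_of_pos (a := √t * (1 + √t)) (by positivity),
      div_le_iff₀ (by positivity), abs_sub_comm]
    have h5 := hsp t ht
    have h6 : 1 / 2 ≤ √t * (1 + √t) := by nlinarith
    nlinarith [norm_nonneg (m - 1)]

lemma exists_inv_sqrt_seq {C α : Type*} [CStarAlgebra C] {l : Filter α} {m : α → C}
    (hm : ∀ n, IsSelfAdjoint (m n)) (h : Tendsto m l (𝓝 1)) :
    ∃ g : α → C, (∀ n, ‖g n - 1‖ ≤ 1) ∧ Tendsto g l (𝓝 1) ∧ ∀ᶠ n in l, star (g n) * m n * g n = 1 := by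
  classical
  have h0 : Tendsto (fun n => ‖m n - 1‖) l (𝓝 0) := tendsto_iff_norm_sub_tendsto_zero.1 h
  have hev : ∀ᶠ n in l, ‖m n - 1‖ ≤ 1 / 2 := h0.eventually (ge_mem_nhds (by norm_num))
  have : ∀ n, ∃ g : C, ‖g - 1‖ ≤ 1 ∧ (‖m n - 1‖ ≤ 1 / 2 →
      star g * m n * g = 1 ∧ ‖g - 1‖ ≤ 2 * ‖m n - 1‖) := fun n => by
    by_cases hn : ‖m n - 1‖ ≤ 1 / 2
    · obtain ⟨g, h1, h2⟩ := exists_inv_sqrt (hm n) hn
      exact ⟨g, by linarith, fun _ => ⟨h1, h2⟩⟩
    · exact ⟨1, by simp, fun h => absurd h hn⟩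
  choose g h1 h2 using this
  refine ⟨g, h1, tendsto_iff_norm_sub_tendsto_zero.2 ?_, hev.mono fun n hn => (h2 n hn).1⟩
  exact squeeze_zero' (Eventually.of_forall fun n => norm_nonneg _)
    (hev.mono fun n hn => (h2 n hn).2) (by simpa using h0.const_mul 2)

lemma exists_gram {D α : Type*} [CStarAlgebra D] {J : Type} [Fintype J] [DecidableEq J]
    {l : Filter α} {x : α → J → D}
    (h : ∀ a c, Tendsto (fun n => star (x n a) * x n c) l (𝓝 (if a = c then 1 else 0))) :
    ∃ g : α → J → J → D, (∀ n a c, ‖g n a c‖ ≤ 2) ∧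
      (∀ a c, Tendsto (fun n => g n a c) l (𝓝 (if a = c then 1 else 0))) ∧
      ∀ᶠ n in l, Iso fun c => ∑ a, x n a * g n a c := by
  let _ := CStarAlgebra.spectralOrder D
  have := CStarAlgebra.spectralOrderedRing D
  let m : α → CStarMatrix J J D := fun n => CStarMatrix.ofMatrix fun a c => star (x n a) * x n c
  have hma : ∀ n a c, m n a c = star (x n a) * x n c := fun _ _ _ => rfl
  have hm : ∀ n, IsSelfAdjoint (m n) := fun n => by
    refine CStarMatrix.ext fun a c => ?_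
    simp [hma, CStarMatrix.star_apply]
  have ht : Tendsto m l (𝓝 1) := tendsto_pi_nhds.2 fun a => tendsto_pi_nhds.2 fun c => h a c
  obtain ⟨g, h1, h2, h3⟩ := exists_inv_sqrt_seq hm ht
  refine ⟨fun n a c => g n a c, fun n a c => ?_,
    fun a c => tendsto_pi_nhds.1 (tendsto_pi_nhds.1 h2 a) c, h3.mono fun n hn a c => ?_⟩
  · refine CStarMatrix.norm_entry_le_norm.trans ?_
    have n1 : ‖(1 : CStarMatrix J J D)‖ ≤ 1 := (IsStarProjection.one _).norm_le
    have := norm_add_le (g n - 1) 1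
    rw [sub_add_cancel] at this
    linarith [h1 n]
  · have := congrFun (congrFun hn a) c
    rw [CStarMatrix.one_apply] at this
    rw [← this]
    simp only [CStarMatrix.mul_apply, CStarMatrix.star_apply, hma, star_sum, star_mul,
      Finset.sum_mul, Finset.mul_sum, mul_assoc]

lemma unitary_of_near {C : Type*} [CStarAlgebra C] {v : C} (h1 : star v * v = 1)
    (h2 : ‖v * star v - 1‖ < 1) : v ∈ unitary C := by
  refine ⟨h1, ?_⟩
  have e : (v * star v - 1) * (v * star v - 1) = -(v * star v - 1) := by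
    have : v * star v * (v * star v) = v * star v := by
      rw [mul_assoc, ← mul_assoc (star v), h1, one_mul]
    rw [sub_mul, mul_sub, this]; simp
  have h3 := norm_mul_le (v * star v - 1) (v * star v - 1)
  rw [e, norm_neg] at h3
  have h4 : ‖v * star v - 1‖ = 0 := by nlinarith [norm_nonneg (v * star v - 1)]
  exact sub_eq_zero.1 (norm_eq_zero.1 h4)

end Vale.Agent.P083
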