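import Vale.Agent.P083.State
import Vale.Agent.P083.Defs
import Vale.Agent.P083.Quot
import Vale.Agent.P083.Rel
import Vale.Agent.P083.Gap

/-!
Basic properties of the norm ultrapower: quotient map, functoriality, lifting.
-/

namespace Vale.Agent.P083

open Filter Topology
open scoped ENNReal InnerProductSpace

/-- bounded sequences -/
abbrev LL (D : Type*) [CStarAlgebra D] : Type _ := lp (fun _ : ℕ => D) ∞

section basic

variable {D : Type*} [CStarAlgebra D] [Nontrivial D] (ω : Ultrafilter ℕ)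

/-- the underlying quotient map -/
noncomputable def mk0 (x : LL D) : Ultrapower D ω := (nullCon D ω).toQuotient x

omit [Nontrivial D] in
lemma mk0_surj : Function.Surjective (mk0 (D := D) ω) := Quotient.mk''_surjective

noncomputable instance : StarRing (Ultrapower D ω) where
  star_involutive a := by
    obtain ⟨x, rfl⟩ := mk0_surj ω a
    change mk0 ω (star (star x)) = _
    rw [star_star]
  star_mul a c := by
    obtain ⟨x, rfl⟩ := mk0_surj ω a
    obtain ⟨y, rfl⟩ := mk0_surj ω c
    change mk0 ω (star (x * y)) = mk0 ω (star y * star x)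
    rw [star_mul]
  star_add a c := by
    obtain ⟨x, rfl⟩ := mk0_surj ω a
    obtain ⟨y, rfl⟩ := mk0_surj ω c
    change mk0 ω (star (x + y)) = mk0 ω (star x + star y)
    rw [star_add]

instance : StarModule ℂ (Ultrapower D ω) where
  star_smul c a := by
    obtain ⟨x, rfl⟩ := mk0_surj ω a
    change mk0 ω (star (c • x)) = mk0 ω (star c • star x)
    rw [star_smul]

/-- the quotient map -/
noncomputable def mk : LL D →⋆ₐ[ℂ] Ultrapower D ω where
  toFun := mk0 ω
  map_one' := rfl
  map_mul' _ _ := rfl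
  map_zero' := rfl
  map_add' _ _ := rfl
  commutes' _ := rfl
  map_star' _ := rfl

lemma mk_surj (a : Ultrapower D ω) : ∃ x : LL D, mk ω x = a := mk0_surj ω a

variable {ω}

lemma mk_eq_iff {x y : LL D} :
    mk ω x = mk ω y ↔ Tendsto (fun n => ‖x n - y n‖) (ω : Filter ℕ) (𝓝 0) :=
  (nullCon D ω).eq

/-- evaluation -/
def ev (n : ℕ) : LL D →⋆ₐ[ℂ] D where
  toFun x := x n
  map_one' := rfl
  map_mul' _ _ := rfl
  map_zero' := rfl
  map_add' _ _ := rfl
  commutes' _ := rfl
  map_star' _ := rfl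

omit [Nontrivial D] in
lemma norm_ap (x : LL D) (n : ℕ) : ‖x n‖ ≤ ‖x‖ := lp.norm_apply_le_norm (by simp) x n

lemma ev_apply (x : LL D) (n : ℕ) : x n = ev n x := rfl

lemma mk_eq_iff' {x y : LL D} :
    mk ω x = mk ω y ↔ Tendsto (fun n => ‖ev n x - ev n y‖) (ω : Filter ℕ) (𝓝 0) := mk_eq_iff

lemma norm_ev (x : LL D) (n : ℕ) : ‖ev n x‖ ≤ ‖x‖ := norm_ap x n

omit [Nontrivial D] in
/-- a bounded sequence -/
def ofB (x : ℕ → D) (C : ℝ) (h : ∀ n, ‖x n‖ ≤ C) : LL D :=
  ⟨x, memℓp_infty ⟨C, by rintro _ ⟨n, rfl⟩; exact h n⟩⟩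

@[simp] lemma ev_ofB (x : ℕ → D) (C : ℝ) (h : ∀ n, ‖x n‖ ≤ C) (n : ℕ) : ev n (ofB x C h) = x n :=
  rfl

lemma ll_ext {x y : LL D} (h : ∀ n, ev n x = ev n y) : x = y := lp.ext (funext h)

lemma tendsto_of_mk_eq_const {x : LL D} {c : ℂ} (h : mk ω x = algebraMap ℂ _ c) :
    Tendsto (fun n => ev n x) (ω : Filter ℕ) (𝓝 (algebraMap ℂ _ c)) := by
  rw [← AlgHomClass.commutes (mk ω), mk_eq_iff'] at h
  simpa only [AlgHomClass.commutes, ← tendsto_iff_norm_sub_tendsto_zero] using h

lemma mk_eq_const {x : LL D} {c : ℂ}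
    (h : Tendsto (fun n => ev n x) (ω : Filter ℕ) (𝓝 (algebraMap ℂ _ c))) :
    mk ω x = algebraMap ℂ _ c := by
  rw [← AlgHomClass.commutes (mk ω), mk_eq_iff']
  simpa only [AlgHomClass.commutes, ← tendsto_iff_norm_sub_tendsto_zero] using h

lemma lift_iso {J : Type} [Fintype J] [DecidableEq J] {r : J → Ultrapower D ω}
    (h : ∀ a c, star (r a) * r c = if a = c then 1 else 0) :
    ∃ R : J → LL D, (∀ a, mk ω (R a) = r a) ∧ ∀ᶠ n in (ω : Filter ℕ), Iso fun a => ev n (R a) := by
  choose x hx using fun a => mk_surj ω (r a)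
  obtain ⟨g, h1, h2, h3⟩ := exists_gram (l := (ω : Filter ℕ)) (x := fun n a => ev n (x a))
    fun a c => by
      have := tendsto_of_mk_eq_const (ω := ω) (x := star (x a) * x c)
        (c := if a = c then 1 else 0) (by rw [map_mul, map_star, hx, hx, h]; split_ifs <;> simp)
      simp only [map_mul, map_star] at this
      convert this using 2
      split_ifs <;> simp
  let G : J → J → LL D := fun a c => ofB (fun n => g n a c) 2 fun n => h1 n a c
  have hG : ∀ a c, mk ω (G a c) = if a = c then 1 else 0 := fun a c => by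
    have := mk_eq_const (ω := ω) (x := G a c) (c := if a = c then 1 else 0) (by
      have e : algebraMap ℂ D (if a = c then 1 else 0) = if a = c then 1 else 0 := by
        split_ifs <;> simp
      rw [e]; exact h2 a c)
    rw [this]; split_ifs <;> simp
  refine ⟨fun c => ∑ a, x a * G a c, fun c => by simp [hG, hx], h3.mono fun n hn => ?_⟩
  simpa [G] using hn

lemma lift_unitary {u : Ultrapower D ω} (hu : u ∈ unitary (Ultrapower D ω)) :
    ∃ U : LL D, mk ω U = u ∧ ∀ n, ev n U ∈ unitary D := by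
  classical
  obtain ⟨R, h1, h2⟩ := lift_iso (J := Unit) (r := fun _ => u) fun _ _ => by simpa using hu.1
  have h3 : Tendsto (fun n => ‖ev n (R () * star (R ())) - ev n 1‖) (ω : Filter ℕ) (𝓝 0) :=
    mk_eq_iff'.1 (by rw [map_mul, map_star, h1, hu.2, map_one])
  have h4 : ∀ᶠ n in (ω : Filter ℕ), ev n (R ()) ∈ unitary D := by
    filter_upwards [h2, h3.eventually_lt_const one_pos] with n hn hn'
    exact unitary_of_near (by simpa using hn () ()) (by simpa [map_star] using hn')
  refine ⟨ofB (fun n => if ev n (R ()) ∈ unitary D then ev n (R ()) else 1) 1 fun n => ?_, ?_,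
    fun n => ?_⟩
  · split_ifs with h
    · exact HS.norm_le_of_unitary h
    · simp
  · rw [← h1 (), mk_eq_iff']
    refine tendsto_const_nhds.congr' (h4.mono fun n hn => ?_)
    simp [hn]
  · rw [ev_ofB]
    split_ifs with h
    · exact h
    · exact one_mem _

variable {B : Type*} [CStarAlgebra B] [Nontrivial B]

/-- entrywise application of a homomorphism -/
noncomputable def lmap (π : B →⋆ₐ[ℂ] D) : LL B →⋆ₐ[ℂ] LL D where
  toFun x := ofB (fun n => π (ev n x)) ‖x‖ fun n =>
    (NonUnitalStarAlgHom.norm_apply_le π _).trans (norm_ev x n)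
  map_one' := ll_ext fun n => by simp
  map_mul' _ _ := ll_ext fun n => by simp
  map_zero' := ll_ext fun n => by simp
  map_add' _ _ := ll_ext fun n => by simp
  commutes' _ := ll_ext fun n => by simp only [ev_ofB, AlgHomClass.commutes]
  map_star' _ := ll_ext fun n => by simp [map_star]

@[simp] lemma ev_lmap (π : B →⋆ₐ[ℂ] D) (x : LL B) (n : ℕ) : ev n (lmap π x) = π (ev n x) := rfl

lemma mk_lmap (π : B →⋆ₐ[ℂ] D) {x y : LL B} (h : mk ω x = mk ω y) :
    mk ω (lmap π x) = mk ω (lmap π y) := by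
  rw [mk_eq_iff'] at h ⊢
  refine squeeze_zero (fun n => norm_nonneg _) (fun n => ?_) h
  rw [ev_lmap, ev_lmap, ← map_sub]
  exact NonUnitalStarAlgHom.norm_apply_le π _

lemma exists_umap (π : B →⋆ₐ[ℂ] D) : ∃ ρ : Ultrapower B ω →⋆ₐ[ℂ] Ultrapower D ω,
    ∀ x, ρ (mk ω x) = mk ω (lmap π x) := by
  choose s hs using mk_surj (D := B) ω
  have key : ∀ x, mk ω (lmap π (s (mk ω x))) = mk ω (lmap π x) := fun x => mk_lmap π (hs _)
  refine ⟨{ toFun := fun a => mk ω (lmap π (s a))
            map_one' := by rw [← map_one (mk ω), key]; simp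
            map_mul' := fun a c => ?_
            map_zero' := by rw [← map_zero (mk ω), key]; simp
            map_add' := fun a c => ?_
            commutes' := fun c => by rw [← AlgHomClass.commutes (mk ω), key]; simp only [AlgHomClass.commutes]
            map_star' := fun a => ?_ }, key⟩
  · rw [← map_mul, ← map_mul, ← key (_ * _), map_mul (mk ω), hs, hs]
  · rw [← map_add, ← map_add, ← key (_ + _), map_add (mk ω), hs, hs]
  · rw [← map_star, ← map_star, ← key (star _), map_star (mk ω), hs]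

lemma isUltrapower_self : IsUltrapower D ω (Ultrapower D ω) :=
  ⟨mk ω, mk_surj ω, fun x => by
    rw [← map_zero (mk ω), mk_eq_iff]
    simp⟩

lemma IsUltrapower.exists_hom {Q : Type*} [Ring Q] [StarRing Q] [Algebra ℂ Q]
    (h : IsUltrapower D ω Q) : Nonempty (Q →⋆ₐ[ℂ] Ultrapower D ω) := by
  obtain ⟨π, h1, h2⟩ := h
  choose s hs using h1
  have key : ∀ x, mk ω (s (π x)) = mk ω x := fun x => by
    have := (h2 (s (π x) - x)).1 (by rw [map_sub, hs, sub_self])
    exact mk_eq_iff.2 this
  refine ⟨{ toFun := fun a => mk ω (s a)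
            map_one' := by rw [← map_one π, key]; simp
            map_mul' := fun a c => ?_
            map_zero' := by rw [← map_zero π, key]; simp
            map_add' := fun a c => ?_
            commutes' := fun c => by
              rw [← AlgHomClass.commutes π, key]; simp only [AlgHomClass.commutes]
            map_star' := fun a => ?_ }⟩
  · rw [← map_mul, ← key (_ * _), map_mul π, hs, hs]
  · rw [← map_add, ← key (_ + _), map_add π, hs, hs]
  · rw [← map_star, ← key (star _), map_star π, hs]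

end basic

lemma Rel.map {A A' : Type*} [Ring A] [Algebra ℂ A] [StarRing A] [StarModule ℂ A]
    [Ring A'] [Algebra ℂ A'] [StarRing A'] [StarModule ℂ A'] {I J : Type} [Fintype J]
    [DecidableEq J] {p : ℕ} (φ : A →⋆ₐ[ℂ] A') {u : I → A} {r : J → A}
    {w : A} (h : Rel p u r w) : Rel p (fun i => φ (u i)) (fun a => φ (r a)) (φ w) := by
  have hmem : ∀ x : A, x ∈ StarAlgebra.adjoin ℂ (Set.range u) →
      φ x ∈ StarAlgebra.adjoin ℂ (Set.range fun i => φ (u i)) := fun x hx => by
    have e : (Set.range fun i => φ (u i)) = φ '' Set.range u := by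
      rw [← Set.range_comp]; rfl
    rw [e, ← StarAlgHom.map_adjoin]
    exact ⟨x, hx, rfl⟩
  refine ⟨fun i => ⟨by simpa [map_star] using congrArg φ (h.unit i).1,
      by simpa [map_star] using congrArg φ (h.unit i).2⟩,
    fun i => by simpa using congrArg φ (h.pow i), fun i j => ?_, fun a c => ?_,
    fun i => by simpa [map_star] using congrArg φ (h.comm i),
    fun i a c => by simpa [map_star] using hmem _ (h.f_mem i a c),
    fun a c => by simpa [map_star] using hmem _ (h.e_mem a c),
    fun i => by simpa [map_star] using hmem _ (h.b_mem i),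
    by simpa [map_star] using congrArg φ h.w_iso, fun i => by simpa using congrArg φ (h.w_inv i)⟩
  · obtain ⟨z, z1, z2, z3⟩ := h.heis i j
    exact ⟨φ z, by simpa using congrArg φ z1, by simpa using congrArg φ z2,
      by simpa using congrArg φ z3⟩
  · have := congrArg φ (h.iso a c)
    rw [map_mul, map_star] at this
    rw [this]
    split_ifs <;> simp

lemma map_Lap {A A' : Type*} [Ring A] [Algebra ℂ A] [StarRing A]
    [Ring A'] [Algebra ℂ A'] [StarRing A'] (φ : A →⋆ₐ[ℂ] A') {Γ : Type} [Fintype Γ] (a : Γ → A) :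
    φ (Lap a) = Lap fun γ => φ (a γ) := by
  simp [Lap, map_star]

lemma sos_transfer {K : Type*} [NormedAddCommGroup K] [InnerProductSpace ℂ K] [CompleteSpace K]
    [Nontrivial (K →L[ℂ] K)] {ω : Ultrafilter ℕ} {x : LL (K →L[ℂ] K)}
    (hx : mk ω x ∈ SOS (Ultrapower (K →L[ℂ] K) ω)) {η : ℝ} (hη : 0 < η) :
    ∀ᶠ n in (ω : Filter ℕ), ∀ v, -η * ‖v‖ ^ 2 ≤ qf (ev n x) v := by
  have key : ∀ a ∈ SOS (Ultrapower (K →L[ℂ] K) ω), ∃ y : LL (K →L[ℂ] K), mk ω y = a ∧
      ∀ n v, 0 ≤ qf (ev n y) v := fun a ha => by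
    induction ha using AddSubmonoid.closure_induction with
    | mem a ha =>
      obtain ⟨c, rfl⟩ := ha
      obtain ⟨y, rfl⟩ := mk_surj ω c
      refine ⟨star y * y, by simp [map_star], fun n v => ?_⟩
      rw [map_mul, map_star, qf, mul_apply_eq_comp,
        ContinuousLinearMap.star_eq_adjoint, ContinuousLinearMap.adjoint_inner_right]
      exact inner_self_nonneg (𝕜 := ℂ)
    | zero => exact ⟨0, map_zero _, fun n v => by simp [qf]⟩
    | add a c _ _ ha hc =>
      obtain ⟨y, rfl, hy⟩ := ha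
      obtain ⟨z, rfl, hz⟩ := hc
      refine ⟨y + z, map_add _ _ _, fun n v => ?_⟩
      have := add_nonneg (hy n v) (hz n v)
      simpa [qf, inner_add_right] using this
  obtain ⟨y, hy, hy'⟩ := key _ hx
  filter_upwards [(mk_eq_iff'.1 hy).eventually_lt_const hη] with n hn v
  have e : qf (ev n x) v = qf (ev n y) v - (⟪v, (ev n y - ev n x) v⟫_ℂ).re := by
    simp [qf]
  have h1 : (⟪v, (ev n y - ev n x) v⟫_ℂ).re ≤ η * ‖v‖ ^ 2 := by
    refine (Complex.re_le_norm _).trans ((norm_inner_le_norm _ _).trans ?_)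
    have := (ev n y - ev n x).le_opNorm v
    have h2 : ‖(ev n y - ev n x) v‖ ≤ η * ‖v‖ := this.trans (by gcongr)
    calc _ ≤ ‖v‖ * (η * ‖v‖) := by gcongr
      _ = _ := by ring
  linarith [hy' n v]

end Vale.Agent.P083
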