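import Vale.Agent.P083.Rel
import Vale.Agent.P083.Defs

/-!
Weighted injections as isometries of the space of square summable functions, and passage to
generated closed subalgebras.
-/

namespace Vale.Agent.P083

open scoped InnerProductSpace
open ContinuousLinearMap

/-- square summable functions -/
abbrev L2 (V : Type) : Type := lp (fun _ : V => ℂ) 2

section wop

variable {V : Type}

open Classical in
/-- point masses -/
noncomputable def dl (v : V) : L2 V := lp.single 2 v 1

open Classical in
lemma inner_dl (v : V) (x : L2 V) : ⟪dl v, x⟫_ℂ = x v := by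
  simp [dl, lp.inner_single_left]

open Classical in
lemma inner_dl_dl (v v' : V) : ⟪dl v, dl v'⟫_ℂ = if v = v' then 1 else 0 := by
  rw [inner_dl, dl, lp.single_apply, Pi.single_apply]

lemma l2_ext {x y : L2 V} (h : ∀ v, ⟪dl v, x⟫_ℂ = ⟪dl v, y⟫_ℂ) : x = y :=
  lp.ext (funext fun v => by simpa [inner_dl] using h v)

lemma op_ext {T S : L2 V →L[ℂ] L2 V} (h : ∀ v, T (dl v) = S (dl v)) : T = S := by
  classical
  refine lp.ext_continuousLinearMap (by simp) fun v => ?_
  ext1
  have := h v
  simp only [dl] at this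
  simpa using this

lemma orthonormal_wt {f : V → V} (hf : Function.Injective f) {χ : V → ℂ} (hχ : ∀ v, ‖χ v‖ = 1) :
    Orthonormal ℂ fun v => χ v • dl (f v) := by
  classical
  rw [orthonormal_iff_ite]
  intro v v'
  rw [inner_smul_left, inner_smul_right, inner_dl_dl]
  by_cases h : v = v'
  · subst h
    simp [Complex.conj_mul', hχ]
  · simp [h, hf.ne h]

/-- the isometry attached to a weighted injection -/
noncomputable def wop {f : V → V} (hf : Function.Injective f) {χ : V → ℂ} (hχ : ∀ v, ‖χ v‖ = 1) :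
    L2 V →L[ℂ] L2 V :=
  (orthonormal_wt hf hχ).orthogonalFamily.linearIsometry.toContinuousLinearMap

variable {f : V → V} (hf : Function.Injective f) {χ : V → ℂ} (hχ : ∀ v, ‖χ v‖ = 1)

lemma wop_dl (v : V) : wop hf hχ (dl v) = χ v • dl (f v) := by
  classical
  have := (orthonormal_wt hf hχ).orthogonalFamily.linearIsometry_apply_single (i := v) (1 : ℂ)
  simp only [LinearIsometry.toSpanSingleton_apply, one_smul] at this
  rw [← this]
  unfold wop dl
  rw [LinearIsometry.coe_toContinuousLinearMap]

lemma star_wop_mul : star (wop hf hχ) * wop hf hχ = 1 :=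
  (norm_map_iff_adjoint_comp_self _).1 fun x =>
    (orthonormal_wt hf hχ).orthogonalFamily.linearIsometry.norm_map x

lemma star_wop_dl {u : V} (hu : ∀ v, f v ≠ u) : star (wop hf hχ) (dl u) = 0 :=
  l2_ext fun v => by
    rw [star_eq_adjoint, adjoint_inner_right, wop_dl, inner_smul_left, inner_dl_dl, if_neg (hu v)]
    simp

end wop

section sub

variable {C : Type*} [CStarAlgebra C]

lemma separable_closure_adjoin {s : Set C} (hs : s.Countable) :
    TopologicalSpace.SeparableSpace (StarAlgebra.adjoin ℂ s).topologicalClosure := by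
  have h1 : (Submonoid.closure (s ∪ star s) : Set C).Countable := by
    have h2 : (s ∪ star s).Countable := by
      refine hs.union ?_
      rw [← Set.image_star]
      exact hs.image _
    have := h2.to_subtype
    rw [Submonoid.closure_eq_mrange]
    exact Set.countable_range _
  have h3 : TopologicalSpace.IsSeparable (StarAlgebra.adjoin ℂ s : Set C) := by
    have := h1.isSeparable.span (R := ℂ)
    rwa [← StarAlgebra.adjoin_eq_span] at this
  exact h3.closure.separableSpace

lemma Rel.of_injective {A A' : Type*} [Ring A] [Algebra ℂ A] [StarRing A] [StarModule ℂ A]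
    [Ring A'] [Algebra ℂ A'] [StarRing A'] [StarModule ℂ A'] {I J : Type} [Fintype J]
    [DecidableEq J] {p : ℕ} (φ : A →⋆ₐ[ℂ] A') (hφ : Function.Injective φ) {u : I → A} {r : J → A}
    {w : A} (h : Rel p (fun i => φ (u i)) (fun a => φ (r a)) (φ w)) : Rel p u r w := by
  have hmem : ∀ x : A, φ x ∈ StarAlgebra.adjoin ℂ (Set.range fun i => φ (u i)) →
      x ∈ StarAlgebra.adjoin ℂ (Set.range u) := fun x hx => by
    have e : (Set.range fun i => φ (u i)) = φ '' Set.range u := by
      rw [← Set.range_comp]; rfl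
    rw [e, ← StarAlgHom.map_adjoin] at hx
    obtain ⟨y, hy, hy'⟩ := hx
    rwa [← hφ hy']
  have hu : ∀ i, u i ∈ unitary A := fun i =>
    ⟨hφ (by simpa [map_star] using (h.unit i).1), hφ (by simpa [map_star] using (h.unit i).2)⟩
  refine ⟨hu, fun i => hφ (by simpa using h.pow i), fun i j => ?_, fun a c => hφ ?_,
    fun i => hφ (by simpa [map_star] using h.comm i),
    fun i a c => hmem _ (by simpa [map_star] using h.f_mem i a c),
    fun a c => hmem _ (by simpa [map_star] using h.e_mem a c),
    fun i => hmem _ (by simpa [map_star] using h.b_mem i),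
    hφ (by simpa [map_star] using h.w_iso), fun i => hφ (by simpa using h.w_inv i)⟩
  · obtain ⟨z, z1, z2, z3⟩ := h.heis i j
    have hz : φ (u i * u j * star (u j * u i)) = z := by
      rw [map_mul, map_mul, map_star, map_mul, z1, mul_assoc,
        Unitary.mul_star_self_of_mem (mul_mem (h.unit j) (h.unit i)), mul_one]
    exact ⟨_, hφ (by rw [map_mul _ (_ * _), hz]; simpa using z1),
      hφ (by rw [map_mul _ (_ * _), map_mul _ (u i), hz]; exact z2),
      hφ (by rw [map_mul _ (_ * _), map_mul _ (u j), hz]; exact z3)⟩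
  · have := h.iso a c
    rw [map_mul, map_star, this]
    split_ifs <;> simp

end sub

theorem exists_cuntz : ∃ (B : Type) (_ : CStarAlgebra B) (_ : Nontrivial B) (s₁ s₂ : B),
    IsCuntzTwo B s₁ s₂ := by
  have h1 : Function.Injective fun n : ℕ => 2 * n := fun a c h => by simpa using h
  have h2 : Function.Injective fun n : ℕ => 2 * n + 1 := fun a c h => by simpa using h
  have hχ : ∀ v : ℕ, ‖(fun _ => (1 : ℂ)) v‖ = 1 := fun _ => by simp
  set S₁ := wop h1 hχ with hS₁
  set S₂ := wop h2 hχ with hS₂
  have hsum : S₁ * star S₁ + S₂ * star S₂ = 1 := by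
    refine op_ext fun n => ?_
    rw [add_apply, mul_apply_eq_comp, mul_apply_eq_comp, one_apply_eq_self]
    rcases Nat.even_or_odd' n with ⟨k, rfl | rfl⟩
    · have e : dl (2 * k) = S₁ (dl k) := by rw [hS₁, wop_dl, one_smul]
      have z : star S₂ (dl (2 * k)) = 0 := star_wop_dl h2 hχ (fun v => by omega)
      rw [z, map_zero, add_zero, e,
        ← mul_apply_eq_comp (star S₁), star_wop_mul, one_apply_eq_self]
    · have e : dl (2 * k + 1) = S₂ (dl k) := by rw [hS₂, wop_dl, one_smul]
      have z : star S₁ (dl (2 * k + 1)) = 0 := star_wop_dl h1 hχ (fun v => by omega)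
      rw [z, map_zero, zero_add, e,
        ← mul_apply_eq_comp (star S₂), star_wop_mul, one_apply_eq_self]
  set A := (StarAlgebra.adjoin ℂ ({S₁, S₂} : Set (L2 ℕ →L[ℂ] L2 ℕ))).topologicalClosure with hA
  have hcl : IsClosed (A : Set (L2 ℕ →L[ℂ] L2 ℕ)) := StarSubalgebra.isClosed_topologicalClosure _
  have m1 : S₁ ∈ A := StarSubalgebra.le_topologicalClosure _
    (StarAlgebra.subset_adjoin _ _ (by simp))
  have m2 : S₂ ∈ A := StarSubalgebra.le_topologicalClosure _
    (StarAlgebra.subset_adjoin _ _ (by simp))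
  have hnt : Nontrivial (L2 ℕ) := ⟨dl 0, dl 1, fun h => by
    have := inner_dl_dl (0 : ℕ) 1
    rw [← h, inner_dl_dl] at this
    simp at this⟩
  refine ⟨A, inferInstance, inferInstance, ⟨S₁, m1⟩, ⟨S₂, m2⟩, Subtype.ext (star_wop_mul h1 hχ),
    Subtype.ext (star_wop_mul h2 hχ), Subtype.ext hsum, ?_⟩
  rw [eq_top_iff]
  rintro ⟨x, hx⟩ -
  change (⟨x, hx⟩ : A) ∈ closure _
  rw [Topology.IsInducing.subtypeVal.closure_eq_preimage_closure_image]
  refine closure_mono ?_ hx
  have e := StarAlgHom.map_adjoin A.subtype ({⟨S₁, m1⟩, ⟨S₂, m2⟩} : Set A)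
  rw [Set.image_pair] at e
  intro y hy
  have hy' : y ∈ StarSubalgebra.map A.subtype
      (StarAlgebra.adjoin ℂ ({⟨S₁, m1⟩, ⟨S₂, m2⟩} : Set A)) := by rw [e]; exact hy
  exact hy'

end Vale.Agent.P083
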